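import Vale.Agent.P263.TOP.LevelB
import Vale.Agent.P263.E.PTr
import Vale.Agent.P263.S.PowAdd

/-!
# P263, block H5: the functional of a sphere kills the Steenrod squares (helper774)

For `G : Geo d N`, `q < d`, `y ∈ H^q`: the functional `G.phi` and the functionals `hfun G.phi n`
vanish on the coefficient of degree `d` of the total square of `y` (`= Sq^(d-q) y`).
-/

namespace Vale.Agent.P263.TOP.H

open Vale.Agent.P263.S Vale.Agent.P263.E

/-- The class of degree `j` in the total square of `y` (the Steenrod square `Sq^(j-q) y`). -/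
noncomputable def sqc (X : SS) (q j : ℕ) (y : Co X q) : Co X j :=
  cf (SS.F (ZMod 2) X) (q + q) j (P (mulF (ZMod 2) X) (Act.triv C2 _) (sym_mulF _ X) y)

theorem sqc_pull {X Y : SS} (f : SS.Map X Y) (q j : ℕ) (y : Co Y q) :
    sqc X q j ((f.pull (R := ZMod 2)).mapH q y) = (f.pull (R := ZMod 2)).mapH j (sqc Y q j y) :=
  cf_P_pull f j y

theorem sqc_tr {B : SS} (Y : Cov B) (q j : ℕ) (y : Co Y.tot q) :
    sqc B q j ((Y.tr (R := ZMod 2)).mapH q y) = (Y.tr (R := ZMod 2)).mapH j (sqc Y.tot q j y) :=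
  Y.cf_P_tr j y

theorem sqc_ctree (n m q j : ℕ) (y : Co (SS.BW SS.pt n) q) :
    sqc (Gam m) q j ((ctree (ZMod 2) n m).mapH q y) =
      (ctree (ZMod 2) n m).mapH j (sqc (SS.BW SS.pt n) q j y) := by
  have e : ∀ (i : ℕ) (x : Co (SS.BW SS.pt n) i), (ctree (ZMod 2) n m).mapH i x =
      ((TCov n m).tr (R := ZMod 2)).mapH i (((TT.cls n m).pull (R := ZMod 2)).mapH i x) :=
    fun i x => Hom.mapH_comp ((TCov n m).tr (R := ZMod 2)) ((TT.cls n m).pull (R := ZMod 2)) i x
  rw [e, e]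
  exact (sqc_tr (TCov n m) q j _).trans (congrArg _ (sqc_pull (TT.cls n m) q j y))

theorem sqc_zero (X : SS) (q j : ℕ) : sqc X q j 0 = 0 := by
  rw [sqc, P_zero, map_zero]

theorem sqc_deg_zero (X : SS) {j : ℕ} (hj : 0 < j) (y : Co X 0) : sqc X 0 j y = 0 :=
  cf_gt _ _ _ _ (by omega)

/-- the functional of a sphere kills the Steenrod squares -/
theorem phi_sqc {d N : ℕ} (G : Geo d N) {q : ℕ} (hq : q < d) (w : Co (Gam N) q) :
    G.phi (sqc (Gam N) q d w) = 0 := by
  obtain ⟨z, rfl⟩ := (G.hc q (by have := G.hD; omega)).2 w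
  rw [sqc_pull, G.phi_res, ← sqc_pull]
  rcases Nat.eq_zero_or_pos q with h | h
  · subst h
    rw [sqc_deg_zero _ G.dpos, map_zero]
  · rw [G.hA.low q h hq ((G.a.pull (R := ZMod 2)).mapH q z), sqc_zero, map_zero]

theorem hfun_sqc {d N : ℕ} (G : Geo d N) (n : ℕ) {q : ℕ} (hq : q < d)
    (y : Co (SS.BW SS.pt n) q) : hfun G.phi n (sqc (SS.BW SS.pt n) q d y) = 0 := by
  rw [hfun_apply, ← sqc_ctree]
  exact phi_sqc G hq _

end Vale.Agent.P263.TOP.H
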