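import Vale.Agent.P263.S.FinMaps
import Mathlib.Data.Finset.Powerset
import Mathlib.Data.Finset.Sym
import Mathlib.Algebra.BigOperators.Group.Finset.Sigma
import Mathlib.Data.Set.Finite.Basic

/-!
P263, block [H1] (weights), levelwise combinatorics.

A p-simplex of the space of m-point multi-labelled sets is a finite set F of
label vectors Fin (p+1) -> Nat such that every coordinate is injective on F.
Everything here is exact: no homotopies.
-/

namespace Vale.Agent.P263.TOP.H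

open Finset

/-- label vectors in simplicial degree p -/
abbrev Lab (p : ℕ) : Type := Fin (p + 1) → ℕ

/-- reindexing of a label vector -/
def rl {p q : ℕ} (φ : Fin (q + 1) →o Fin (p + 1)) (s : Lab p) : Lab q := fun i => s (φ i)

@[simp] theorem rl_apply {p q : ℕ} (φ : Fin (q + 1) →o Fin (p + 1)) (s : Lab p) (i : Fin (q + 1)) :
    rl φ s i = s (φ i) := rfl

@[simp] theorem rl_id {p : ℕ} (s : Lab p) : rl OrderHom.id s = s := rfl

theorem rl_comp {p q r : ℕ} (φ : Fin (q + 1) →o Fin (p + 1)) (ψ : Fin (r + 1) →o Fin (q + 1))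
    (s : Lab p) : rl ψ (rl φ s) = rl (φ.comp ψ) s := rfl

/-- every coordinate is injective on F -/
def Good {p : ℕ} (F : Finset (Lab p)) : Prop := ∀ i : Fin (p + 1), Set.InjOn (fun s : Lab p => s i) F

theorem Good.mono {p : ℕ} {F A : Finset (Lab p)} (h : Good F) (hA : A ⊆ F) : Good A :=
  fun i => (h i).mono (by exact_mod_cast hA)

theorem good_empty {p : ℕ} : Good (∅ : Finset (Lab p)) := fun i => by simp

/-- restriction of a finite set of label vectors along a monotone map -/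
def res {p q : ℕ} (φ : Fin (q + 1) →o Fin (p + 1)) (F : Finset (Lab p)) : Finset (Lab q) :=
  F.image (rl φ)

@[simp] theorem res_id {p : ℕ} (F : Finset (Lab p)) : res OrderHom.id F = F := by
  unfold res
  have : rl (OrderHom.id : Fin (p + 1) →o Fin (p + 1)) = id := rfl
  rw [this, image_id]

theorem res_comp {p q r : ℕ} (φ : Fin (q + 1) →o Fin (p + 1)) (ψ : Fin (r + 1) →o Fin (q + 1))
    (F : Finset (Lab p)) : res ψ (res φ F) = res (φ.comp ψ) F := by
  unfold res
  rw [image_image]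
  rfl

theorem mem_res {p q : ℕ} {φ : Fin (q + 1) →o Fin (p + 1)} {F : Finset (Lab p)} {t : Lab q} :
    t ∈ res φ F ↔ ∃ s ∈ F, rl φ s = t := by
  unfold res; rw [mem_image]

theorem Good.injOn {p q : ℕ} {F : Finset (Lab p)} (h : Good F) (φ : Fin (q + 1) →o Fin (p + 1)) :
    Set.InjOn (rl φ) (F : Set (Lab p)) := by
  intro s hs t ht hst
  exact h (φ 0) hs ht (by simpa using congrFun hst 0)

theorem Good.res {p q : ℕ} {F : Finset (Lab p)} (h : Good F) (φ : Fin (q + 1) →o Fin (p + 1)) :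
    Good (res φ F) := by
  intro i s hs t ht hst
  rw [mem_coe, mem_res] at hs ht
  obtain ⟨s', hs', rfl⟩ := hs
  obtain ⟨t', ht', rfl⟩ := ht
  have : s' = t' := h (φ i) hs' ht' (by simpa using hst)
  rw [this]

theorem Good.card_res {p q : ℕ} {F : Finset (Lab p)} (h : Good F) (φ : Fin (q + 1) →o Fin (p + 1)) :
    (H.res φ F).card = F.card :=
  card_image_of_injOn (h.injOn φ)

theorem res_mono {p q : ℕ} (φ : Fin (q + 1) →o Fin (p + 1)) {A B : Finset (Lab p)} (h : A ⊆ B) :
    res φ A ⊆ res φ B := image_subset_image h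

theorem Good.mem_res_iff {p q : ℕ} {F : Finset (Lab p)} (h : Good F)
    (φ : Fin (q + 1) →o Fin (p + 1)) {A : Finset (Lab p)} (hA : A ⊆ F) {s : Lab p} (hs : s ∈ F) :
    rl φ s ∈ H.res φ A ↔ s ∈ A := by
  rw [mem_res]
  constructor
  · rintro ⟨t, ht, hts⟩
    have : t = s := h.injOn φ (by exact_mod_cast hA ht) (by exact_mod_cast hs) hts
    exact this ▸ ht
  · intro hsA; exact ⟨s, hsA, rfl⟩

theorem Good.res_injOn {p q : ℕ} {F : Finset (Lab p)} (h : Good F)
    (φ : Fin (q + 1) →o Fin (p + 1)) :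
    Set.InjOn (H.res φ) {A : Finset (Lab p) | A ⊆ F} := by
  intro A hA B hB hAB
  ext s
  constructor
  · intro hs
    have h1 : rl φ s ∈ H.res φ A := mem_res.2 ⟨s, hs, rfl⟩
    rw [hAB] at h1
    exact (h.mem_res_iff φ hB (hA hs)).1 h1
  · intro hs
    have h1 : rl φ s ∈ H.res φ B := mem_res.2 ⟨s, hs, rfl⟩
    rw [← hAB] at h1
    exact (h.mem_res_iff φ hA (hB hs)).1 h1

theorem res_union {p q : ℕ} (φ : Fin (q + 1) →o Fin (p + 1)) (A B : Finset (Lab p)) :
    H.res φ (A ∪ B) = H.res φ A ∪ H.res φ B := image_union _ _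

theorem Good.disjoint_res_iff {p q : ℕ} {F : Finset (Lab p)} (h : Good F)
    (φ : Fin (q + 1) →o Fin (p + 1)) {A B : Finset (Lab p)} (hA : A ⊆ F) (hB : B ⊆ F) :
    Disjoint (H.res φ A) (H.res φ B) ↔ Disjoint A B := by
  rw [disjoint_left, disjoint_left]
  constructor
  · intro hd s hsA hsB
    exact hd (mem_res.2 ⟨s, hsA, rfl⟩) (mem_res.2 ⟨s, hsB, rfl⟩)
  · intro hd t htA htB
    obtain ⟨s, hs, rfl⟩ := mem_res.1 htA
    exact hd hs ((h.mem_res_iff φ hB (hA hs)).1 htB)

/-- the subsets of the restriction are the restrictions of the subsets -/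
theorem Good.powerset_res {p q : ℕ} {F : Finset (Lab p)} (h : Good F)
    (φ : Fin (q + 1) →o Fin (p + 1)) :
    (H.res φ F).powerset = F.powerset.image (H.res φ) := by
  ext B
  rw [mem_powerset, mem_image]
  constructor
  · intro hB
    refine ⟨F.filter (fun s => rl φ s ∈ B), by simp, ?_⟩
    ext t
    rw [mem_res]
    constructor
    · rintro ⟨s, hs, rfl⟩
      exact (mem_filter.1 hs).2
    · intro ht
      obtain ⟨s, hs, rfl⟩ := mem_res.1 (hB ht)
      exact ⟨s, mem_filter.2 ⟨hs, ht⟩, rfl⟩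
  · rintro ⟨A, hA, rfl⟩
    exact res_mono φ (mem_powerset.1 hA)

theorem Good.powersetCard_res {p q : ℕ} {F : Finset (Lab p)} (h : Good F)
    (φ : Fin (q + 1) →o Fin (p + 1)) (m : ℕ) :
    (H.res φ F).powersetCard m = (F.powersetCard m).image (H.res φ) := by
  ext B
  rw [mem_powersetCard, mem_image]
  constructor
  · rintro ⟨hB, hc⟩
    have : B ∈ F.powerset.image (H.res φ) := by
      rw [← h.powerset_res φ]; exact mem_powerset.2 hB
    obtain ⟨A, hA, rfl⟩ := mem_image.1 this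
    refine ⟨A, mem_powersetCard.2 ⟨mem_powerset.1 hA, ?_⟩, rfl⟩
    rw [← hc, (h.mono (mem_powerset.1 hA)).card_res φ]
  · rintro ⟨A, hA, rfl⟩
    rw [mem_powersetCard] at hA
    exact ⟨res_mono φ hA.1, by rw [(h.mono hA.1).card_res φ, hA.2]⟩

/-- sum over the m-subsets of a restriction -/
theorem Good.sum_powersetCard_res {p q : ℕ} {F : Finset (Lab p)} (h : Good F)
    (φ : Fin (q + 1) →o Fin (p + 1)) (m : ℕ) {M : Type*} [AddCommMonoid M]
    (w : Finset (Lab q) → M) :
    ∑ B ∈ (H.res φ F).powersetCard m, w B = ∑ A ∈ F.powersetCard m, w (H.res φ A) := by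
  rw [h.powersetCard_res φ m, sum_image]
  intro A hA B hB hAB
  exact h.res_injOn φ (mem_powersetCard.1 (by exact_mod_cast hA)).1
    (mem_powersetCard.1 (by exact_mod_cast hB)).1 hAB

/-- pairs (A,B) of an i-subset and a j-subset with union C -/
def pairs {α : Type*} [DecidableEq α] (i j : ℕ) (C : Finset α) : Finset (Finset α × Finset α) :=
  ((C.powersetCard i) ×ˢ (C.powersetCard j)).filter (fun z => z.1 ∪ z.2 = C)

theorem mem_pairs {α : Type*} [DecidableEq α] {i j : ℕ} {C A B : Finset α} :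
    (A, B) ∈ pairs i j C ↔ A.card = i ∧ B.card = j ∧ A ∪ B = C := by
  unfold pairs
  rw [mem_filter, mem_product, mem_powersetCard, mem_powersetCard]
  constructor
  · rintro ⟨⟨⟨-, h1⟩, ⟨-, h2⟩⟩, h3⟩; exact ⟨h1, h2, h3⟩
  · rintro ⟨h1, h2, h3⟩
    subst h3
    exact ⟨⟨⟨subset_union_left, h1⟩, ⟨subset_union_right, h2⟩⟩, rfl⟩

/-- the product formula: pairs of subsets, sorted by their union -/
theorem sum_pairs {α : Type*} [DecidableEq α] (F : Finset α) (i j : ℕ) {M : Type*}
    [AddCommMonoid M] (y : Finset α → Finset α → M) :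
    ∑ A ∈ F.powersetCard i, ∑ B ∈ F.powersetCard j, y A B =
      ∑ n ∈ range (i + j + 1), ∑ C ∈ F.powersetCard n, ∑ z ∈ pairs i j C, y z.1 z.2 := by
  have hL : ∑ A ∈ F.powersetCard i, ∑ B ∈ F.powersetCard j, y A B =
      ∑ z ∈ (F.powersetCard i) ×ˢ (F.powersetCard j), y z.1 z.2 := by
    rw [sum_product]
  rw [hL, sum_sigma' (range (i + j + 1)) (fun n => F.powersetCard n)
    (fun n C => ∑ z ∈ pairs i j C, y z.1 z.2)]
  rw [← sum_fiberwise_of_maps_to (s := (F.powersetCard i) ×ˢ (F.powersetCard j))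
    (t := (range (i + j + 1)).sigma (fun n => F.powersetCard n))
    (g := fun z => (⟨(z.1 ∪ z.2).card, z.1 ∪ z.2⟩ : Σ _ : ℕ, Finset α))]
  · apply sum_congr rfl
    rintro ⟨n, C⟩ hn
    rw [mem_sigma, mem_powersetCard] at hn
    obtain ⟨h1, h2, h3⟩ := hn
    apply sum_congr _ (fun _ _ => rfl)
    ext ⟨A, B⟩
    rw [mem_filter, mem_product, mem_powersetCard, mem_powersetCard, mem_pairs]
    constructor
    · rintro ⟨⟨⟨-, h4⟩, ⟨-, h5⟩⟩, h6⟩
      refine ⟨h4, h5, ?_⟩
      have := (Sigma.mk.inj_iff.1 h6).2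
      exact eq_of_heq this
    · rintro ⟨h4, h5, h6⟩
      subst h6
      refine ⟨⟨⟨subset_union_left.trans h2, h4⟩, ⟨subset_union_right.trans h2, h5⟩⟩, ?_⟩
      exact Sigma.mk.inj_iff.2 ⟨h3, HEq.rfl⟩
  · rintro ⟨A, B⟩ hz
    rw [mem_product, mem_powersetCard, mem_powersetCard] at hz
    obtain ⟨⟨h1, h2⟩, ⟨h3, h4⟩⟩ := hz
    rw [mem_sigma, mem_range, mem_powersetCard]
    refine ⟨?_, union_subset h1 h3, rfl⟩
    have := card_union_le A B
    simp only at *
    omega

/-- restriction of pairs -/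
theorem Good.pairs_res {p q : ℕ} {C : Finset (Lab p)} (h : Good C)
    (φ : Fin (q + 1) →o Fin (p + 1)) (i j : ℕ) {M : Type*} [AddCommMonoid M]
    (y : Finset (Lab q) → Finset (Lab q) → M) :
    ∑ z ∈ pairs i j (H.res φ C), y z.1 z.2 =
      ∑ z ∈ pairs i j C, y (H.res φ z.1) (H.res φ z.2) := by
  symm
  apply sum_bij (fun z _ => (H.res φ z.1, H.res φ z.2))
  · rintro ⟨A, B⟩ hz
    obtain ⟨h1, h2, h3⟩ := mem_pairs.1 hz
    refine mem_pairs.2 ⟨?_, ?_, ?_⟩
    · rw [(h.mono (h3 ▸ subset_union_left)).card_res φ, h1]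
    · rw [(h.mono (h3 ▸ subset_union_right)).card_res φ, h2]
    · rw [← h3]; exact (image_union _ _).symm
  · rintro ⟨A, B⟩ hz ⟨A', B'⟩ hz' heq
    obtain ⟨-, -, h3⟩ := mem_pairs.1 hz
    obtain ⟨-, -, h3'⟩ := mem_pairs.1 hz'
    have e1 : H.res φ A = H.res φ A' := congrArg Prod.fst heq
    have e2 : H.res φ B = H.res φ B' := congrArg Prod.snd heq
    have a1 : A = A' := h.res_injOn φ (show A ⊆ C from h3 ▸ subset_union_left)
      (show A' ⊆ C from h3' ▸ subset_union_left) e1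
    have a2 : B = B' := h.res_injOn φ (show B ⊆ C from h3 ▸ subset_union_right)
      (show B' ⊆ C from h3' ▸ subset_union_right) e2
    rw [a1, a2]
  · rintro ⟨A, B⟩ hz
    obtain ⟨h1, h2, h3⟩ := mem_pairs.1 hz
    have hA : A ∈ (H.res φ C).powerset := mem_powerset.2 (h3 ▸ subset_union_left)
    have hB : B ∈ (H.res φ C).powerset := mem_powerset.2 (h3 ▸ subset_union_right)
    rw [h.powerset_res φ, mem_image] at hA hB
    obtain ⟨A', hA', rfl⟩ := hA
    obtain ⟨B', hB', rfl⟩ := hB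
    rw [mem_powerset] at hA' hB'
    refine ⟨(A', B'), mem_pairs.2 ⟨?_, ?_, ?_⟩, rfl⟩
    · rw [← h1, (h.mono hA').card_res φ]
    · rw [← h2, (h.mono hB').card_res φ]
    · apply h.res_injOn φ (show A' ∪ B' ⊆ C from union_subset hA' hB') (show C ⊆ C from subset_rfl)
      rw [← h3]; exact image_union _ _
  · rintro ⟨A, B⟩ _
    rfl

end Vale.Agent.P263.TOP.H
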