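import Vale.Agent.P263.E.D2
import Vale.Agent.P263.TOP.H.Lab
import Mathlib.Data.Sym.Sym2
import Mathlib.Data.Countable.Basic
import Mathlib.Data.Finset.Sym

/-!
P263, block [H]: the frozen models.

* `Gam m`   : p-simplices = m-element sets of label vectors, every coordinate injective (a model
  of the classifying space of the symmetric group of m letters);
* `GamP i j`: disjoint pairs (A,B), |A| = i, |B| = j, with A ∪ B good;
* `TW α n`  : iterated unordered pairs (possibly equal), `Proper`, `leaves`, `trees n F` = the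
  proper trees with leaves in F;
* `cl`      : the classifying map of trees of label vectors, with values in `E.SS.BW pt n`
  (`E/D2.lean` of helper67).
-/

namespace Vale.Agent.P263.TOP.H

open Finset Vale.Agent.P263.S Vale.Agent.P263.E

/-- m-point multi-labelled sets -/
def Gam (m : ℕ) : SS where
  obj p := {F : Finset (Lab p) // Good F ∧ F.card = m}
  map φ F := ⟨res φ F.1, F.2.1.res φ, by rw [F.2.1.card_res φ, F.2.2]⟩
  map_id F := Subtype.ext (res_id F.1)
  map_comp f g F := Subtype.ext (res_comp f g F.1).symm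

/-- disjoint pairs of multi-labelled sets -/
def GamP (i j : ℕ) : SS where
  obj p := {z : Finset (Lab p) × Finset (Lab p) //
    Good (z.1 ∪ z.2) ∧ Disjoint z.1 z.2 ∧ z.1.card = i ∧ z.2.card = j}
  map φ z := ⟨(res φ z.1.1, res φ z.1.2), by
    obtain ⟨⟨A, B⟩, h1, h2, h3, h4⟩ := z
    refine ⟨?_, ?_, ?_, ?_⟩
    · rw [← res_union]; exact h1.res φ
    · exact (h1.disjoint_res_iff φ subset_union_left subset_union_right).2 h2
    · rw [(h1.mono subset_union_left).card_res φ]; exact h3
    · rw [(h1.mono subset_union_right).card_res φ]; exact h4⟩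
  map_id z := Subtype.ext (Prod.ext (res_id _) (res_id _))
  map_comp f g z := Subtype.ext (Prod.ext (res_comp f g _).symm (res_comp f g _).symm)

/-- the total set of a pair -/
def GamP.tot (i j : ℕ) : SS.Map (GamP i j) (Gam (i + j)) where
  app z := ⟨z.1.1 ∪ z.1.2, z.2.1, by
    rw [card_union_of_disjoint z.2.2.1, z.2.2.2.1, z.2.2.2.2]⟩
  nat φ z := Subtype.ext (res_union φ _ _).symm

/-- the two members of a pair -/
def GamP.incl (i j : ℕ) : SS.Map (GamP i j) ((Gam i).prod (Gam j)) where
  app z := (⟨z.1.1, z.2.1.mono subset_union_left, z.2.2.2.1⟩,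
    ⟨z.1.2, z.2.1.mono subset_union_right, z.2.2.2.2⟩)
  nat _ _ := rfl

/-! ### trees -/

universe u v

/-- iterated unordered pairs -/
@[reducible] def TW (α : Type u) : ℕ → Type u
  | 0 => α
  | n + 1 => Sym2 (TW α n)

/-- functoriality -/
def TW.map {α : Type u} {β : Type v} (f : α → β) : (n : ℕ) → TW α n → TW β n
  | 0 => f
  | n + 1 => Sym2.map (TW.map f n)

theorem TW.map_id {α : Type u} : ∀ (n : ℕ) (t : TW α n), TW.map (fun a : α => a) n t = t
  | 0, _ => rfl
  | n + 1, t => by
    have h : TW.map (fun a : α => a) n = id := funext fun t => TW.map_id n t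
    show Sym2.map (TW.map (fun a : α => a) n) t = t
    rw [h, Sym2.map_id]
    rfl

theorem TW.map_map {α : Type u} {β γ : Type v} (f : α → β) (g : β → γ) :
    ∀ (n : ℕ) (t : TW α n), TW.map g n (TW.map f n t) = TW.map (fun a => g (f a)) n t
  | 0, _ => rfl
  | n + 1, t => by
    show Sym2.map (TW.map g n) (Sym2.map (TW.map f n) t) = Sym2.map (TW.map _ n) t
    rw [Sym2.map_map]
    congr 1
    funext s
    exact TW.map_map f g n s

/-- the set of leaves -/
def TW.leaves {α : Type u} [DecidableEq α] : (n : ℕ) → TW α n → Finset α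
  | 0, a => ({(a : α)} : Finset α)
  | n + 1, p => Sym2.lift ⟨fun s t => TW.leaves n s ∪ TW.leaves n t,
      fun _ _ => Finset.union_comm _ _⟩ p

theorem TW.leaves_mk {α : Type u} [DecidableEq α] (n : ℕ) (s t : TW α n) :
    TW.leaves (n + 1) (s(s, t) : Sym2 (TW α n)) = TW.leaves n s ∪ TW.leaves n t := rfl

instance TW.decEq {α : Type u} [DecidableEq α] : (n : ℕ) → DecidableEq (TW α n)
  | 0 => inferInstanceAs (DecidableEq α)
  | n + 1 => by
    have := TW.decEq (α := α) n
    exact inferInstanceAs (DecidableEq (Sym2 (TW α n)))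

/-- the proper trees with leaves in F: all pairs are pairs of distinct trees -/
def trees {α : Type u} [DecidableEq α] : (n : ℕ) → Finset α → Finset (TW α n)
  | 0, F => F
  | n + 1, F =>
    have := TW.decEq (α := α) n
    (trees n F).sym2.filter (fun p => ¬ Sym2.IsDiag p)

theorem mem_trees_succ {α : Type u} [DecidableEq α] {n : ℕ} {F : Finset α} {s t : TW α n} :
    (s(s, t) : Sym2 (TW α n)) ∈ trees (n + 1) F ↔ s ∈ trees n F ∧ t ∈ trees n F ∧ s ≠ t := by
  show s(s, t) ∈ (trees n F).sym2.filter (fun p => ¬ Sym2.IsDiag p) ↔ _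
  rw [mem_filter, Finset.mk_mem_sym2_iff, Sym2.mk_isDiag_iff, and_assoc]

theorem TW.map_mk {α : Type u} {β : Type v} (f : α → β) (n : ℕ) (s t : TW α n) :
    TW.map f (n + 1) (s(s, t) : Sym2 (TW α n)) = s(TW.map f n s, TW.map f n t) := rfl

theorem trees_mono {α : Type u} [DecidableEq α] {F G : Finset α} (h : F ⊆ G) :
    ∀ n : ℕ, trees n F ⊆ trees n G
  | 0 => h
  | n + 1 => by
    intro p hp
    induction p using Sym2.ind with
    | _ s t =>
      rw [mem_trees_succ] at hp ⊢
      exact ⟨trees_mono h n hp.1, trees_mono h n hp.2.1, hp.2.2⟩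

theorem TW.map_injOn {α : Type u} {β : Type v} [DecidableEq α] {f : α → β}
    {F : Finset α} (hf : Set.InjOn f (F : Set α)) :
    ∀ n : ℕ, Set.InjOn (TW.map f n) (trees n F : Set (TW α n))
  | 0 => hf
  | n + 1 => by
    have ih := TW.map_injOn hf n
    intro p hp q hq h
    induction p using Sym2.ind with
    | _ s t =>
      induction q using Sym2.ind with
      | _ s' t' =>
        rw [mem_coe, mem_trees_succ] at hp hq
        rw [TW.map_mk, TW.map_mk, Sym2.eq_iff] at h
        rcases h with ⟨h1, h2⟩ | ⟨h1, h2⟩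
        · rw [ih (mem_coe.2 hp.1) (mem_coe.2 hq.1) h1,
            ih (mem_coe.2 hp.2.1) (mem_coe.2 hq.2.1) h2]
        · rw [ih (mem_coe.2 hp.1) (mem_coe.2 hq.2.1) h1,
            ih (mem_coe.2 hp.2.1) (mem_coe.2 hq.1) h2]
          exact Sym2.eq_swap

theorem trees_image {α : Type u} {β : Type v} [DecidableEq α] [DecidableEq β] {f : α → β}
    {F : Finset α} (hf : Set.InjOn f (F : Set α)) :
    ∀ n : ℕ, trees n (F.image f) = (trees n F).image (TW.map f n)
  | 0 => rfl
  | n + 1 => by
    have ih := trees_image hf n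
    have hi := TW.map_injOn hf n
    ext q
    induction q using Sym2.ind with
    | _ s t =>
      rw [mem_trees_succ, ih]
      constructor
      · rintro ⟨h1, h2, h3⟩
        obtain ⟨s', hs', rfl⟩ := mem_image.1 h1
        obtain ⟨t', ht', rfl⟩ := mem_image.1 h2
        exact mem_image.2 ⟨s(s', t'), mem_trees_succ.2 ⟨hs', ht', fun h => h3 (by rw [h])⟩, rfl⟩
      · intro hq
        obtain ⟨p, hp, h⟩ := mem_image.1 hq
        induction p using Sym2.ind with
        | _ s' t' =>
          rw [mem_trees_succ] at hp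
          rw [TW.map_mk, Sym2.eq_iff] at h
          have h' : TW.map f n s' ≠ TW.map f n t' := fun h'' =>
            hp.2.2 (hi (mem_coe.2 hp.1) (mem_coe.2 hp.2.1) h'')
          rcases h with ⟨h1, h2⟩ | ⟨h1, h2⟩
          · subst h1 h2
            exact ⟨mem_image_of_mem _ hp.1, mem_image_of_mem _ hp.2.1, h'⟩
          · subst h1 h2
            exact ⟨mem_image_of_mem _ hp.2.1, mem_image_of_mem _ hp.1, h'.symm⟩

theorem sum_trees_image {α : Type u} {β : Type v} [DecidableEq α] [DecidableEq β] {f : α → β}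
    {F : Finset α} (hf : Set.InjOn f (F : Set α)) (n : ℕ) {M : Type*} [AddCommMonoid M]
    (w : TW β n → M) :
    ∑ t ∈ trees n (F.image f), w t = ∑ t ∈ trees n F, w (TW.map f n t) := by
  rw [trees_image hf, sum_image]
  exact fun s hs t ht h => TW.map_injOn hf n hs ht h

/-- a base point in every degree of BW pt n -/
def bwPt : (n : ℕ) → (p : ℕ) → (SS.BW SS.pt n).obj p
  | 0, _ => ()
  | n + 1, p => SS.D2.mk (fun _ => 1) (bwPt n p) (bwPt n p)

/-! ### the classifying map -/

instance TW.countable {α : Type u} [Countable α] : (n : ℕ) → Countable (TW α n)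
  | 0 => inferInstanceAs (Countable α)
  | n + 1 => by
    have := TW.countable (α := α) n
    exact inferInstanceAs (Countable (Quot _))

/-- an injective code for trees of natural numbers -/
noncomputable def code (n : ℕ) : TW ℕ n → ℕ := (Countable.exists_injective_nat (TW ℕ n)).choose

theorem code_injective (n : ℕ) : Function.Injective (code n) :=
  (Countable.exists_injective_nat (TW ℕ n)).choose_spec

/-- the tree of the labels at vertex i -/
def ev {p : ℕ} (n : ℕ) (i : Fin (p + 1)) (t : TW (Lab p) n) : TW ℕ n :=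
  TW.map (fun s : Lab p => s i) n t

theorem ev_map {p q n : ℕ} (φ : Op q p) (i : Fin (q + 1)) (t : TW (Lab p) n) :
    ev n i (TW.map (rl φ) n t) = ev n (φ i) t := by
  unfold ev
  rw [TW.map_map]
  rfl

/-- the relative order of two trees of labels -/
noncomputable def ord {p : ℕ} (n : ℕ) (s t : TW (Lab p) n) : Fin (p + 1) → C2 :=
  fun i => if code n (ev n i s) < code n (ev n i t) then 1 else tau

theorem ord_map {p q n : ℕ} (φ : Op q p) (s t : TW (Lab p) n) :
    ord n (TW.map (rl φ) n s) (TW.map (rl φ) n t) = fun i => ord n s t (φ i) := by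
  funext i
  unfold ord
  rw [ev_map, ev_map]

theorem ord_symm {p n : ℕ} {s t : TW (Lab p) n} (h : ∀ i, ev n i s ≠ ev n i t) :
    ord n t s = fun i => tau * ord n s t i := by
  funext i
  unfold ord
  have h1 : code n (ev n i s) ≠ code n (ev n i t) := fun h' => h i (code_injective n h')
  rcases lt_or_gt_of_ne h1 with h2 | h2
  · rw [if_neg (not_lt.2 h2.le), if_pos h2, mul_one]
  · rw [if_pos h2, if_neg (not_lt.2 h2.le), tau_mul_tau]

open Classical in
/-- the classifying map of a pair -/
noncomputable def clPair {p : ℕ} (n : ℕ) (c : TW (Lab p) n → (SS.BW SS.pt n).obj p)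
    (s t : TW (Lab p) n) : (SS.D2 (SS.BW SS.pt n)).obj p :=
  if ∀ i, ev n i s ≠ ev n i t then SS.D2.mk (ord n s t) (c s) (c t)
  else SS.D2.mk (fun _ => 1) (bwPt n p) (bwPt n p)

theorem clPair_symm {p : ℕ} (n : ℕ) (c : TW (Lab p) n → (SS.BW SS.pt n).obj p) (s t : TW (Lab p) n) :
    clPair n c s t = clPair n c t s := by
  unfold clPair
  by_cases h : ∀ i, ev n i s ≠ ev n i t
  · rw [if_pos h, if_pos (fun i => (h i).symm), ord_symm h]
    exact (SS.D2.mk_swap _ _ _).symm
  · rw [if_neg h, if_neg (fun h' => h fun i => (h' i).symm)]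

/-- the classifying map of trees of label vectors -/
noncomputable def cl {p : ℕ} : (n : ℕ) → TW (Lab p) n → (SS.BW SS.pt n).obj p
  | 0, _ => ()
  | n + 1, t => Sym2.lift ⟨fun s t => clPair n (cl n) s t, fun s t => clPair_symm n (cl n) s t⟩ t

theorem cl_mk {p : ℕ} (n : ℕ) (s t : TW (Lab p) n) :
    cl (n + 1) (s(s, t) : Sym2 (TW (Lab p) n)) = clPair n (cl n) s t := rfl

/-- different trees of a good set have different trees of labels at every vertex -/
theorem Good.ev_ne {p : ℕ} {F : Finset (Lab p)} (h : Good F) {n : ℕ} {s t : TW (Lab p) n}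
    (hs : s ∈ trees n F) (ht : t ∈ trees n F) (hst : s ≠ t) (i : Fin (p + 1)) :
    ev n i s ≠ ev n i t := fun h' =>
  hst (TW.map_injOn (h i) n (mem_coe.2 hs) (mem_coe.2 ht) h')

theorem cl_mk_of_ne {p : ℕ} (n : ℕ) {s t : TW (Lab p) n} (h : ∀ i, ev n i s ≠ ev n i t) :
    cl (n + 1) (s(s, t) : Sym2 (TW (Lab p) n)) =
      SS.D2.mk (ord n s t) (cl n s) (cl n t) := by
  rw [cl_mk, clPair, if_pos h]

/-- the classifying map is simplicial on trees of good sets -/
theorem Good.cl_map {p : ℕ} {F : Finset (Lab p)} (h : Good F) {q : ℕ} (φ : Op q p) :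
    ∀ (n : ℕ) (t : TW (Lab p) n), t ∈ trees n F →
      cl n (TW.map (rl φ) n t) = (SS.BW SS.pt n).map φ (cl n t)
  | 0, _, _ => rfl
  | n + 1, t, ht => by
    induction t using Sym2.ind with
    | _ s t =>
      rw [mem_trees_succ] at ht
      obtain ⟨h1, h2, h3⟩ := ht
      have h4 : ∀ i, ev n i s ≠ ev n i t := h.ev_ne h1 h2 h3
      have h5 : ∀ i, ev n i (TW.map (rl φ) n s) ≠ ev n i (TW.map (rl φ) n t) := by
        intro i
        rw [ev_map, ev_map]
        exact h4 _
      rw [TW.map_mk, cl_mk_of_ne n h4, cl_mk_of_ne n h5]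
      show _ = (SS.D2 (SS.BW SS.pt n)).map φ _
      rw [SS.D2.map_mk, ord_map, h.cl_map φ n s h1, h.cl_map φ n t h2]

/-! ### total spaces of trees -/

/-- points of the tree covering: a good set together with a tree on it -/
def TT (n m : ℕ) : SS where
  obj p := {z : Finset (Lab p) × TW (Lab p) n // (Good z.1 ∧ z.1.card = m) ∧ z.2 ∈ trees n z.1}
  map φ z := ⟨(res φ z.1.1, TW.map (rl φ) n z.1.2),
    ⟨z.2.1.1.res φ, by rw [z.2.1.1.card_res φ, z.2.1.2]⟩, by
      have h : trees n (res φ z.1.1) = _ := trees_image (z.2.1.1.injOn φ) n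
      show TW.map (rl φ) n z.1.2 ∈ trees n (res φ z.1.1)
      rw [h]
      exact mem_image_of_mem _ z.2.2⟩
  map_id z := Subtype.ext (Prod.ext (res_id _) (TW.map_id n _))
  map_comp f g z := Subtype.ext (Prod.ext (res_comp f g _).symm
    (TW.map_map (rl f) (rl g) n z.1.2).symm)

/-- the covering projection -/
def TT.pr (n m : ℕ) : SS.Map (TT n m) (Gam m) where
  app z := ⟨z.1.1, z.2.1⟩
  nat _ _ := rfl

/-- the classifying map of the tree covering -/
noncomputable def TT.cls (n m : ℕ) : SS.Map (TT n m) (SS.BW SS.pt n) where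
  app z := cl n z.1.2
  nat φ z := z.2.1.1.cl_map φ n z.1.2 z.2.2

end Vale.Agent.P263.TOP.H
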