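import Vale.Agent.P263.TOP.H.Model
import Vale.Agent.P263.E.Cov

/-!
# P263: the covering of trees of `Gam m`

`TCov n m : Cov (Gam m)`, with total space `TT n m`.
-/

namespace Vale.Agent.P263.TOP.H

open Finset Vale.Agent.P263.S Vale.Agent.P263.E

/-- the trees of a simplex of `Gam m` as points of the total space -/
def TT.emb {n m p : ℕ} (F : (Gam m).obj p) : {t : TW (Lab p) n // t ∈ trees n F.1} ↪ (TT n m).obj p where
  toFun t := ⟨(F.1, t.1), F.2, t.2⟩
  inj' _ _ h := Subtype.ext (congrArg (fun z : (TT n m).obj p => z.1.2) h)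

theorem TT.ext {n m p : ℕ} {z z' : (TT n m).obj p} (h1 : (TT.pr n m).app z = (TT.pr n m).app z')
    (h2 : z.1.2 = z'.1.2) : z = z' :=
  Subtype.ext (Prod.ext (congrArg (fun F : (Gam m).obj p => F.1) h1) h2)

/-- the covering of the proper trees of depth `n` with leaves in an `m`-element set -/
def TCov (n m : ℕ) : Cov (Gam m) where
  tot := TT n m
  pr := TT.pr n m
  fib F := (trees n F.1).attach.map (TT.emb F)
  mem_fib := by
    intro p F z
    rw [mem_map]
    constructor
    · rintro ⟨t, -, rfl⟩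
      rfl
    · rintro rfl
      exact ⟨⟨z.1.2, z.2.2⟩, mem_attach _ _, rfl⟩
  lift_inj := by
    intro p q θ z z' h h'
    refine TT.ext h ?_
    have h1 : z.1.1 = z'.1.1 := congrArg (fun F : (Gam m).obj q => F.1) h
    have h2 : TW.map (rl θ) n z.1.2 = TW.map (rl θ) n z'.1.2 :=
      congrArg (fun z : (TT n m).obj p => z.1.2) h'
    exact TW.map_injOn (z.2.1.1.injOn θ) n (mem_coe.2 z.2.2) (mem_coe.2 (h1 ▸ z'.2.2)) h2
  lift_surj := by
    intro p q θ F z h
    have h1 : z.1.1 = res θ F.1 := congrArg (fun F : (Gam m).obj p => F.1) h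
    have h2 : z.1.2 ∈ (trees n F.1).image (TW.map (rl θ) n) := by
      have h3 : trees n (res θ F.1) = _ := trees_image (F.2.1.injOn θ) n
      rw [← h3, ← h1]
      exact z.2.2
    obtain ⟨t, ht, ht'⟩ := mem_image.1 h2
    refine ⟨⟨(F.1, t), F.2, ht⟩, rfl, ?_⟩
    exact TT.ext h.symm ht'

@[simp] theorem TCov_tot (n m : ℕ) : (TCov n m).tot = TT n m := rfl

/-- sums over a fibre of the covering of trees -/
theorem sum_TCov {n m p : ℕ} {M : Type*} [AddCommMonoid M] (F : (Gam m).obj p)
    (f : TW (Lab p) n → M) :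
    ∑ z ∈ (TCov n m).fib F, f z.1.2 = ∑ t ∈ trees n F.1, f t := by
  refine (Finset.sum_map _ (TT.emb F) fun z : (TT n m).obj p => f z.1.2).trans ?_
  exact Finset.sum_attach (trees n F.1) f

/-- the transfer of the classifying map: `x ↦ tr (cl^* x)`, on functions -/
noncomputable def ctree (R : Type) [CommRing R] (n m : ℕ) :
    Hom (SS.F R (SS.BW SS.pt n)) (SS.F R (Gam m)) :=
  ((TCov n m).tr (R := R)).comp (TT.cls n m).pull

theorem ctree_apply {R : Type} [CommRing R] {n m p : ℕ} (x : (SS.F R (SS.BW SS.pt n)).obj p)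
    (F : (Gam m).obj p) :
    (ctree R n m).app p x F = ∑ t ∈ trees n F.1, x (cl n t) :=
  sum_TCov F fun t => x (cl n t)

end Vale.Agent.P263.TOP.H
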