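import Vale.Agent.P263.TOP.LevelB
import Vale.Agent.P263.E.ProdRange

/-!
# P263, block H (helper720): the functional of a sphere is primitive

`primStmt : PrimStmt`, the first item of the contract of `TOP/LevelB.lean`.
-/

namespace Vale.Agent.P263.TOP

open Vale.Agent.P263.S Vale.Agent.P263.E Vale.Agent.P263.TOP.H

/-! ### `Gam N` is connected -/

/-- the edge between two vertices given by a bijection -/
theorem Gam_edge {N : ℕ} (x y : (Gam N).obj 0) :
    ∃ e : (Gam N).obj 1, (Gam N).map (dl 0 1) e = x ∧ (Gam N).map (dl 0 0) e = y := by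
  classical
  obtain ⟨F, hF, hFc⟩ := x
  obtain ⟨G, hG, hGc⟩ := y
  have hcard : F.card = G.card := by rw [hFc, hGc]
  let σ : F ≃ G := Finset.equivOfCardEq hcard
  let f : F → Lab 1 := fun s i => if i = 0 then s.1 0 else (σ s).1 0
  have h00 : ∀ s : Lab 0, ∀ t : Lab 0, s 0 = t 0 → s = t := by
    intro s t h
    funext i
    rw [Subsingleton.elim (α := Fin 1) i 0, h]
  have hf : Function.Injective f := by
    intro s t h
    apply Subtype.ext
    apply h00
    exact congrFun h 0
  let E : Finset (Lab 1) := Finset.univ.image f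
  have hE : Good E := by
    intro i s hs t ht hst
    obtain ⟨s', _, rfl⟩ := Finset.mem_image.1 (Finset.mem_coe.1 hs)
    obtain ⟨t', _, rfl⟩ := Finset.mem_image.1 (Finset.mem_coe.1 ht)
    change (if i = 0 then s'.1 0 else (σ s').1 0) = (if i = 0 then t'.1 0 else (σ t').1 0) at hst
    by_cases hi : i = 0
    · rw [if_pos hi, if_pos hi] at hst
      rw [Subtype.ext (h00 _ _ hst)]
    · rw [if_neg hi, if_neg hi] at hst
      rw [σ.injective (Subtype.ext (h00 _ _ hst))]
  have hEc : E.card = N := by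
    rw [Finset.card_image_of_injective _ hf, Finset.card_univ, Fintype.card_coe, hFc]
  refine ⟨⟨E, hE, hEc⟩, Subtype.ext ?_, Subtype.ext ?_⟩
  · show res (dl 0 1) E = F
    ext s
    rw [mem_res]
    constructor
    · rintro ⟨t, ht, rfl⟩
      obtain ⟨s', _, rfl⟩ := Finset.mem_image.1 ht
      have : rl (dl 0 1) (f s') = s'.1 := h00 _ _ rfl
      rw [this]
      exact s'.2
    · intro hs
      exact ⟨f ⟨s, hs⟩, Finset.mem_image_of_mem _ (Finset.mem_univ _), h00 _ _ rfl⟩
  · show res (dl 0 0) E = G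
    ext s
    rw [mem_res]
    constructor
    · rintro ⟨t, ht, rfl⟩
      obtain ⟨s', _, rfl⟩ := Finset.mem_image.1 ht
      have : rl (dl 0 0) (f s') = (σ s').1 := h00 _ _ rfl
      rw [this]
      exact (σ s').2
    · intro hs
      refine ⟨f (σ.symm ⟨s, hs⟩), Finset.mem_image_of_mem _ (Finset.mem_univ _), h00 _ _ ?_⟩
      show (σ (σ.symm ⟨s, hs⟩)).1 0 = s 0
      rw [Equiv.apply_symm_apply]

theorem Gam_conn0 (N : ℕ) : Conn0 (Gam N) := by
  intro S hS x y hx
  obtain ⟨e, h1, h0⟩ := Gam_edge x y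
  have := (hS e).2 (by rw [h1]; exact hx)
  rwa [h0] at this

/-- a space with the `H^0` of a connected one is connected -/
theorem conn0_of_injective {R : Type} [CommRing R] [Nontrivial R] {B Z : SS} (c : SS.Map B Z)
    (hB : Conn0 B) (v : B.obj 0) (h : Function.Injective ((c.pull (R := R)).mapH 0)) : Conn0 Z := by
  classical
  intro S hS x y hx
  let f : (SS.F R Z).obj 0 := fun z => if S z then (1 : R) else 0
  have hf : f ∈ (SS.F R Z).Z 0 := by
    rw [CosMod.mem_Z, d_zero_apply]
    funext e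
    show (if S (Z.map (dl 0 0) e) then (1 : R) else 0) -
      (if S (Z.map (dl 0 1) e) then (1 : R) else 0) = 0
    simp only [hS e, sub_self]
  let g : (SS.F R Z).obj 0 := fun _ => f (c.app v)
  have hg : g ∈ (SS.F R Z).Z 0 := by
    rw [CosMod.mem_Z, d_zero_apply]
    funext e
    show f (c.app v) - f (c.app v) = 0
    rw [sub_self]
  have hconst : ∀ b : B.obj 0, f (c.app b) = f (c.app v) := by
    intro b
    by_cases hv : S (c.app v)
    · have hb : S (c.app b) := hB (fun b => S (c.app b)) (fun e => by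
        rw [c.nat, c.nat]; exact hS _) v b hv
      show (if S (c.app b) then (1 : R) else 0) = if S (c.app v) then (1 : R) else 0
      rw [if_pos hb, if_pos hv]
    · have hb : ¬ S (c.app b) := fun hb => hv (hB (fun b => S (c.app b)) (fun e => by
        rw [c.nat, c.nat]; exact hS _) b v hb)
      show (if S (c.app b) then (1 : R) else 0) = if S (c.app v) then (1 : R) else 0
      rw [if_neg hb, if_neg hv]
  have key : (SS.F R Z).cls 0 ⟨f, hf⟩ = (SS.F R Z).cls 0 ⟨g, hg⟩ := by
    apply h
    rw [Hom.mapH_cls, Hom.mapH_cls]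
    congr 1
    apply Subtype.ext
    funext b
    exact hconst b
  rw [CosMod.cls_eq_iff, CosMod.mem_Bd_zero, sub_eq_zero] at key
  have h1 : f x = f (c.app v) := congrFun key x
  have h2 : f y = f (c.app v) := congrFun key y
  rw [← h2] at h1
  change (if S x then (1 : R) else 0) = if S y then (1 : R) else 0 at h1
  rw [if_pos hx] at h1
  by_contra hy
  rw [if_neg hy] at h1
  exact one_ne_zero h1

/-- **the functional of a sphere is primitive** -/
theorem primStmt : PrimStmt := by
  intro d N G v y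
  have hZ : Conn0 G.Z := conn0_of_injective G.c (Gam_conn0 N) v (G.hc 0 (Nat.zero_le _)).1
  obtain ⟨y', rfl, h⟩ := prim_general (a := G.a) (by have := G.hD; omega) G.hc G.hA hZ v y
  have e0 : (SS.times G.c G.c).comp (SS.pair (SS.Map.id _) (SS.Map.id _)) =
    (SS.pair (SS.Map.id G.Z) (SS.Map.id G.Z)).comp G.c := rfl
  have e1 : (SS.times G.c G.c).comp (SS.pair (SS.Map.id _) (cstM (Gam N) v)) =
      (SS.pair (SS.Map.id G.Z) (SS.cstMap G.Z (G.c.app v))).comp G.c :=
    SS.Map.ext fun p x => Prod.ext rfl (G.c.nat _ v)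
  have e2 : (SS.times G.c G.c).comp (SS.pair (cstM (Gam N) v) (SS.Map.id _)) =
      (SS.pair (SS.cstMap G.Z (G.c.app v)) (SS.Map.id G.Z)).comp G.c :=
    SS.Map.ext fun p x => Prod.ext (G.c.nat _ v) rfl
  rw [← SS.mapH_pull_comp, ← SS.mapH_pull_comp, ← SS.mapH_pull_comp, e0, e1, e2,
    SS.mapH_pull_comp, SS.mapH_pull_comp, SS.mapH_pull_comp, G.phi_res, G.phi_res, G.phi_res,
    ← map_add]
  exact congrArg G.fund h

end Vale.Agent.P263.TOP
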