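import Vale.Agent.P263.TOP.H.Flags
import Vale.Agent.P263.TOP.H.Model

/-!
# P263, section [H-FLAG] (helper354): the trees `Tr` (310) and the trees `TW`, `trees` (290)
-/

namespace Vale.Agent.P263.TOP.H

open Finset

universe u v

variable {α : Type u} {β : Type v}

/-- the underlying weak tree -/
def toTW : (n : ℕ) → Tr α n → TW α n
  | 0, a => (a : α)
  | n + 1, p => Sym2.map (toTW n) p.1

theorem toTW_mk (n : ℕ) (s t : Tr α n) (h : ¬ (s(s, t) : Sym2 (Tr α n)).IsDiag) :
    toTW (n + 1) ⟨s(s, t), h⟩ = s(toTW n s, toTW n t) := rfl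

theorem toTW_succ (n : ℕ) (t : Tr α (n + 1)) : toTW (n + 1) t = Sym2.map (toTW n) t.1 := rfl

theorem toTW_injective : ∀ n : ℕ, Function.Injective (toTW (α := α) n)
  | 0 => fun _ _ h => h
  | n + 1 => fun _ _ h => Subtype.ext (Sym2.map.injective (toTW_injective n) h)

theorem toTW_mp (f : α ↪ β) : ∀ (n : ℕ) (t : Tr α n), toTW n (mp f n t) = TW.map f n (toTW n t)
  | 0, _ => rfl
  | n + 1, t => by
    rw [toTW_succ, toTW_succ, mp_val, Sym2.map_map]
    show _ = Sym2.map (TW.map f n) (Sym2.map (toTW n) t.1)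
    rw [Sym2.map_map]
    congr 1
    funext s
    exact toTW_mp f n s

section
variable [DecidableEq α]

theorem leaves_toTW : ∀ (n : ℕ) (t : Tr α n), TW.leaves n (toTW n t) = leaves n t
  | 0, _ => rfl
  | n + 1, ⟨p, hp⟩ => by
    induction p using Sym2.ind with
    | _ s t =>
      rw [toTW_mk, TW.leaves_mk, leaves_mk, leaves_toTW n s, leaves_toTW n t]

theorem toTW_mem {F : Finset α} : ∀ {n : ℕ} {t : Tr α n}, toTW n t ∈ trees n F ↔ leaves n t ⊆ F
  | 0, _ => (singleton_subset_iff (α := α)).symm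
  | n + 1, ⟨p, hp⟩ => by
    induction p using Sym2.ind with
    | _ s t =>
      rw [toTW_mk, mem_trees_succ, leaves_mk, union_subset_iff, toTW_mem, toTW_mem]
      constructor
      · rintro ⟨h1, h2, _⟩
        exact ⟨h1, h2⟩
      · rintro ⟨h1, h2⟩
        refine ⟨h1, h2, fun h => hp ?_⟩
        rw [Sym2.mk_isDiag_iff]
        exact toTW_injective n h

theorem exists_toTW {F : Finset α} : ∀ {n : ℕ} {t : TW α n}, t ∈ trees n F →
    ∃ t' : Tr α n, toTW n t' = t
  | 0, t, _ => ⟨t, rfl⟩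
  | n + 1, p, h => by
    induction p using Sym2.ind with
    | _ s t =>
      rw [mem_trees_succ] at h
      obtain ⟨s', rfl⟩ := exists_toTW h.1
      obtain ⟨t', rfl⟩ := exists_toTW h.2.1
      exact ⟨⟨s(s', t'), fun hd => h.2.2 (by rw [Sym2.mk_isDiag_iff] at hd; rw [hd])⟩, rfl⟩

/-- the full trees on `F` -/
def fullTrees (n : ℕ) (F : Finset α) : Finset (TW α n) :=
  (trees n F).filter (fun t => TW.leaves n t = F)

theorem mem_fullTrees {n : ℕ} {F : Finset α} {t : TW α n} :
    t ∈ fullTrees n F ↔ t ∈ trees n F ∧ TW.leaves n t = F := mem_filter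

/-- the full trees of 310 and of 290 -/
def fullEquivFun (n : ℕ) (F : Finset α) (t : Full n F) : {t : TW α n // t ∈ fullTrees n F} :=
  ⟨toTW n t.1, mem_fullTrees.2 ⟨toTW_mem.2 t.2.subset, (leaves_toTW n t.1).trans t.2⟩⟩

theorem fullEquivFun_bijective (n : ℕ) (F : Finset α) :
    Function.Bijective (fullEquivFun n F) := by
  constructor
  · intro s t h
    exact Subtype.ext (toTW_injective n (congrArg Subtype.val h))
  · rintro ⟨t, ht⟩
    rw [mem_fullTrees] at ht
    obtain ⟨t', rfl⟩ := exists_toTW ht.1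
    exact ⟨⟨t', (leaves_toTW n t').symm.trans ht.2⟩, rfl⟩

theorem finite_full (n : ℕ) (F : Finset α) : Finite (Full n F) :=
  Finite.of_injective _ (fullEquivFun_bijective n F).1

theorem sum_fullTrees {M : Type*} [AddCommMonoid M] (n : ℕ) (F : Finset α) [Fintype (Full n F)]
    (w : TW α n → M) : ∑ t ∈ fullTrees n F, w t = ∑ t : Full n F, w (toTW n t.1) := by
  rw [← Finset.sum_coe_sort (fullTrees n F) w]
  symm
  exact Fintype.sum_bijective (fullEquivFun n F) (fullEquivFun_bijective n F) _ _ (fun _ => rfl)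

theorem TW.leaves_map_aux [DecidableEq β] (f : α → β) : ∀ (n : ℕ) (t : TW α n),
    TW.leaves n (TW.map f n t) = (TW.leaves n t).image f
  | 0, t => by
    show ({f t} : Finset β) = ({(t : α)} : Finset α).image f
    rw [image_singleton]
  | n + 1, t => by
    induction t using Sym2.ind with
    | _ s t =>
      rw [TW.map_mk, TW.leaves_mk, TW.leaves_mk, image_union, TW.leaves_map_aux f n s,
        TW.leaves_map_aux f n t]

theorem TW.leaves_subset {F : Finset α} : ∀ {n : ℕ} {t : TW α n}, t ∈ trees n F →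
    TW.leaves n t ⊆ F
  | n, t, h => by
    obtain ⟨t', rfl⟩ := exists_toTW h
    rw [leaves_toTW]
    exact toTW_mem.1 h

theorem fullTrees_image [DecidableEq β] {f : α → β} {F : Finset α}
    (hf : Set.InjOn f (F : Set α)) (n : ℕ) :
    fullTrees n (F.image f) = (fullTrees n F).image (TW.map f n) := by
  ext t
  rw [mem_fullTrees, trees_image hf, mem_image, mem_image]
  constructor
  · rintro ⟨⟨s, hs, rfl⟩, h⟩
    refine ⟨s, mem_fullTrees.2 ⟨hs, ?_⟩, rfl⟩
    rw [TW.leaves_map_aux] at h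
    have hsub := TW.leaves_subset hs
    exact subset_antisymm hsub fun a ha => by
      have h1 : f a ∈ (TW.leaves n s).image f := by rw [h]; exact mem_image_of_mem f ha
      obtain ⟨b, hb, hab⟩ := mem_image.1 h1
      rwa [← hf (hsub hb) ha hab]
  · rintro ⟨s, hs, rfl⟩
    rw [mem_fullTrees] at hs
    exact ⟨⟨s, hs.1, rfl⟩, by rw [TW.leaves_map_aux, hs.2]⟩

theorem sum_fullTrees_image [DecidableEq β] {f : α → β} {F : Finset α}
    (hf : Set.InjOn f (F : Set α)) (n : ℕ) {M : Type*} [AddCommMonoid M] (w : TW β n → M) :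
    ∑ t ∈ fullTrees n (F.image f), w t = ∑ t ∈ fullTrees n F, w (TW.map f n t) := by
  rw [fullTrees_image hf, sum_image]
  intro s hs t ht h
  exact TW.map_injOn hf n (mem_coe.2 (mem_fullTrees.1 hs).1) (mem_coe.2 (mem_fullTrees.1 ht).1) h

end

end Vale.Agent.P263.TOP.H
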