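import Vale.Agent.P263.TOP.H.Trees
import Vale.Agent.P263.TOP.H.TrTW

/-!
P263, block [H]: the number of full trees on a set with `2^n` points is odd; the covering of the
full trees.
-/

namespace Vale.Agent.P263.TOP.H

open Finset Vale.Agent.P263.S Vale.Agent.P263.E

theorem fullT_eq_fullTrees {α : Type} [DecidableEq α] (n : ℕ) (C : Finset α) :
    fullT n C = fullTrees n C := rfl

theorem odd_fullT {α : Type} [DecidableEq α] {n : ℕ} {C : Finset α} (hC : C.card = 2 ^ n) :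
    Odd (fullT n C).card := by
  obtain ⟨_, ho⟩ := odd_full n C hC
  rw [Nat.card_congr (Equiv.ofBijective _ (fullEquivFun_bijective n C)),
    Nat.card_eq_fintype_card, Fintype.card_coe] at ho
  exact ho

/-- the full trees over `Gam (2^k)` -/
def FT (k : ℕ) : SS where
  obj p := {z : Finset (Lab p) × TW (Lab p) k //
    (Good z.1 ∧ z.1.card = 2 ^ k) ∧ z.2 ∈ fullT k z.1}
  map φ z := ⟨(res φ z.1.1, TW.map (rl φ) k z.1.2),
    ⟨z.2.1.1.res φ, by rw [z.2.1.1.card_res φ, z.2.1.2]⟩, by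
      have h : fullT k (res φ z.1.1) = (fullT k z.1.1).image (TW.map (rl φ) k) :=
        fullTrees_image (z.2.1.1.injOn φ) k
      show TW.map (rl φ) k z.1.2 ∈ fullT k (res φ z.1.1)
      rw [h]
      exact mem_image_of_mem _ z.2.2⟩
  map_id z := Subtype.ext (Prod.ext (res_id _) (TW.map_id k _))
  map_comp f g z := Subtype.ext (Prod.ext (res_comp f g _).symm
    (TW.map_map (rl f) (rl g) k z.1.2).symm)

/-- the projection -/
def FT.pr (k : ℕ) : SS.Map (FT k) (Gam (2 ^ k)) where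
  app z := ⟨z.1.1, z.2.1⟩
  nat _ _ := rfl

/-- the classifying map -/
noncomputable def FT.cls (k : ℕ) : SS.Map (FT k) (SS.BW SS.pt k) where
  app z := cl k z.1.2
  nat φ z := z.2.1.1.cl_map φ k z.1.2 (mem_fullT.1 z.2.2).1

variable {R : Type} [CommRing R]

open Classical in
/-- function on the trees given by a function on `FT k` -/
noncomputable def eF {p k : ℕ} (y : (SS.F R (FT k)).obj p) (C : Finset (Lab p))
    (t : TW (Lab p) k) : R :=
  if h : (Good C ∧ C.card = 2 ^ k) ∧ t ∈ fullT k C then y ⟨(C, t), h⟩ else 0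

theorem eF_of {p k : ℕ} (y : (SS.F R (FT k)).obj p) {C : Finset (Lab p)}
    {t : TW (Lab p) k} (h : (Good C ∧ C.card = 2 ^ k) ∧ t ∈ fullT k C) :
    eF y C t = y ⟨(C, t), h⟩ := dif_pos h

/-- the transfer of the full trees -/
noncomputable def FT.tr (k : ℕ) : Hom (SS.F R (FT k)) (SS.F R (Gam (2 ^ k))) where
  app p :=
    { toFun := fun y C => ∑ t ∈ fullT k C.1, eF y C.1 t
      map_add' := fun y y' => by
        funext C
        show ∑ t ∈ fullT k C.1, eF (y + y') C.1 t =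
          (∑ t ∈ fullT k C.1, eF y C.1 t) + ∑ t ∈ fullT k C.1, eF y' C.1 t
        rw [← sum_add_distrib]
        refine sum_congr rfl fun t ht => ?_
        rw [eF_of _ ⟨C.2, ht⟩, eF_of _ ⟨C.2, ht⟩, eF_of _ ⟨C.2, ht⟩]
        rfl
      map_smul' := fun c y => by
        funext C
        show ∑ t ∈ fullT k C.1, eF (c • y) C.1 t = c * ∑ t ∈ fullT k C.1, eF y C.1 t
        rw [mul_sum]
        refine sum_congr rfl fun t ht => ?_
        rw [eF_of _ ⟨C.2, ht⟩, eF_of _ ⟨C.2, ht⟩]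
        rfl }
  nat {p q} φ y := by
    funext C
    show ∑ t ∈ fullT k C.1, eF ((SS.F R (FT k)).map φ y) C.1 t =
      ∑ t ∈ fullT k (res φ C.1), eF y (res φ C.1) t
    rw [C.2.1.sum_fullT_res φ k]
    refine sum_congr rfl fun t ht => ?_
    have ht' : TW.map (rl φ) k t ∈ fullT k (res φ C.1) := by
      have h : fullT k (res φ C.1) = (fullT k C.1).image (TW.map (rl φ) k) :=
        fullTrees_image (C.2.1.injOn φ) k
      rw [h]
      exact mem_image_of_mem _ ht
    rw [eF_of _ ⟨C.2, ht⟩, eF_of y ⟨⟨C.2.1.res φ, by rw [C.2.1.card_res φ, C.2.2]⟩, ht'⟩]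
    rfl

theorem FT.tr_app (k : ℕ) {p : ℕ} (y : (SS.F R (FT k)).obj p) (C : (Gam (2 ^ k)).obj p) :
    (FT.tr (R := R) k).app p y C = ∑ t ∈ fullT k C.1, eF y C.1 t := rfl

/-- `LL` is the transfer of the pull-back -/
theorem FT.tr_cls (k : ℕ) : (FT.tr (R := R) k).comp (FT.cls k).pull = LL k (2 ^ k) := by
  apply Hom.ext
  intro p w
  funext C
  show ∑ t ∈ fullT k C.1, eF (((FT.cls k).pull).app p w) C.1 t = ∑ t ∈ fullT k C.1, w (cl k t)
  refine sum_congr rfl fun t ht => ?_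
  rw [eF_of _ ⟨C.2, ht⟩]
  rfl

/-- the transfer of a pulled back cochain -/
theorem FT.tr_pr (k : ℕ) : (FT.tr (R := ZMod 2) k).comp (FT.pr k).pull = Hom.id _ := by
  apply Hom.ext
  intro p w
  funext C
  show ∑ t ∈ fullT k C.1, eF (((FT.pr k).pull).app p w) C.1 t = w C
  have h1 : ∀ t ∈ fullT k C.1, eF (((FT.pr k).pull).app p w) C.1 t = w C := by
    intro t ht
    rw [eF_of _ ⟨C.2, ht⟩]
    rfl
  rw [sum_congr rfl h1, sum_const, nsmul_eq_mul]
  have h2 : ((fullT k C.1).card : ZMod 2) = 1 := by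
    rw [ZMod.natCast_eq_one_iff_odd]
    exact odd_fullT C.2.2
  rw [h2, one_mul]

/-- **(c2) ⟹ onto**: if `cls^* sec^* = id` then `LL (sec^* pr^* x) = x` -/
theorem LL_sec {k d : ℕ} (sec : SS.Map (SS.BW SS.pt k) (FT k))
    (h : ∀ x : (SS.F (ZMod 2) (FT k)).H d,
      ((FT.cls k).pull).mapH d ((sec.pull).mapH d x) = x)
    (x : (SS.F (ZMod 2) (Gam (2 ^ k))).H d) :
    (LL (R := ZMod 2) k (2 ^ k)).mapH d ((((FT.pr k).comp sec).pull).mapH d x) = x := by
  rw [← FT.tr_cls, Hom.mapH_comp, SS.Map.pull_comp, Hom.mapH_comp, h, ← Hom.mapH_comp, FT.tr_pr,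
    Hom.mapH_id]

end Vale.Agent.P263.TOP.H
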