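import Vale.Agent.P263.C.C8
import Vale.Agent.P263.TOP.H.Model

/-!
P263, block [H], part (Hb) (helper196).

* `incl_mapH_surjective`: the inclusion of disjoint pairs into all pairs is onto in cohomology
  (homotopy section: double the labels of A, double and add one for B);
* `gam_zero_H`, `gam_one_H`: the models `Gam 0` and `Gam 1` have no cohomology in positive degrees.
-/

noncomputable section

namespace Vale.Agent.P263.TOP.H

open Finset Vale.Agent.P263.S Vale.Agent.P263.E

/-! ### relabelling -/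

/-- relabel the i-th coordinate by f i -/
def rlb {p : ℕ} (f : Fin (p + 1) → ℕ → ℕ) (s : Lab p) : Lab p := fun i => f i (s i)

@[simp] theorem rlb_apply {p : ℕ} (f : Fin (p + 1) → ℕ → ℕ) (s : Lab p) (i : Fin (p + 1)) :
    rlb f s i = f i (s i) := rfl

theorem rlb_injective {p : ℕ} {f : Fin (p + 1) → ℕ → ℕ} (hf : ∀ i, Function.Injective (f i)) :
    Function.Injective (rlb f) := fun s t h => by
  funext i
  exact hf i (congrFun h i)

/-- relabel all the members of a set -/
def relab {p : ℕ} (f : Fin (p + 1) → ℕ → ℕ) (A : Finset (Lab p)) : Finset (Lab p) :=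
  A.image (rlb f)

theorem mem_relab {p : ℕ} {f : Fin (p + 1) → ℕ → ℕ} {A : Finset (Lab p)} {t : Lab p} :
    t ∈ relab f A ↔ ∃ s ∈ A, rlb f s = t := mem_image

theorem card_relab {p : ℕ} {f : Fin (p + 1) → ℕ → ℕ} (hf : ∀ i, Function.Injective (f i))
    (A : Finset (Lab p)) : (relab f A).card = A.card :=
  card_image_of_injective _ (rlb_injective hf)

theorem relab_id {p : ℕ} (A : Finset (Lab p)) : relab (fun _ a => a) A = A := by
  unfold relab
  have : rlb (fun (_ : Fin (p + 1)) (a : ℕ) => a) = id := rfl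
  rw [this, image_id]

theorem res_relab {p q : ℕ} (φ : Op q p) (f : Fin (p + 1) → ℕ → ℕ) (A : Finset (Lab p)) :
    res φ (relab f A) = relab (fun i => f (φ i)) (res φ A) := by
  unfold res relab
  rw [image_image, image_image]
  rfl

/-- relabelling a good set by injective functions gives a good set -/
theorem Good.relab {p : ℕ} {A : Finset (Lab p)} (h : Good A) {f : Fin (p + 1) → ℕ → ℕ}
    (hf : ∀ i, Function.Injective (f i)) : Good (H.relab f A) := by
  intro i s hs t ht hst
  rw [mem_coe, mem_relab] at hs ht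
  obtain ⟨s', hs', rfl⟩ := hs
  obtain ⟨t', ht', rfl⟩ := ht
  have : s' = t' := h i hs' ht' (hf i hst)
  rw [this]

/-- a union of two good sets without common coordinates is good -/
theorem good_union {p : ℕ} {A B : Finset (Lab p)} (hA : Good A) (hB : Good B)
    (h : ∀ i, ∀ s ∈ A, ∀ t ∈ B, s i ≠ t i) : Good (A ∪ B) := by
  intro i s hs t ht hst
  rw [mem_coe, mem_union] at hs ht
  rcases hs with hs | hs
  · rcases ht with ht | ht
    · exact hA i hs ht hst
    · exact absurd hst (h i s hs t ht)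
  · rcases ht with ht | ht
    · exact absurd hst.symm (h i t ht s hs)
    · exact hB i hs ht hst

/-- two sets without a common coordinate are disjoint -/
theorem disjoint_of_ne {p : ℕ} {A B : Finset (Lab p)}
    (h : ∀ s ∈ A, ∀ t ∈ B, s 0 ≠ t 0) : Disjoint A B := by
  rw [disjoint_left]
  intro s hA hB
  exact h s hA s hB rfl

/-! ### the relabelled pair -/

/-- the function 2a+b at the vertices with χ = 1, the identity elsewhere -/
def fA {p : ℕ} (χ : Fin (p + 1) → Fin 2) (b : ℕ) : Fin (p + 1) → ℕ → ℕ :=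
  fun i a => if χ i = 1 then 2 * a + b else a

theorem fA_injective {p : ℕ} (χ : Fin (p + 1) → Fin 2) (b : ℕ)
    (i : Fin (p + 1)) : Function.Injective (fA χ b i) := by
  intro a a' h
  unfold fA at h
  by_cases hi : χ i = 1
  · rw [if_pos hi, if_pos hi] at h
    omega
  · rwa [if_neg hi, if_neg hi] at h

theorem rlb_fA_ne {p : ℕ} {A B : Finset (Lab p)} {χ : Fin (p + 1) → Fin 2}
    (h : ∀ i, ¬ χ i = 1 → ∀ s ∈ A, ∀ t ∈ B, s i ≠ t i) (i : Fin (p + 1)) :
    ∀ s ∈ relab (fA χ 0) A, ∀ t ∈ relab (fA χ 1) B, s i ≠ t i := by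
  intro s hs t ht
  obtain ⟨s', hs', rfl⟩ := mem_relab.1 hs
  obtain ⟨t', ht', rfl⟩ := mem_relab.1 ht
  rw [rlb_apply, rlb_apply]
  unfold fA
  by_cases hi : χ i = 1
  · rw [if_pos hi, if_pos hi]
    omega
  · rw [if_neg hi, if_neg hi]
    exact h i hi s' hs' t' ht'

/-- members of a disjoint pair have different labels at every vertex -/
theorem ne_of_good_union {p : ℕ} {A B : Finset (Lab p)} (h : Good (A ∪ B)) (hd : Disjoint A B)
    (i : Fin (p + 1)) : ∀ s ∈ A, ∀ t ∈ B, s i ≠ t i := by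
  intro s hs t ht hst
  have hst' : s = t := h i (mem_coe.2 (mem_union_left _ hs)) (mem_coe.2 (mem_union_right _ ht)) hst
  exact disjoint_left.1 hd hs (hst' ▸ ht)

theorem good_pair {p : ℕ} {A B : Finset (Lab p)} (hA : Good A) (hB : Good B)
    {χ : Fin (p + 1) → Fin 2} (h : ∀ i, ¬ χ i = 1 → ∀ s ∈ A, ∀ t ∈ B, s i ≠ t i) {i j : ℕ}
    (hi : A.card = i) (hj : B.card = j) :
    Good (relab (fA χ 0) A ∪ relab (fA χ 1) B) ∧ Disjoint (relab (fA χ 0) A) (relab (fA χ 1) B) ∧
      (relab (fA χ 0) A).card = i ∧ (relab (fA χ 1) B).card = j :=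
  ⟨good_union (hA.relab (fA_injective _ 0)) (hB.relab (fA_injective _ 1)) (rlb_fA_ne h),
    disjoint_of_ne (rlb_fA_ne h 0), (card_relab (fA_injective _ 0) _).trans hi,
    (card_relab (fA_injective _ 1) _).trans hj⟩

theorem fA_of_zero {p : ℕ} {χ : Fin (p + 1) → Fin 2} (h : ∀ i, χ i = 0) (b : ℕ) :
    fA χ b = fun _ a => a := by
  funext i a
  exact if_neg (by rw [h i]; decide)

theorem relab_fA_zero {p : ℕ} {χ : Fin (p + 1) → Fin 2} (h : ∀ i, χ i = 0) (b : ℕ)
    (A : Finset (Lab p)) : relab (fA χ b) A = A := by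
  rw [fA_of_zero h, relab_id]

theorem fA_of_one {p : ℕ} {χ : Fin (p + 1) → Fin 2} (h : ∀ i, χ i = 1) (b : ℕ) :
    fA χ b = fA (fun _ : Fin (p + 1) => (1 : Fin 2)) b := by
  have : χ = fun _ => 1 := funext h
  rw [this]

/-- the homotopy section: (A,B) ↦ (2A, 2B+1) -/
def dbl (i j : ℕ) : SS.Map ((Gam i).prod (Gam j)) (GamP i j) where
  app {p} z := ⟨(relab (fA (fun _ : Fin (p + 1) => (1 : Fin 2)) 0) z.1.1,
      relab (fA (fun _ : Fin (p + 1) => (1 : Fin 2)) 1) z.2.1),
    good_pair z.1.2.1 z.2.2.1 (fun _ h => absurd rfl h) z.1.2.2 z.2.2.2⟩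
  nat φ z := Subtype.ext (Prod.ext
    (res_relab φ (fA (fun _ => (1 : Fin 2)) 0) z.1.1).symm
    (res_relab φ (fA (fun _ => (1 : Fin 2)) 1) z.2.1).symm)

/-- the homotopy from the identity to the doubling map of disjoint pairs -/
def dblHtp (i j : ℕ) : SS.Htp (GamP i j) (GamP i j) where
  h p χ z := ⟨(relab (fA (fun a => χ a) 0) z.1.1, relab (fA (fun a => χ a) 1) z.1.2),
    good_pair (z.2.1.mono subset_union_left) (z.2.1.mono subset_union_right)
      (fun a _ => ne_of_good_union z.2.1 z.2.2.1 a) z.2.2.2.1 z.2.2.2.2⟩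
  nat φ χ z := Subtype.ext (Prod.ext
    (res_relab φ (fA (fun a => χ a) 0) z.1.1).symm
    (res_relab φ (fA (fun a => χ a) 1) z.1.2).symm)

theorem dblHtp_e0 (i j : ℕ) : (dblHtp i j).e0 = SS.Map.id (GamP i j) :=
  SS.Map.ext fun _ _ => Subtype.ext (Prod.ext (relab_fA_zero (c0_val _) 0 _)
    (relab_fA_zero (c0_val _) 1 _))

theorem dblHtp_e1 (i j : ℕ) : (dblHtp i j).e1 = (dbl i j).comp (GamP.incl i j) :=
  SS.Map.ext fun p z => Subtype.ext (Prod.ext
    (congrArg (fun f => relab f z.1.1) (fA_of_one (c1_val p) 0))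
    (congrArg (fun f => relab f z.1.2) (fA_of_one (c1_val p) 1)))

variable {R : Type} [CommRing R]

/-- Every class of disjoint pairs is the pull back of its image under the doubling map. -/
theorem mapH_incl_dbl (i j q : ℕ) (x : (SS.F R (GamP i j)).H q) :
    ((GamP.incl i j).pull (R := R)).mapH q (((dbl i j).pull (R := R)).mapH q x) = x := by
  rw [← Hom.mapH_comp, ← SS.Map.pull_comp, ← dblHtp_e1, SS.Htp.mapH_eq, dblHtp_e0,
    SS.Map.pull_id, Hom.mapH_id]

/-- **(Hb)** the inclusion of disjoint pairs into all pairs is onto in cohomology. -/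
theorem incl_mapH_surjective (i j q : ℕ) :
    Function.Surjective (((GamP.incl i j).pull (R := R)).mapH q) :=
  fun x => ⟨_, mapH_incl_dbl i j q x⟩

/-! ### the other composite -/

/-- the homotopy from the identity to the doubling map of all pairs -/
def dblHtp' (i j : ℕ) : SS.Htp ((Gam i).prod (Gam j)) ((Gam i).prod (Gam j)) where
  h p χ z := (⟨relab (fA (fun a => χ a) 0) z.1.1,
      z.1.2.1.relab (fA_injective _ 0), (card_relab (fA_injective _ 0) _).trans z.1.2.2⟩,
    ⟨relab (fA (fun a => χ a) 1) z.2.1,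
      z.2.2.1.relab (fA_injective _ 1), (card_relab (fA_injective _ 1) _).trans z.2.2.2⟩)
  nat φ χ z := Prod.ext (Subtype.ext (res_relab φ (fA (fun a => χ a) 0) z.1.1).symm)
    (Subtype.ext (res_relab φ (fA (fun a => χ a) 1) z.2.1).symm)

theorem dblHtp'_e0 (i j : ℕ) : (dblHtp' i j).e0 = SS.Map.id _ :=
  SS.Map.ext fun _ _ => Prod.ext (Subtype.ext (relab_fA_zero (c0_val _) 0 _))
    (Subtype.ext (relab_fA_zero (c0_val _) 1 _))

theorem dblHtp'_e1 (i j : ℕ) : (dblHtp' i j).e1 = (GamP.incl i j).comp (dbl i j) :=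
  SS.Map.ext fun p z => Prod.ext
    (Subtype.ext (congrArg (fun f => relab f z.1.1) (fA_of_one (c1_val p) 0)))
    (Subtype.ext (congrArg (fun f => relab f z.2.1) (fA_of_one (c1_val p) 1)))

theorem mapH_dbl_incl (i j q : ℕ) (x : (SS.F R ((Gam i).prod (Gam j))).H q) :
    ((dbl i j).pull (R := R)).mapH q (((GamP.incl i j).pull (R := R)).mapH q x) = x := by
  rw [← Hom.mapH_comp, ← SS.Map.pull_comp, ← dblHtp'_e1, SS.Htp.mapH_eq, dblHtp'_e0,
    SS.Map.pull_id, Hom.mapH_id]

/-- the inclusion of disjoint pairs into all pairs is bijective in cohomology -/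
theorem incl_mapH_bijective (i j q : ℕ) :
    Function.Bijective (((GamP.incl i j).pull (R := R)).mapH q) :=
  ⟨fun x y h => by rw [← mapH_dbl_incl i j q x, h, mapH_dbl_incl], incl_mapH_surjective i j q⟩

/-! ### the spaces with no point and with one point -/

theorem gam_zero_eq {p : ℕ} (x y : (Gam 0).obj p) : x = y :=
  Subtype.ext ((card_eq_zero.1 x.2.2).trans (card_eq_zero.1 y.2.2).symm)

/-- `Gam 0` is a point -/
def gamZeroCtr : C.Ctr (Gam 0) where
  K := ⟨fun _ _ x => x, fun _ _ _ => rfl⟩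
  b := ⟨fun _ => ⟨∅, good_empty, rfl⟩, fun _ _ => gam_zero_eq _ _⟩
  e1 := rfl
  e0 := SS.Map.ext fun _ _ => gam_zero_eq _ _

theorem good_singleton {p : ℕ} (s : Lab p) : Good ({s} : Finset (Lab p)) := fun i => by simp

/-- the function replacing the labels at the vertices with χ = 0 by zero -/
def fZ {p : ℕ} (χ : Fin (p + 1) → Fin 2) : Fin (p + 1) → ℕ → ℕ :=
  fun i a => if χ i = 1 then a else 0

theorem relab_one {p : ℕ} (f : Fin (p + 1) → ℕ → ℕ) {A : Finset (Lab p)} (h : A.card = 1) :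
    Good (relab f A) ∧ (relab f A).card = 1 := by
  obtain ⟨s, rfl⟩ := card_eq_one.1 h
  have e : relab f {s} = {rlb f s} := image_singleton _ _
  rw [e]
  exact ⟨good_singleton _, card_singleton _⟩

theorem relab_fZ_one {p : ℕ} {χ : Fin (p + 1) → Fin 2} (h : ∀ i, χ i = 1) (A : Finset (Lab p)) :
    relab (fZ χ) A = A := by
  have e : fZ χ = fun _ a => a := by
    funext i a
    exact if_pos (h i)
  rw [e, relab_id]

theorem relab_fZ_zero {p : ℕ} {χ : Fin (p + 1) → Fin 2} (h : ∀ i, χ i = 0) {A : Finset (Lab p)}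
    (hA : A.card = 1) : relab (fZ χ) A = {fun _ => 0} := by
  obtain ⟨s, rfl⟩ := card_eq_one.1 hA
  have e : relab (fZ χ) {s} = {rlb (fZ χ) s} := image_singleton _ _
  rw [e]
  congr 1
  funext i
  exact if_neg (by rw [h i]; decide)

/-- the base point of `Gam 1` -/
def gamOnePt : SS.Map SS.pt (Gam 1) where
  app {p} _ := ⟨{fun _ => 0}, good_singleton _, card_singleton _⟩
  nat {p q} φ _ := Subtype.ext (by
    show ({fun _ => 0} : Finset (Lab p)) = ({fun _ => 0} : Finset (Lab q)).image (rl φ)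
    rw [image_singleton]
    rfl)

/-- `Gam 1` is contractible -/
def gamOneCtr : C.Ctr (Gam 1) where
  K :=
    { h := fun p χ x => ⟨relab (fZ (fun a => χ a)) x.1, relab_one _ x.2.2⟩
      nat := fun φ χ x => Subtype.ext (res_relab φ (fZ (fun a => χ a)) x.1).symm }
  b := gamOnePt
  e1 := SS.Map.ext fun _ x => Subtype.ext (relab_fZ_one (c1_val _) x.1)
  e0 := SS.Map.ext fun _ x => Subtype.ext (relab_fZ_zero (c0_val _) x.2.2)

theorem H_zero_of_ctr {E : SS} (h : C.Ctr E) (p : ℕ) (x : (SS.F R E).H (p + 1)) : x = 0 := by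
  obtain ⟨z, rfl⟩ := CosMod.cls_surjective _ _ x
  exact CosMod.cls_eq_zero_iff.2 (h.Z_le_Bd p z.2)

/-- `Gam 0` has no cohomology in positive degrees -/
theorem gam_zero_H (p : ℕ) (x : (SS.F R (Gam 0)).H (p + 1)) : x = 0 :=
  H_zero_of_ctr gamZeroCtr p x

/-- `Gam 1` has no cohomology in positive degrees -/
theorem gam_one_H (p : ℕ) (x : (SS.F R (Gam 1)).H (p + 1)) : x = 0 :=
  H_zero_of_ctr gamOneCtr p x

end Vale.Agent.P263.TOP.H
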