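import Vale.Agent.P263.TOP.H.Trees
import Vale.Agent.P263.TOP.H.OddT
import Vale.Agent.P263.TOP.H.Pair

/-!
# P263, section [H] (helper354): the transfers along the full trees are onto in cohomology

`psec k : BW pt k → Gam (2^k)` (labels = binary words read along the branches); the composite of
its pull-back with the sum `LL k (2^k)` over the full trees is the identity in cohomology, since
the number of the full trees is odd and each full tree gives a relabelling homotopy.
-/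

namespace Vale.Agent.P263.TOP.H

open Finset Vale.Agent.P263.S Vale.Agent.P263.E

noncomputable section

variable {p q : ℕ}

/-! ### the standard tree -/

/-- the bit of an element of `C2` -/
def bt (g : C2) : ℕ := if g = 1 then 0 else 1

theorem bt_one : bt 1 = 0 := if_pos rfl

theorem bt_tau : bt tau = 1 := if_neg tau_ne_one

theorem bt_ne (g : C2) (a b : ℕ) : 2 * a + bt g ≠ 2 * b + bt (tau * g) := by
  rcases C2_cases g with rfl | rfl
  · rw [mul_one, bt_one, bt_tau]
    omega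
  · rw [tau_mul_tau, bt_one, bt_tau]
    omega

/-- the relabelling `a ↦ 2a + bit` -/
def dbs (s : Fin (p + 1) → C2) : Fin (p + 1) → ℕ → ℕ := fun i a => 2 * a + bt (s i)

theorem dbs_injective (s : Fin (p + 1) → C2) (i : Fin (p + 1)) : Function.Injective (dbs s i) := by
  intro a b h
  have h1 : 2 * a + bt (s i) = 2 * b + bt (s i) := h
  omega

/-- the standard tree of a simplex of `BW pt k` -/
def secT : (k : ℕ) → (SS.BW SS.pt k).obj p → TW (Lab p) k
  | 0, _ => (fun _ => 0 : Lab p)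
  | k + 1, z => SS.D2.lift (Z := SS.BW SS.pt k)
      (fun s x y => (s(TW.map (rlb (dbs s)) k (secT k x),
        TW.map (rlb (dbs (fun i => tau * s i))) k (secT k y)) : Sym2 (TW (Lab p) k)))
      (fun s x y => by
        have h : (fun i => tau * (tau * s i)) = s := funext fun i => tau_mul_self_mul _
        rw [h]
        exact Sym2.eq_swap) z

theorem secT_mk (k : ℕ) (s : Fin (p + 1) → C2) (x y : (SS.BW SS.pt k).obj p) :
    secT (k + 1) (SS.D2.mk s x y) = (s(TW.map (rlb (dbs s)) k (secT k x),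
      TW.map (rlb (dbs (fun i => tau * s i))) k (secT k y)) : Sym2 (TW (Lab p) k)) := rfl

theorem rl_rlb (φ : Op q p) (f : Fin (p + 1) → ℕ → ℕ) (x : Lab p) :
    rl φ (rlb f x) = rlb (fun i => f (φ i)) (rl φ x) := rfl

theorem secT_map (φ : Op q p) : ∀ (k : ℕ) (z : (SS.BW SS.pt k).obj p),
    secT k ((SS.BW SS.pt k).map φ z) = TW.map (rl φ) k (secT k z)
  | 0, _ => rfl
  | k + 1, z => by
    obtain ⟨s, x, y, rfl⟩ := SS.D2.rep z
    have h1 : (SS.BW SS.pt (k + 1)).map φ (SS.D2.mk s x y) =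
        SS.D2.mk (fun i => s (φ i)) ((SS.BW SS.pt k).map φ x) ((SS.BW SS.pt k).map φ y) := rfl
    rw [h1, secT_mk, secT_mk, TW.map_mk, secT_map φ k x, secT_map φ k y, TW.map_map, TW.map_map,
      TW.map_map, TW.map_map]
    rfl

/-! ### full good trees -/

/-- `t` is a full tree on a good set -/
def GT (k : ℕ) (t : TW (Lab p) k) : Prop :=
  t ∈ trees k (TW.leaves k t) ∧ Good (TW.leaves k t) ∧ (TW.leaves k t).card = 2 ^ k

theorem gt_mk {k : ℕ} {s t : TW (Lab p) k} :
    GT (k + 1) (s(s, t) : Sym2 (TW (Lab p) k)) ↔ GT k s ∧ GT k t ∧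
      ∀ i, ∀ x ∈ TW.leaves k s, ∀ y ∈ TW.leaves k t, x i ≠ y i := by
  constructor
  · rintro ⟨h1, h2, h3⟩
    rw [TW.leaves_mk] at h1 h2 h3
    rw [mem_trees_succ] at h1
    have c1 := card_leaves_le k s
    have c2 := card_leaves_le k t
    have c3 := card_union_add_card_inter (TW.leaves k s) (TW.leaves k t)
    rw [h3, pow_succ] at c3
    have h5 : TW.leaves k s ∩ TW.leaves k t = ∅ := by
      rw [← card_eq_zero]; omega
    refine ⟨⟨mem_trees_leaves k s h1.1, h2.mono subset_union_left, by omega⟩,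
      ⟨mem_trees_leaves k t h1.2.1, h2.mono subset_union_right, by omega⟩, ?_⟩
    intro i x hx y hy hxy
    have h6 : x = y := h2 i (mem_coe.2 (mem_union_left _ hx)) (mem_coe.2 (mem_union_right _ hy)) hxy
    have h7 : x ∈ TW.leaves k s ∩ TW.leaves k t := mem_inter.2 ⟨hx, h6 ▸ hy⟩
    rw [h5] at h7
    exact notMem_empty _ h7
  · rintro ⟨⟨h1, h2, h3⟩, ⟨h4, h5, h6⟩, h7⟩
    have hd : Disjoint (TW.leaves k s) (TW.leaves k t) := by
      rw [disjoint_left]
      intro x hx hy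
      exact h7 0 x hx x hy rfl
    refine ⟨?_, ?_, ?_⟩
    · rw [TW.leaves_mk, mem_trees_succ]
      refine ⟨trees_mono subset_union_left k h1, trees_mono subset_union_right k h4, ?_⟩
      rintro rfl
      rw [disjoint_self, bot_eq_empty] at hd
      rw [hd, card_empty] at h3
      have : 0 < 2 ^ k := by positivity
      omega
    · rw [TW.leaves_mk]
      exact good_union h2 h5 h7
    · rw [TW.leaves_mk, card_union_of_disjoint hd, h3, h6, pow_succ]
      omega

theorem GT.ev_ne {k : ℕ} {s t : TW (Lab p) k} (h : GT (k + 1) (s(s, t) : Sym2 (TW (Lab p) k)))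
    (i : Fin (p + 1)) : ev k i s ≠ ev k i t := by
  obtain ⟨h1, h2, -⟩ := h
  rw [mem_trees_succ] at h1
  exact h2.ev_ne h1.1 h1.2.1 h1.2.2 i

theorem GT.mem_fullT {k : ℕ} {t : TW (Lab p) k} (h : GT k t) : t ∈ fullT k (TW.leaves k t) :=
  H.mem_fullT.2 ⟨h.1, rfl⟩

theorem gt_of_mem {k : ℕ} {C : Finset (Lab p)} (hC : Good C) (hc : C.card = 2 ^ k)
    {t : TW (Lab p) k} (h : t ∈ fullT k C) : GT k t := by
  obtain ⟨h1, h2⟩ := H.mem_fullT.1 h
  exact ⟨by rw [h2]; exact h1, by rw [h2]; exact hC, by rw [h2]; exact hc⟩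

theorem GT.rlb {k : ℕ} {t : TW (Lab p) k} (h : GT k t) {f : Fin (p + 1) → ℕ → ℕ}
    (hf : ∀ i, Function.Injective (f i)) : GT k (TW.map (H.rlb f) k t) := by
  obtain ⟨h1, h2, h3⟩ := h
  have h4 : TW.leaves k (TW.map (H.rlb f) k t) = relab f (TW.leaves k t) := TW.leaves_mapC _ k t
  refine ⟨?_, ?_, ?_⟩
  · rw [h4]
    show TW.map (H.rlb f) k t ∈ trees k ((TW.leaves k t).image (H.rlb f))
    rw [trees_image (rlb_injective hf).injOn]
    exact mem_image_of_mem _ h1
  · rw [h4]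
    exact h2.relab hf
  · rw [h4, card_relab hf, h3]

theorem gt_secT : ∀ (k : ℕ) (z : (SS.BW SS.pt k).obj p), GT k (secT k z)
  | 0, _ => ⟨mem_singleton_self _, good_singleton _, card_singleton _⟩
  | k + 1, z => by
    obtain ⟨s, x, y, rfl⟩ := SS.D2.rep z
    rw [secT_mk, gt_mk]
    refine ⟨(gt_secT k x).rlb (dbs_injective _), (gt_secT k y).rlb (dbs_injective _), ?_⟩
    intro i a ha b hb
    rw [TW.leaves_mapC, mem_image] at ha hb
    obtain ⟨a', -, rfl⟩ := ha
    obtain ⟨b', -, rfl⟩ := hb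
    exact bt_ne (s i) (a' i) (b' i)

/-- the map `BW pt k → Gam (2^k)`: the leaves of the standard tree -/
def psec (k : ℕ) : SS.Map (SS.BW SS.pt k) (Gam (2 ^ k)) where
  app z := ⟨TW.leaves k (secT k z), (gt_secT k z).2⟩
  nat φ z := Subtype.ext (by
    show TW.leaves k (secT k ((SS.BW SS.pt k).map φ z)) = res φ (TW.leaves k (secT k z))
    rw [secT_map, TW.leaves_mapC]
    rfl)

theorem psec_val (k : ℕ) (z : (SS.BW SS.pt k).obj p) :
    ((psec k).app z).1 = TW.leaves k (secT k z) := rfl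

/-! ### the homotopy -/

/-- the relabelling homotopy of a tree -/
def Hm (χ : Fin (p + 1) → Fin 2) : (k : ℕ) → (Fin (p + 1) → ℕ → ℕ) → TW (Lab p) k → TW (Lab p) k
  | 0, f, t => (fun i => if χ i = 0 then (t : Lab p) i else f i 0 : Lab p)
  | k + 1, f, t => Sym2.lift ⟨fun a b => (s(Hm χ k (fun i x => f i (dbs (ord k a b) i x)) a,
      Hm χ k (fun i x => f i (dbs (ord k b a) i x)) b) : Sym2 (TW (Lab p) k)),
      fun _ _ => Sym2.eq_swap⟩ t

theorem Hm_zero (χ : Fin (p + 1) → Fin 2) (f : Fin (p + 1) → ℕ → ℕ) (t : Lab p) :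
    Hm χ 0 f t = (fun i => if χ i = 0 then t i else f i 0 : Lab p) := rfl

theorem Hm_mk (χ : Fin (p + 1) → Fin 2) (k : ℕ) (f : Fin (p + 1) → ℕ → ℕ) (a b : TW (Lab p) k) :
    Hm χ (k + 1) f (s(a, b) : Sym2 (TW (Lab p) k)) =
      (s(Hm χ k (fun i x => f i (dbs (ord k a b) i x)) a,
        Hm χ k (fun i x => f i (dbs (ord k b a) i x)) b) : Sym2 (TW (Lab p) k)) := rfl

theorem Hm_c0 {χ : Fin (p + 1) → Fin 2} (h : ∀ i, χ i = 0) : ∀ (k : ℕ)
    (f : Fin (p + 1) → ℕ → ℕ) (t : TW (Lab p) k), Hm χ k f t = t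
  | 0, f, t => funext fun i => if_pos (h i)
  | k + 1, f, t => by
    induction t using Sym2.ind with
    | _ a b => rw [Hm_mk, Hm_c0 h k, Hm_c0 h k]

theorem Hm_c1 {χ : Fin (p + 1) → Fin 2} (h : ∀ i, χ i = 1) : ∀ (k : ℕ)
    (f : Fin (p + 1) → ℕ → ℕ) (t : TW (Lab p) k), GT k t →
      Hm χ k f t = TW.map (rlb f) k (secT k (cl k t))
  | 0, f, t, _ => funext fun i => if_neg (by rw [h i]; decide)
  | k + 1, f, t, ht => by
    induction t using Sym2.ind with
    | _ a b =>
      have h1 : ∀ i, ev k i a ≠ ev k i b := ht.ev_ne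
      obtain ⟨ha, hb, -⟩ := gt_mk.1 ht
      rw [Hm_mk, cl_mk_of_ne k h1, secT_mk, TW.map_mk, TW.map_map, TW.map_map, Hm_c1 h k _ a ha,
        Hm_c1 h k _ b hb, ord_symm h1]
      rfl

theorem Hm_map (φ : Op q p) (χ : Fin (p + 1) → Fin 2) : ∀ (k : ℕ) (f : Fin (p + 1) → ℕ → ℕ)
    (t : TW (Lab p) k), Hm (fun i => χ (φ i)) k (fun i => f (φ i)) (TW.map (rl φ) k t) =
      TW.map (rl φ) k (Hm χ k f t)
  | 0, f, t => rfl
  | k + 1, f, t => by
    induction t using Sym2.ind with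
    | _ a b =>
      rw [TW.map_mk, Hm_mk, Hm_mk, TW.map_mk, ord_map, ord_map,
        ← Hm_map φ χ k (fun i x => f i (dbs (ord k a b) i x)) a,
        ← Hm_map φ χ k (fun i x => f i (dbs (ord k b a) i x)) b]
      rfl

theorem Hm_lab (χ : Fin (p + 1) → Fin 2) (i : Fin (p + 1)) : ∀ (k : ℕ)
    (f : Fin (p + 1) → ℕ → ℕ) (t : TW (Lab p) k), ∀ x ∈ TW.leaves k (Hm χ k f t),
      (χ i = 0 → ∃ y ∈ TW.leaves k t, x i = y i) ∧ (χ i ≠ 0 → ∃ m, x i = f i m)
  | 0, f, t, x, hx => by
    have hx' : x = (fun i => if χ i = 0 then (t : Lab p) i else f i 0 : Lab p) :=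
      mem_singleton.1 hx
    subst hx'
    exact ⟨fun h => ⟨t, mem_singleton_self _, if_pos h⟩, fun h => ⟨0, if_neg h⟩⟩
  | k + 1, f, t, x, hx => by
    induction t using Sym2.ind with
    | _ a b =>
      rw [Hm_mk, TW.leaves_mk, mem_union] at hx
      rw [TW.leaves_mk]
      rcases hx with hx | hx
      · obtain ⟨h1, h2⟩ := Hm_lab χ i k _ a x hx
        refine ⟨fun h => ?_, fun h => ?_⟩
        · obtain ⟨y, hy, hxy⟩ := h1 h
          exact ⟨y, mem_union_left _ hy, hxy⟩
        · obtain ⟨m, hm⟩ := h2 h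
          exact ⟨_, hm⟩
      · obtain ⟨h1, h2⟩ := Hm_lab χ i k _ b x hx
        refine ⟨fun h => ?_, fun h => ?_⟩
        · obtain ⟨y, hy, hxy⟩ := h1 h
          exact ⟨y, mem_union_right _ hy, hxy⟩
        · obtain ⟨m, hm⟩ := h2 h
          exact ⟨_, hm⟩

theorem gt_Hm (χ : Fin (p + 1) → Fin 2) : ∀ (k : ℕ) (f : Fin (p + 1) → ℕ → ℕ),
    (∀ i, Function.Injective (f i)) → ∀ t : TW (Lab p) k, GT k t → GT k (Hm χ k f t)
  | 0, f, _, t, _ => ⟨mem_singleton_self _, good_singleton _, card_singleton _⟩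
  | k + 1, f, hf, t, ht => by
    induction t using Sym2.ind with
    | _ a b =>
      have h1 : ∀ i, ev k i a ≠ ev k i b := ht.ev_ne
      obtain ⟨ha, hb, hab⟩ := gt_mk.1 ht
      rw [Hm_mk, gt_mk]
      refine ⟨gt_Hm χ k _ (fun i => (hf i).comp (dbs_injective _ i)) a ha,
        gt_Hm χ k _ (fun i => (hf i).comp (dbs_injective _ i)) b hb, ?_⟩
      intro i x hx y hy hxy
      obtain ⟨h2, h3⟩ := Hm_lab χ i k _ a x hx
      obtain ⟨h4, h5⟩ := Hm_lab χ i k _ b y hy
      by_cases hi : χ i = 0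
      · obtain ⟨x', hx', hx''⟩ := h2 hi
        obtain ⟨y', hy', hy''⟩ := h4 hi
        exact hab i x' hx' y' hy' (by rw [← hx'', ← hy'', hxy])
      · obtain ⟨m, hm⟩ := h3 hi
        obtain ⟨m', hm'⟩ := h5 hi
        rw [hm, hm'] at hxy
        have h6 := hf i hxy
        rw [ord_symm h1] at h6
        exact bt_ne (ord k a b i) m m' h6

/-! ### the prism -/

/-- the homotopy between the identity and `psec` followed by the full trees -/
def fullPrism (R : Type) [CommRing R] (k : ℕ) :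
    Prism (SS.F R (Gam (2 ^ k))) (SS.F R (Gam (2 ^ k))) where
  h p χ :=
    { toFun := fun w C => ∑ t ∈ fullT k C.1, e1 w (TW.leaves k (Hm (fun i => χ i) k
        (fun _ x => x) t))
      map_add' := fun w w' => by
        funext C
        show ∑ t ∈ fullT k C.1, e1 (w + w') _ = _
        rw [sum_congr rfl fun t _ => e1_add w w' _, sum_add_distrib]
        rfl
      map_smul' := fun c w => by
        funext C
        show ∑ t ∈ fullT k C.1, e1 (c • w) _ = _
        rw [sum_congr rfl fun t _ => e1_smul c w _, ← mul_sum]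
        rfl }
  nat {q p} φ χ w := by
    funext C
    show ∑ t ∈ fullT k C.1, e1 ((SS.F R (Gam (2 ^ k))).map φ w)
        (TW.leaves k (Hm (fun i => χ i) k (fun _ x => x) t)) =
      ∑ t ∈ fullT k (res φ C.1), e1 w (TW.leaves k (Hm (fun i => χ (φ i)) k (fun _ x => x) t))
    rw [C.2.1.sum_fullT_res φ k]
    refine sum_congr rfl fun t ht => ?_
    have h1 := gt_of_mem C.2.1 C.2.2 ht
    have h2 := gt_Hm (fun i => χ i) k (fun _ x => x) (fun _ _ _ h => h) t h1
    rw [e1_res h2.2.1 φ w]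
    congr 1
    have h3 := Hm_map φ (fun i => χ i) k (fun _ x => x) t
    rw [h3, TW.leaves_mapC]
    rfl

theorem fullPrism_end0 (k : ℕ) : (fullPrism (ZMod 2) k).end0 = Hom.id _ := by
  apply Hom.ext
  intro p w
  funext C
  show ∑ t ∈ fullT k C.1, e1 w (TW.leaves k (Hm (fun i => c0 p i) k (fun _ x => x) t)) = w C
  have h1 : ∀ t ∈ fullT k C.1,
      e1 w (TW.leaves k (Hm (fun i => c0 p i) k (fun _ x => x) t)) = w C := by
    intro t ht
    rw [Hm_c0 (c0_val p), (mem_fullT.1 ht).2, e1_coe]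
  rw [sum_congr rfl h1, sum_const, nsmul_eq_mul]
  have h2 : ((fullT k C.1).card : ZMod 2) = 1 := by
    rw [ZMod.natCast_eq_one_iff_odd]
    exact odd_fullT C.2.2
  rw [h2, one_mul]

theorem fullPrism_end1 (R : Type) [CommRing R] (k : ℕ) :
    (fullPrism R k).end1 = (LL k (2 ^ k)).comp ((psec k).pull) := by
  apply Hom.ext
  intro p w
  funext C
  show ∑ t ∈ fullT k C.1, e1 w (TW.leaves k (Hm (fun i => c1 p i) k (fun _ x => x) t)) =
    ∑ t ∈ fullT k C.1, w ((psec k).app (cl k t))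
  refine sum_congr rfl fun t ht => ?_
  have h1 : (TW.map (rlb fun (_ : Fin (p + 1)) (x : ℕ) => x) k (secT k (cl k t))) =
      secT k (cl k t) := TW.map_id k _
  rw [Hm_c1 (c1_val p) k _ t (gt_of_mem C.2.1 C.2.2 ht), h1]
  exact e1_coe w ((psec k).app (cl k t))

/-- the sum over the full trees of the restriction along `psec` -/
theorem LL_psec (k d : ℕ) (x : (SS.F (ZMod 2) (Gam (2 ^ k))).H d) :
    (LL (R := ZMod 2) k (2 ^ k)).mapH d (((psec k).pull (R := ZMod 2)).mapH d x) = x := by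
  rw [← Hom.mapH_comp, ← fullPrism_end1, Prism.mapH_end, fullPrism_end0, Hom.mapH_id]

/-- **the transfers along the full trees are onto** -/
theorem onto (d : ℕ) (k : ℕ) (x : (SS.F (ZMod 2) (Gam (2 ^ k))).H d) :
    ∃ w : (SS.F (ZMod 2) (SS.BW SS.pt k)).H d, (LL (R := ZMod 2) k (2 ^ k)).mapH d w = x :=
  ⟨_, LL_psec k d x⟩

/-! ### the section of the covering of the full trees -/

/-- the standard tree on its set of leaves -/
def FT.sec (k : ℕ) : SS.Map (SS.BW SS.pt k) (FT k) where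
  app z := ⟨(TW.leaves k (secT k z), secT k z), (gt_secT k z).2, (gt_secT k z).mem_fullT⟩
  nat φ z := Subtype.ext (Prod.ext (congrArg Subtype.val ((psec k).nat φ z)) (secT_map φ k z))

theorem FT.pr_sec (k : ℕ) : (FT.pr k).comp (FT.sec k) = psec k := rfl

/-- the leaves of the standard tree -/
theorem psec_mk (k : ℕ) (s : Fin (p + 1) → C2) (x y : (SS.BW SS.pt k).obj p) :
    ((psec (k + 1)).app (SS.D2.mk s x y)).1 =
      relab (dbs s) ((psec k).app x).1 ∪
        relab (dbs (fun i => tau * s i)) ((psec k).app y).1 := by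
  show TW.leaves (k + 1) (secT (k + 1) (SS.D2.mk s x y)) = _
  rw [secT_mk, TW.leaves_mk, TW.leaves_mapC, TW.leaves_mapC]
  rfl

theorem psec_zero (x : (SS.BW SS.pt 0).obj p) : ((psec 0).app x).1 = {fun _ => 0} := rfl

end

end Vale.Agent.P263.TOP.H
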