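import Vale.Agent.P263.TOP.H.First
import Vale.Agent.P263.TOP.H.Full

/-!
P263, block [H]: the tree functionals detect a primitive functional (AllStmt of the contract).
-/

namespace Vale.Agent.P263.TOP

/-- **AllStmt of the contract** -/
theorem allStmt : AllStmt := fun {d _} _ hd hP h =>
  H.all_zero hd (H.prim_of hP) (H.onto d) h

end Vale.Agent.P263.TOP
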