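import Mathlib

/-!
# P263, section [H], counts (helper310)

* `odd_choose_two_pow_sub_one` : `C(2^m - 1, j)` is odd for `j ≤ 2^m - 1`;
* `odd_choose_two_pow_add` : `C(2^k + b, 2^k)` is odd for `b < 2^k`;
* `exists_odd_choose` : if `n` is not a power of two (`n ≥ 1`), some `C(n,a)`, `0 < a < n`, is odd;
* `Tr α n` : iterated unordered pairs of distinct elements, `leaves`, `leaves_card_le`;
* `odd_full` : the number of trees with leaf set a given set with `2^n` elements is odd.
-/

namespace Vale.Agent.P263.TOP.H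

theorem odd_choose_two_pow_sub_one (m : ℕ) : ∀ j : ℕ, j ≤ 2 ^ m - 1 → Odd ((2 ^ m - 1).choose j) := by
  intro j
  induction j with
  | zero => intro _; simp
  | succ j ih =>
    intro hj
    have h1 : Odd ((2 ^ m - 1).choose j) := ih (by omega)
    have h2 : 2 ∣ (2 ^ m).choose (j + 1) :=
      Nat.prime_two.dvd_choose_pow (by omega) (by omega)
    have h3 : (2 ^ m).choose (j + 1) = (2 ^ m - 1).choose j + (2 ^ m - 1).choose (j + 1) := by
      have : 2 ^ m = (2 ^ m - 1) + 1 := by omega
      conv_lhs => rw [this]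
      rw [Nat.choose_succ_succ]
    rw [h3] at h2
    have h4 : Even ((2 ^ m - 1).choose j + (2 ^ m - 1).choose (j + 1)) := (even_iff_two_dvd).2 h2
    rw [Nat.even_add] at h4
    by_contra hc
    rw [Nat.not_odd_iff_even] at hc
    exact (Nat.not_even_iff_odd.2 h1) (h4.2 hc)

theorem odd_choose_two_pow_add (k b : ℕ) (hb : b < 2 ^ k) : Odd ((2 ^ k + b).choose (2 ^ k)) := by
  have h : (2 ^ k + b).choose (2 ^ k) = (2 ^ k + b).choose b := by
    rw [← Nat.choose_symm_add]
  have h1 := Finset.Nat.sum_antidiagonal_eq_sum_range_succ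
    (fun i j => (2 ^ k).choose i * b.choose j) b
  rw [h, Nat.add_choose_eq, h1, Finset.sum_range_succ']
  have h2 : Even (∑ i ∈ Finset.range b, (2 ^ k).choose (i + 1) * b.choose (b - (i + 1))) := by
    refine Finset.even_sum _ fun i hi => ?_
    rw [Finset.mem_range] at hi
    have : 2 ∣ (2 ^ k).choose (i + 1) := Nat.prime_two.dvd_choose_pow (by omega) (by omega)
    exact (even_iff_two_dvd.2 this).mul_right _
  simpa using h2.add_odd odd_one

theorem exists_odd_choose (n : ℕ) (hn : 1 ≤ n) (hp : ∀ k, n ≠ 2 ^ k) :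
    ∃ a, 0 < a ∧ a < n ∧ Odd (n.choose a) := by
  obtain ⟨k, hk1, hk2⟩ : ∃ k, 2 ^ k ≤ n ∧ n < 2 ^ (k + 1) :=
    ⟨Nat.log 2 n, Nat.pow_log_le_self 2 (by omega), Nat.lt_pow_succ_log_self (by norm_num) n⟩
  refine ⟨2 ^ k, by positivity, lt_of_le_of_ne hk1 (hp k).symm, ?_⟩
  have h := odd_choose_two_pow_add k (n - 2 ^ k) (by rw [pow_succ] at hk2; omega)
  rwa [Nat.add_sub_cancel' hk1] at h

universe u

/-- Iterated unordered pairs of distinct elements. -/
def Tr (α : Type u) : ℕ → Type u
  | 0 => α
  | n + 1 => {p : Sym2 (Tr α n) // ¬ p.IsDiag}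

variable {α : Type u} [DecidableEq α]

/-- The set of leaves of a tree. -/
def leaves : (n : ℕ) → Tr α n → Finset α
  | 0, a => ({(a : α)} : Finset α)
  | n + 1, p => Sym2.lift ⟨fun s t => leaves n s ∪ leaves n t, fun _ _ => Finset.union_comm _ _⟩ p.1

theorem leaves_mk (n : ℕ) (s t : Tr α n) (h : ¬ (s(s, t) : Sym2 (Tr α n)).IsDiag) :
    leaves (n + 1) ⟨s(s, t), h⟩ = leaves n s ∪ leaves n t := rfl

theorem leaves_card_le : ∀ (n : ℕ) (t : Tr α n), (leaves n t).card ≤ 2 ^ n
  | 0, a => (Finset.card_singleton (a : α)).le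
  | n + 1, ⟨p, hp⟩ => by
    induction p using Sym2.ind with
    | _ s t =>
      rw [leaves_mk]
      have h1 := leaves_card_le n s
      have h2 := leaves_card_le n t
      have h3 := Finset.card_union_le (leaves n s) (leaves n t)
      rw [pow_succ]
      omega

theorem leaves_nonempty : ∀ (n : ℕ) (t : Tr α n), (leaves n t).Nonempty
  | 0, a => Finset.singleton_nonempty (a : α)
  | n + 1, ⟨p, hp⟩ => by
    induction p using Sym2.ind with
    | _ s t =>
      rw [leaves_mk]
      exact (leaves_nonempty n s).mono Finset.subset_union_left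

/-- The trees with given set of leaves. -/
def Full (n : ℕ) (S : Finset α) : Type u := {t : Tr α n // leaves n t = S}

section
variable {n : ℕ} {S : Finset α} {a : α}

/-- Gluing two full trees. -/
noncomputable def glue (_hS : S.card = 2 ^ (n + 1)) (ha : a ∈ S)
    (x : Σ B : {B // B ∈ (S.erase a).powersetCard (2 ^ n - 1)},
      Full n (insert a B.1) × Full n ((S.erase a) \ B.1)) : Full (n + 1) S := by
  refine ⟨⟨s(x.2.1.1, x.2.2.1), ?_⟩, ?_⟩
  · intro h
    rw [Sym2.mk_isDiag_iff] at h
    have h1 := x.2.1.2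
    have h2 := x.2.2.2
    rw [h, h2] at h1
    have : a ∈ (S.erase a) \ x.1.1 := by rw [h1]; exact Finset.mem_insert_self _ _
    simp at this
  · rw [leaves_mk, x.2.1.2, x.2.2.2]
    obtain ⟨hB, -⟩ := Finset.mem_powersetCard.1 x.1.2
    ext b
    simp only [Finset.mem_union, Finset.mem_insert, Finset.mem_sdiff, Finset.mem_erase]
    constructor
    · rintro ((h | h) | ⟨⟨_, h⟩, _⟩)
      · exact h ▸ ha
      · exact Finset.mem_of_mem_erase (hB h)
      · exact h
    · intro h
      by_cases h1 : b = a
      · exact Or.inl (Or.inl h1)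
      · by_cases h2 : b ∈ x.1.1
        · exact Or.inl (Or.inr h2)
        · exact Or.inr ⟨⟨h1, h⟩, h2⟩

theorem glue_bijective (hS : S.card = 2 ^ (n + 1)) (ha : a ∈ S) :
    Function.Bijective (glue (n := n) hS ha) := by
  constructor
  · rintro ⟨⟨B, hB⟩, ⟨s, hs⟩, ⟨t, ht⟩⟩ ⟨⟨B', hB'⟩, ⟨s', hs'⟩, ⟨t', ht'⟩⟩ h
    have h1 : (s(s, t) : Sym2 (Tr α n)) = s(s', t') := congrArg (fun z => z.1.1) h
    simp only at hs ht hs' ht'
    rw [Sym2.eq_iff] at h1
    obtain ⟨hB1, -⟩ := Finset.mem_powersetCard.1 hB
    obtain ⟨hB1', -⟩ := Finset.mem_powersetCard.1 hB'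
    have haB : a ∉ B := fun h => by simpa using hB1 h
    have haB' : a ∉ B' := fun h => by simpa using hB1' h
    rcases h1 with ⟨h1, h2⟩ | ⟨h1, h2⟩
    · subst h1 h2
      have : B = B' := by
        have h3 : insert a B = insert a B' := by rw [← hs, ← hs']
        rw [← Finset.erase_insert haB, h3, Finset.erase_insert haB']
      subst this
      rfl
    · exfalso
      subst h1
      have : a ∈ (S.erase a) \ B' := by rw [← ht', hs]; exact Finset.mem_insert_self _ _
      simp at this
  · rintro ⟨⟨p, hp⟩, hpS⟩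
    induction p using Sym2.ind with
    | _ s t =>
      have key : ∀ s t : Tr α n, ∀ hp : ¬ (s(s, t) : Sym2 (Tr α n)).IsDiag,
          leaves (n + 1) ⟨s(s, t), hp⟩ = S → a ∈ leaves n s →
          ∃ x, (glue (n := n) hS ha x).1.1 = s(s, t) := by
        intro s t hp hpS has
        rw [leaves_mk] at hpS
        have h1 := leaves_card_le n s
        have h2 := leaves_card_le n t
        have h3 := Finset.card_union_add_card_inter (leaves n s) (leaves n t)
        rw [hpS, hS, pow_succ] at h3
        have h4 : (leaves n s ∩ leaves n t).card = 0 := by omega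
        have h5 : (leaves n s).card = 2 ^ n := by omega
        rw [Finset.card_eq_zero] at h4
        have hsub : leaves n s ⊆ S := hpS ▸ Finset.subset_union_left
        refine ⟨⟨⟨(leaves n s).erase a, ?_⟩, ⟨s, ?_⟩, ⟨t, ?_⟩⟩, rfl⟩
        · rw [Finset.mem_powersetCard]
          exact ⟨Finset.erase_subset_erase _ hsub, by rw [Finset.card_erase_of_mem has, h5]⟩
        · exact (Finset.insert_erase has).symm
        · ext b
          simp only [Finset.mem_sdiff, Finset.mem_erase]
          constructor
          · intro hb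
            have hbs : b ∉ leaves n s := fun h => by
              have : b ∈ leaves n s ∩ leaves n t := Finset.mem_inter.2 ⟨h, hb⟩
              simp [h4] at this
            exact ⟨⟨fun h => hbs (h ▸ has), hpS ▸ Finset.mem_union_right _ hb⟩,
              fun h => hbs h.2⟩
          · rintro ⟨⟨h1, h2⟩, h3⟩
            rw [← hpS, Finset.mem_union] at h2
            rcases h2 with h2 | h2
            · exact absurd ⟨h1, h2⟩ h3
            · exact h2
      have haS : a ∈ leaves n s ∪ leaves n t := by
        have := hpS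
        rw [leaves_mk] at this
        rw [this]; exact ha
      rcases Finset.mem_union.1 haS with h | h
      · obtain ⟨x, hx⟩ := key s t hp hpS h
        exact ⟨x, Subtype.ext (Subtype.ext hx)⟩
      · have hsw : (s(s, t) : Sym2 (Tr α n)) = s(t, s) := Sym2.eq_swap
        have hp' : ¬ (s(t, s) : Sym2 (Tr α n)).IsDiag := hsw ▸ hp
        have hpS' : leaves (n + 1) ⟨s(t, s), hp'⟩ = S := by
          rw [leaves_mk, Finset.union_comm, ← leaves_mk n s t hp]; exact hpS
        obtain ⟨x, hx⟩ := key t s hp' hpS' h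
        exact ⟨x, Subtype.ext (Subtype.ext (hx.trans hsw.symm))⟩

end

theorem odd_card_sigma {ι : Type u} [Finite ι] {β : ι → Type u} [∀ i, Finite (β i)]
    (h : ∀ i, Odd (Nat.card (β i))) (hι : Odd (Nat.card ι)) : Odd (Nat.card (Sigma β)) := by
  have := Fintype.ofFinite ι
  rw [Nat.card_sigma, Finset.odd_sum_iff_odd_card_odd]
  rw [Finset.filter_true_of_mem (fun i _ => h i), Finset.card_univ, ← Nat.card_eq_fintype_card]
  exact hι

/-- The number of full trees on a set with `2^n` elements is odd. -/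
theorem odd_full : ∀ (n : ℕ) (S : Finset α), S.card = 2 ^ n →
    Finite (Full n S) ∧ Odd (Nat.card (Full n S))
  | 0, S, hS => by
    rw [pow_zero, Finset.card_eq_one] at hS
    obtain ⟨a, rfl⟩ := hS
    have : Unique (Full 0 ({a} : Finset α)) :=
      { default := ⟨a, rfl⟩
        uniq := by
          rintro ⟨t, ht⟩
          have : ({(t : α)} : Finset α) = {a} := ht
          exact Subtype.ext (Finset.singleton_inj.1 this) }
    exact ⟨inferInstance, by simp⟩
  | n + 1, S, hS => by
    have hne : S.Nonempty := by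
      rw [← Finset.card_pos, hS]; positivity
    obtain ⟨a, ha⟩ := hne
    have hb := glue_bijective (n := n) hS ha
    have hcA : ∀ B : {B // B ∈ (S.erase a).powersetCard (2 ^ n - 1)},
        (insert a B.1).card = 2 ^ n := by
      rintro ⟨B, hB⟩
      obtain ⟨hB1, hB2⟩ := Finset.mem_powersetCard.1 hB
      have : a ∉ B := fun h => by simpa using hB1 h
      rw [Finset.card_insert_of_notMem this, hB2]
      have : 1 ≤ 2 ^ n := Nat.one_le_two_pow
      omega
    have hcB : ∀ B : {B // B ∈ (S.erase a).powersetCard (2 ^ n - 1)},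
        ((S.erase a) \ B.1).card = 2 ^ n := by
      rintro ⟨B, hB⟩
      obtain ⟨hB1, hB2⟩ := Finset.mem_powersetCard.1 hB
      rw [Finset.card_sdiff_of_subset hB1, Finset.card_erase_of_mem ha, hS, hB2, pow_succ]
      have : 1 ≤ 2 ^ n := Nat.one_le_two_pow
      omega
    have hF1 : ∀ B : {B // B ∈ (S.erase a).powersetCard (2 ^ n - 1)},
        Finite (Full n (insert a B.1)) := fun B => (odd_full n _ (hcA B)).1
    have hF2 : ∀ B : {B // B ∈ (S.erase a).powersetCard (2 ^ n - 1)},
        Finite (Full n ((S.erase a) \ B.1)) := fun B => (odd_full n _ (hcB B)).1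
    have hfin : Finite (Full (n + 1) S) := Finite.of_surjective _ hb.2
    refine ⟨hfin, ?_⟩
    rw [← Nat.card_congr (Equiv.ofBijective _ hb)]
    refine odd_card_sigma (fun B => ?_) ?_
    · rw [Nat.card_prod]
      exact (odd_full n _ (hcA B)).2.mul (odd_full n _ (hcB B)).2
    · rw [Nat.card_eq_fintype_card, Fintype.card_coe, Finset.card_powersetCard,
        Finset.card_erase_of_mem ha, hS]
      exact odd_choose_two_pow_sub_one (n + 1) (2 ^ n - 1) (by rw [pow_succ]; omega)

end Vale.Agent.P263.TOP.H
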