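import Vale.Agent.P263.TOP.H.Model
import Vale.Agent.P263.TOP.H.Odd
import Vale.Agent.P263.E.Cofree

/-!
P263, block [H1]: weights.  `cW m N` (sum over the m-subsets), `UP i j n` (sum over the pairs with
union of n points), `trP i j` (transfer of the disjoint pairs), the property `Prim` and the
Young step.
-/

namespace Vale.Agent.P263.TOP.H

open Finset Vale.Agent.P263.S Vale.Agent.P263.E

variable {R : Type} [CommRing R]

/-! ### extension by zero -/

open Classical in
/-- function on the finite sets of labels given by a function on `Gam m` -/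
noncomputable def e1 {p m : ℕ} (w : (SS.F R (Gam m)).obj p) (A : Finset (Lab p)) : R :=
  if h : Good A ∧ A.card = m then w ⟨A, h⟩ else 0

theorem e1_of {p m : ℕ} (w : (SS.F R (Gam m)).obj p) {A : Finset (Lab p)}
    (h : Good A ∧ A.card = m) : e1 w A = w ⟨A, h⟩ := dif_pos h

theorem e1_coe {p m : ℕ} (w : (SS.F R (Gam m)).obj p) (A : (Gam m).obj p) : e1 w A.1 = w A :=
  dif_pos A.2

theorem e1_add {p m : ℕ} (w w' : (SS.F R (Gam m)).obj p) (A : Finset (Lab p)) :
    e1 (w + w') A = e1 w A + e1 w' A := by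
  unfold e1; split_ifs with h
  · rfl
  · rw [add_zero]

theorem e1_smul {p m : ℕ} (c : R) (w : (SS.F R (Gam m)).obj p) (A : Finset (Lab p)) :
    e1 (c • w) A = c * e1 w A := by
  unfold e1; split_ifs with h
  · rfl
  · rw [mul_zero]

theorem e1_res {p q m : ℕ} {A : Finset (Lab p)} (h : Good A) (φ : Op q p)
    (w : (SS.F R (Gam m)).obj q) : e1 ((SS.F R (Gam m)).map φ w) A = e1 w (res φ A) := by
  by_cases hc : A.card = m
  · rw [e1_of _ ⟨h, hc⟩, e1_of w ⟨h.res φ, by rw [h.card_res φ, hc]⟩]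
    rfl
  · unfold e1
    rw [dif_neg (fun h' => hc h'.2), dif_neg (fun h' => hc (by rw [← h'.2, h.card_res φ]))]

open Classical in
/-- function on the pairs of finite sets of labels given by a function on `Gam i × Gam j` -/
noncomputable def e2 {p i j : ℕ} (y : (SS.F R ((Gam i).prod (Gam j))).obj p)
    (A B : Finset (Lab p)) : R :=
  if h : (Good A ∧ A.card = i) ∧ (Good B ∧ B.card = j) then y (⟨A, h.1⟩, ⟨B, h.2⟩) else 0

theorem e2_of {p i j : ℕ} (y : (SS.F R ((Gam i).prod (Gam j))).obj p) {A B : Finset (Lab p)}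
    (h : (Good A ∧ A.card = i) ∧ (Good B ∧ B.card = j)) :
    e2 y A B = y (⟨A, h.1⟩, ⟨B, h.2⟩) := dif_pos h

theorem e2_add {p i j : ℕ} (y y' : (SS.F R ((Gam i).prod (Gam j))).obj p)
    (A B : Finset (Lab p)) : e2 (y + y') A B = e2 y A B + e2 y' A B := by
  unfold e2; split_ifs with h
  · rfl
  · rw [add_zero]

theorem e2_smul {p i j : ℕ} (c : R) (y : (SS.F R ((Gam i).prod (Gam j))).obj p)
    (A B : Finset (Lab p)) : e2 (c • y) A B = c * e2 y A B := by
  unfold e2; split_ifs with h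
  · rfl
  · rw [mul_zero]

theorem e2_res {p q i j : ℕ} {A B : Finset (Lab p)} (hA : Good A) (hB : Good B) (φ : Op q p)
    (y : (SS.F R ((Gam i).prod (Gam j))).obj q) :
    e2 ((SS.F R ((Gam i).prod (Gam j))).map φ y) A B = e2 y (res φ A) (res φ B) := by
  by_cases hc : A.card = i ∧ B.card = j
  · rw [e2_of _ ⟨⟨hA, hc.1⟩, ⟨hB, hc.2⟩⟩, e2_of y ⟨⟨hA.res φ, by rw [hA.card_res φ, hc.1]⟩,
      ⟨hB.res φ, by rw [hB.card_res φ, hc.2]⟩⟩]
    rfl
  · unfold e2
    rw [dif_neg (fun h' => hc ⟨h'.1.2, h'.2.2⟩), dif_neg (fun h' => hc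
      ⟨by rw [← h'.1.2, hA.card_res φ], by rw [← h'.2.2, hB.card_res φ]⟩)]

open Classical in
/-- function on the pairs of finite sets of labels given by a function on `GamP i j` -/
noncomputable def eP {p i j : ℕ} (y : (SS.F R (GamP i j)).obj p)
    (A B : Finset (Lab p)) : R :=
  if h : Good (A ∪ B) ∧ Disjoint A B ∧ A.card = i ∧ B.card = j then y ⟨(A, B), h⟩ else 0

theorem eP_of {p i j : ℕ} (y : (SS.F R (GamP i j)).obj p) {A B : Finset (Lab p)}
    (h : Good (A ∪ B) ∧ Disjoint A B ∧ A.card = i ∧ B.card = j) :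
    eP y A B = y ⟨(A, B), h⟩ := dif_pos h

theorem eP_add {p i j : ℕ} (y y' : (SS.F R (GamP i j)).obj p)
    (A B : Finset (Lab p)) : eP (y + y') A B = eP y A B + eP y' A B := by
  unfold eP; split_ifs with h
  · rfl
  · rw [add_zero]

theorem eP_smul {p i j : ℕ} (c : R) (y : (SS.F R (GamP i j)).obj p)
    (A B : Finset (Lab p)) : eP (c • y) A B = c * eP y A B := by
  unfold eP; split_ifs with h
  · rfl
  · rw [mul_zero]

theorem eP_res {p q i j : ℕ} {A B : Finset (Lab p)} (h : Good (A ∪ B)) (φ : Op q p)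
    (y : (SS.F R (GamP i j)).obj q) :
    eP ((SS.F R (GamP i j)).map φ y) A B = eP y (res φ A) (res φ B) := by
  have h1 : Good (res φ A ∪ res φ B) := by rw [← res_union]; exact h.res φ
  have h2 : Disjoint (res φ A) (res φ B) ↔ Disjoint A B :=
    h.disjoint_res_iff φ subset_union_left subset_union_right
  have h3 : (res φ A).card = A.card := (h.mono subset_union_left).card_res φ
  have h4 : (res φ B).card = B.card := (h.mono subset_union_right).card_res φ
  by_cases hc : Disjoint A B ∧ A.card = i ∧ B.card = j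
  · rw [eP_of _ ⟨h, hc⟩, eP_of y ⟨h1, h2.2 hc.1, by rw [h3, hc.2.1], by rw [h4, hc.2.2]⟩]
    rfl
  · unfold eP
    rw [dif_neg (fun h' => hc h'.2), dif_neg (fun h' => hc
      ⟨h2.1 h'.2.1, by rw [← h3, h'.2.2.1], by rw [← h4, h'.2.2.2]⟩)]

/-! ### the transfers -/

/-- sum over the m-subsets -/
noncomputable def cW (m N : ℕ) : Hom (SS.F R (Gam m)) (SS.F R (Gam N)) where
  app p :=
    { toFun := fun w F => ∑ A ∈ F.1.powersetCard m, e1 w A
      map_add' := fun w w' => by
        funext F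
        show ∑ A ∈ F.1.powersetCard m, e1 (w + w') A = _
        rw [sum_congr rfl fun A _ => e1_add w w' A, sum_add_distrib]
        rfl
      map_smul' := fun c w => by
        funext F
        show ∑ A ∈ F.1.powersetCard m, e1 (c • w) A = _
        rw [sum_congr rfl fun A _ => e1_smul c w A, ← mul_sum]
        rfl }
  nat {p q} φ w := by
    funext F
    show ∑ A ∈ F.1.powersetCard m, e1 ((SS.F R (Gam m)).map φ w) A =
      ∑ A ∈ (res φ F.1).powersetCard m, e1 w A
    rw [F.2.1.sum_powersetCard_res φ m]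
    exact sum_congr rfl fun A hA => e1_res (F.2.1.mono (mem_powersetCard.1 hA).1) φ w

theorem cW_app (m N : ℕ) {p : ℕ} (w : (SS.F R (Gam m)).obj p) (F : (Gam N).obj p) :
    (cW (R := R) m N).app p w F = ∑ A ∈ F.1.powersetCard m, e1 w A := rfl

/-- sum over pairs in a product -/
noncomputable def cc (i j N N' : ℕ) :
    Hom (SS.F R ((Gam i).prod (Gam j))) (SS.F R ((Gam N).prod (Gam N'))) where
  app p :=
    { toFun := fun y z => ∑ A ∈ z.1.1.powersetCard i, ∑ B ∈ z.2.1.powersetCard j, e2 y A B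
      map_add' := fun w w' => by
        funext z
        show ∑ A ∈ z.1.1.powersetCard i, ∑ B ∈ z.2.1.powersetCard j, e2 (w + w') A B =
          (∑ A ∈ z.1.1.powersetCard i, ∑ B ∈ z.2.1.powersetCard j, e2 w A B) +
          ∑ A ∈ z.1.1.powersetCard i, ∑ B ∈ z.2.1.powersetCard j, e2 w' A B
        rw [← sum_add_distrib]
        refine sum_congr rfl fun A _ => ?_
        rw [← sum_add_distrib]
        exact sum_congr rfl fun B _ => e2_add w w' A B
      map_smul' := fun c w => by
        funext z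
        show ∑ A ∈ z.1.1.powersetCard i, ∑ B ∈ z.2.1.powersetCard j, e2 (c • w) A B =
          c * (∑ A ∈ z.1.1.powersetCard i, ∑ B ∈ z.2.1.powersetCard j, e2 w A B)
        rw [mul_sum]
        refine sum_congr rfl fun A _ => ?_
        rw [mul_sum]
        exact sum_congr rfl fun B _ => e2_smul c w A B }
  nat {p q} φ y := by
    funext z
    show ∑ A ∈ z.1.1.powersetCard i, ∑ B ∈ z.2.1.powersetCard j,
        e2 ((SS.F R ((Gam i).prod (Gam j))).map φ y) A B =
      ∑ A ∈ (res φ z.1.1).powersetCard i, ∑ B ∈ (res φ z.2.1).powersetCard j, e2 y A B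
    rw [z.1.2.1.sum_powersetCard_res φ i]
    refine sum_congr rfl fun A hA => ?_
    rw [z.2.2.1.sum_powersetCard_res φ j]
    exact sum_congr rfl fun B hB => e2_res (z.1.2.1.mono (mem_powersetCard.1 hA).1)
      (z.2.2.1.mono (mem_powersetCard.1 hB).1) φ y

theorem cc_app (i j N N' : ℕ) {p : ℕ} (y : (SS.F R ((Gam i).prod (Gam j))).obj p)
    (z : ((Gam N).prod (Gam N')).obj p) :
    (cc (R := R) i j N N').app p y z =
      ∑ A ∈ z.1.1.powersetCard i, ∑ B ∈ z.2.1.powersetCard j, e2 y A B := rfl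

/-- sum over the pairs with given union -/
noncomputable def UP (i j n : ℕ) : Hom (SS.F R ((Gam i).prod (Gam j))) (SS.F R (Gam n)) where
  app p :=
    { toFun := fun y C => ∑ z ∈ pairs i j C.1, e2 y z.1 z.2
      map_add' := fun w w' => by
        funext C
        show ∑ z ∈ pairs i j C.1, e2 (w + w') z.1 z.2 = _
        rw [sum_congr rfl fun z _ => e2_add w w' z.1 z.2, sum_add_distrib]
        rfl
      map_smul' := fun c w => by
        funext C
        show ∑ z ∈ pairs i j C.1, e2 (c • w) z.1 z.2 = _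
        rw [sum_congr rfl fun z _ => e2_smul c w z.1 z.2, ← mul_sum]
        rfl }
  nat {p q} φ y := by
    funext C
    show ∑ z ∈ pairs i j C.1, e2 ((SS.F R ((Gam i).prod (Gam j))).map φ y) z.1 z.2 =
      ∑ z ∈ pairs i j (res φ C.1), e2 y z.1 z.2
    rw [C.2.1.pairs_res φ i j]
    refine sum_congr rfl fun z hz => ?_
    obtain ⟨A, B⟩ := z
    obtain ⟨-, -, h3⟩ := mem_pairs.1 hz
    exact e2_res (C.2.1.mono (h3 ▸ subset_union_left)) (C.2.1.mono (h3 ▸ subset_union_right)) φ y

theorem UP_app (i j n : ℕ) {p : ℕ} (y : (SS.F R ((Gam i).prod (Gam j))).obj p)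
    (C : (Gam n).obj p) :
    (UP (R := R) i j n).app p y C = ∑ z ∈ pairs i j C.1, e2 y z.1 z.2 := rfl

/-- transfer of the disjoint pairs -/
noncomputable def trP (i j n : ℕ) : Hom (SS.F R (GamP i j)) (SS.F R (Gam n)) where
  app p :=
    { toFun := fun y C => ∑ z ∈ pairs i j C.1, eP y z.1 z.2
      map_add' := fun w w' => by
        funext C
        show ∑ z ∈ pairs i j C.1, eP (w + w') z.1 z.2 = _
        rw [sum_congr rfl fun z _ => eP_add w w' z.1 z.2, sum_add_distrib]
        rfl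
      map_smul' := fun c w => by
        funext C
        show ∑ z ∈ pairs i j C.1, eP (c • w) z.1 z.2 = _
        rw [sum_congr rfl fun z _ => eP_smul c w z.1 z.2, ← mul_sum]
        rfl }
  nat {p q} φ y := by
    funext C
    show ∑ z ∈ pairs i j C.1, eP ((SS.F R (GamP i j)).map φ y) z.1 z.2 =
      ∑ z ∈ pairs i j (res φ C.1), eP y z.1 z.2
    rw [C.2.1.pairs_res φ i j]
    refine sum_congr rfl fun z hz => ?_
    obtain ⟨A, B⟩ := z
    obtain ⟨-, -, h3⟩ := mem_pairs.1 hz
    exact eP_res (by rw [h3]; exact C.2.1) φ y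

theorem trP_app (i j n : ℕ) {p : ℕ} (y : (SS.F R (GamP i j)).obj p) (C : (Gam n).obj p) :
    (trP (R := R) i j n).app p y C = ∑ z ∈ pairs i j C.1, eP y z.1 z.2 := rfl

/-! ### identities -/

theorem disjoint_of_mem_pairs {α : Type*} [DecidableEq α] {i j : ℕ} {C A B : Finset α}
    (hC : C.card = i + j) (h : (A, B) ∈ pairs i j C) : Disjoint A B := by
  obtain ⟨h1, h2, h3⟩ := mem_pairs.1 h
  rw [← card_union_eq_card_add_card, h3, h1, h2, hC]

theorem pairs_eq_image {α : Type*} [DecidableEq α] {i j : ℕ} {C : Finset α}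
    (hC : C.card = i + j) : pairs i j C = (C.powersetCard i).image (fun A => (A, C \ A)) := by
  ext ⟨A, B⟩
  constructor
  · intro h
    have hd := disjoint_of_mem_pairs hC h
    obtain ⟨h1, h2, h3⟩ := mem_pairs.1 h
    refine mem_image.2 ⟨A, mem_powersetCard.2 ⟨h3 ▸ subset_union_left, h1⟩, ?_⟩
    rw [← h3, union_sdiff_left, sdiff_eq_self_of_disjoint hd.symm]
  · intro h
    obtain ⟨A', hA', h'⟩ := mem_image.1 h
    obtain ⟨h1, h2⟩ := mem_powersetCard.1 hA'
    have e1 : A' = A := congrArg Prod.fst h'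
    have e2 : C \ A' = B := congrArg Prod.snd h'
    subst e1 e2
    refine mem_pairs.2 ⟨h2, ?_, ?_⟩
    · rw [card_sdiff_of_subset h1]; omega
    · exact union_sdiff_of_subset h1

theorem card_pairs {α : Type*} [DecidableEq α] {i j : ℕ} {C : Finset α}
    (hC : C.card = i + j) : (pairs i j C).card = (i + j).choose i := by
  rw [pairs_eq_image hC, card_image_of_injective, card_powersetCard, hC]
  intro A A' h
  exact congrArg Prod.fst h

theorem trP_incl (i j : ℕ) {p : ℕ} (y : (SS.F R ((Gam i).prod (Gam j))).obj p) :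
    (trP i j (i + j)).app p (((GamP.incl i j).pull).app p y) = (UP i j (i + j)).app p y := by
  funext C
  rw [trP_app, UP_app]
  refine sum_congr rfl fun z hz => ?_
  obtain ⟨A, B⟩ := z
  have hd := disjoint_of_mem_pairs C.2.2 hz
  obtain ⟨h1, h2, h3⟩ := mem_pairs.1 hz
  have hg : Good (A ∪ B) := by rw [h3]; exact C.2.1
  rw [eP_of _ ⟨hg, hd, h1, h2⟩, e2_of y ⟨⟨hg.mono subset_union_left, h1⟩,
    ⟨hg.mono subset_union_right, h2⟩⟩]
  rfl

theorem trP_tot (i j : ℕ) {p : ℕ} (w : (SS.F R (Gam (i + j))).obj p) :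
    (trP i j (i + j)).app p (((GamP.tot i j).pull).app p w) = ((i + j).choose i : R) • w := by
  funext C
  rw [trP_app, ← card_pairs C.2.2]
  show _ = ((pairs i j C.1).card : R) * w C
  rw [← nsmul_eq_mul, ← sum_const]
  refine sum_congr rfl fun z hz => ?_
  obtain ⟨A, B⟩ := z
  have hd := disjoint_of_mem_pairs C.2.2 hz
  obtain ⟨h1, h2, h3⟩ := mem_pairs.1 hz
  have hg : Good (A ∪ B) := by rw [h3]; exact C.2.1
  rw [eP_of _ ⟨hg, hd, h1, h2⟩]
  exact congrArg w (Subtype.ext h3)

theorem F_sum_apply {X : SS} {p : ℕ} {ι : Type*} (s : Finset ι) (g : ι → (SS.F R X).obj p)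
    (x : X.obj p) : (∑ a ∈ s, g a) x = ∑ a ∈ s, g a x :=
  Finset.sum_apply (M := fun _ : X.obj p => R) x s g

/-- the diagonal -/
def dg (X : SS) : SS.Map X (X.prod X) := SS.pair (SS.Map.id X) (SS.Map.id X)

/-- restriction of the product transfer to the diagonal -/
theorem dg_cc (i j N : ℕ) {p : ℕ} (y : (SS.F R ((Gam i).prod (Gam j))).obj p) :
    ((dg (Gam N)).pull).app p ((cc i j N N).app p y) =
      ∑ n ∈ range (i + j + 1), (cW n N).app p ((UP i j n).app p y) := by
  funext F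
  show ∑ A ∈ F.1.powersetCard i, ∑ B ∈ F.1.powersetCard j, e2 y A B = _
  refine (sum_pairs F.1 i j (fun A B => e2 y A B)).trans ?_
  refine Eq.trans ?_ (F_sum_apply _ _ _).symm
  refine sum_congr rfl fun n _ => ?_
  rw [cW_app]
  refine sum_congr rfl fun C hC => ?_
  rw [mem_powersetCard] at hC
  rw [e1_of _ ⟨F.2.1.mono hC.1, hC.2⟩]
  rfl

/-- the constant simplex on a vertex of `Gam N` -/
def cst {N : ℕ} (b : (Gam N).obj 0) (X : SS) : SS.Map X (Gam N) where
  app {p} _ := SS.cst (Gam N) b p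
  nat {p q} φ _ := by
    unfold SS.cst
    rw [← (Gam N).map_comp]
    rfl

/-- restriction of the product transfer to the first axis -/
theorem ax1_cc (i j N : ℕ) (b : (Gam N).obj 0) {p : ℕ}
    (y : (SS.F R ((Gam i).prod (Gam j))).obj p) :
    ((SS.pair (SS.Map.id (Gam N)) (cst b (Gam N))).pull).app p ((cc i j N N).app p y) =
      ∑ B ∈ (b.1.powersetCard j).attach, (cW i N).app p
        (((SS.pair (SS.Map.id (Gam i)) (cst (⟨B.1, b.2.1.mono (mem_powersetCard.1 B.2).1,
          (mem_powersetCard.1 B.2).2⟩ : (Gam j).obj 0) (Gam i))).pull).app p y) := by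
  funext F
  set ψ : Op p 0 := ⟨fun _ => 0, fun _ _ _ => le_rfl⟩ with hψ
  show ∑ A ∈ F.1.powersetCard i, ∑ B ∈ (res ψ b.1).powersetCard j, e2 y A B = _
  refine Eq.trans ?_ (F_sum_apply _ _ _).symm
  have h1 : ∀ A ∈ F.1.powersetCard i, ∑ B ∈ (res ψ b.1).powersetCard j, e2 y A B =
      ∑ B ∈ (b.1.powersetCard j).attach, e2 y A (res ψ B.1) := by
    intro A _
    rw [b.2.1.sum_powersetCard_res ψ j]
    exact (sum_attach (b.1.powersetCard j) (fun B => e2 y A (res ψ B))).symm
  rw [sum_congr rfl h1, sum_comm]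
  refine sum_congr rfl fun B _ => ?_
  rw [cW_app]
  refine sum_congr rfl fun A hA => ?_
  rw [mem_powersetCard] at hA
  have hB := mem_powersetCard.1 B.2
  rw [e1_of _ ⟨F.2.1.mono hA.1, hA.2⟩, e2_of y ⟨⟨F.2.1.mono hA.1, hA.2⟩,
    ⟨(b.2.1.mono hB.1).res ψ, by rw [(b.2.1.mono hB.1).card_res ψ, hB.2]⟩⟩]
  rfl

/-- restriction of the product transfer to the second axis -/
theorem ax2_cc (i j N : ℕ) (b : (Gam N).obj 0) {p : ℕ}
    (y : (SS.F R ((Gam i).prod (Gam j))).obj p) :
    ((SS.pair (cst b (Gam N)) (SS.Map.id (Gam N))).pull).app p ((cc i j N N).app p y) =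
      ∑ A ∈ (b.1.powersetCard i).attach, (cW j N).app p
        (((SS.pair (cst (⟨A.1, b.2.1.mono (mem_powersetCard.1 A.2).1,
          (mem_powersetCard.1 A.2).2⟩ : (Gam i).obj 0) (Gam j)) (SS.Map.id (Gam j))).pull).app p
            y) := by
  funext F
  set ψ : Op p 0 := ⟨fun _ => 0, fun _ _ _ => le_rfl⟩ with hψ
  show ∑ A ∈ (res ψ b.1).powersetCard i, ∑ B ∈ F.1.powersetCard j, e2 y A B = _
  refine Eq.trans ?_ (F_sum_apply _ _ _).symm
  rw [b.2.1.sum_powersetCard_res ψ i,
    ← sum_attach (b.1.powersetCard i) (fun A => ∑ B ∈ F.1.powersetCard j, e2 y (res ψ A) B)]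
  refine sum_congr rfl fun A _ => ?_
  rw [cW_app]
  refine sum_congr rfl fun B hB => ?_
  rw [mem_powersetCard] at hB
  have hA := mem_powersetCard.1 A.2
  rw [e1_of _ ⟨F.2.1.mono hB.1, hB.2⟩, e2_of y ⟨⟨(b.2.1.mono hA.1).res ψ, by
    rw [(b.2.1.mono hA.1).card_res ψ, hA.2]⟩, ⟨F.2.1.mono hB.1, hB.2⟩⟩]
  rfl

/-! ### cohomology -/

theorem mapH_eq_sum {A B : CosMod R} {ι : Type*} (s : Finset ι) (f : Hom A B) (g : ι → Hom A B)
    (h : ∀ (p : ℕ) (x : A.obj p), f.app p x = ∑ a ∈ s, (g a).app p x) (p : ℕ) (x : A.H p) :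
    f.mapH p x = ∑ a ∈ s, (g a).mapH p x := by
  obtain ⟨z, rfl⟩ := A.cls_surjective p x
  have h1 : f.mapZ p z = ∑ a ∈ s, (g a).mapZ p z := by
    apply Subtype.ext
    rw [Hom.coe_mapZ, h, AddSubmonoidClass.coe_finsetSum]
    rfl
  rw [Hom.mapH_cls, h1, map_sum]
  rfl

theorem cW_self (N : ℕ) : cW (R := R) N N = Hom.id _ := by
  apply Hom.ext
  intro p w
  funext F
  rw [cW_app]
  have h : F.1.powersetCard N = {F.1} := by
    have := powersetCard_self F.1
    rwa [F.2.2] at this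
  rw [h, sum_singleton]
  exact e1_coe w F

/-- the functional of a labelled covering is primitive -/
def Prim (N d : ℕ) (φ : (SS.F (ZMod 2) (Gam N)).H d →ₗ[ZMod 2] ZMod 2) : Prop :=
  ∃ b : (Gam N).obj 0, ∀ Y : (SS.F (ZMod 2) ((Gam N).prod (Gam N))).H d,
    φ ((dg (Gam N)).pull.mapH d Y) =
      φ ((SS.pair (SS.Map.id (Gam N)) (cst b (Gam N))).pull.mapH d Y) +
      φ ((SS.pair (cst b (Gam N)) (SS.Map.id (Gam N))).pull.mapH d Y)

section xi

variable {N d : ℕ} (φ : (SS.F (ZMod 2) (Gam N)).H d →ₗ[ZMod 2] ZMod 2)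

/-- the weight components of a functional -/
noncomputable def xi (m : ℕ) : (SS.F (ZMod 2) (Gam m)).H d →ₗ[ZMod 2] ZMod 2 :=
  φ.comp ((cW m N).mapH d)

theorem xi_apply (m : ℕ) (x : (SS.F (ZMod 2) (Gam m)).H d) :
    xi φ m x = φ ((cW m N).mapH d x) := rfl

theorem xi_self : xi φ N = φ := by
  apply LinearMap.ext
  intro x
  rw [xi_apply, cW_self, Hom.mapH_id]

variable {φ}

/-- the Young step -/
theorem young (hP : Prim N d φ) {i j : ℕ} (hi : 1 ≤ i) (hj : 1 ≤ j)
    (h0 : ∀ n, 1 ≤ n → n < i + j → xi φ n = 0)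
    (y : (SS.F (ZMod 2) ((Gam i).prod (Gam j))).H d) :
    xi φ (i + j) ((UP i j (i + j)).mapH d y) = 0 := by
  obtain ⟨b, hb⟩ := hP
  have h1 := hb ((cc i j N N).mapH d y)
  rw [← Hom.mapH_comp, ← Hom.mapH_comp, ← Hom.mapH_comp] at h1
  have hD : (((dg (Gam N)).pull).comp (cc (R := ZMod 2) i j N N)).mapH d y =
      ∑ n ∈ range (i + j + 1), ((cW n N).comp (UP i j n)).mapH d y :=
    mapH_eq_sum (range (i + j + 1)) _ _ (fun p x => dg_cc i j N x) d y
  have hA : (((SS.pair (SS.Map.id (Gam N)) (cst b (Gam N))).pull).comp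
      (cc (R := ZMod 2) i j N N)).mapH d y = ∑ B ∈ (b.1.powersetCard j).attach, ((cW i N).comp
        ((SS.pair (SS.Map.id (Gam i)) (cst (⟨B.1, b.2.1.mono (mem_powersetCard.1 B.2).1,
          (mem_powersetCard.1 B.2).2⟩ : (Gam j).obj 0) (Gam i))).pull)).mapH d y :=
    mapH_eq_sum (b.1.powersetCard j).attach _ _ (fun p x => ax1_cc i j N b x) d y
  have hB : (((SS.pair (cst b (Gam N)) (SS.Map.id (Gam N))).pull).comp
      (cc (R := ZMod 2) i j N N)).mapH d y = ∑ A ∈ (b.1.powersetCard i).attach, ((cW j N).comp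
        ((SS.pair (cst (⟨A.1, b.2.1.mono (mem_powersetCard.1 A.2).1,
          (mem_powersetCard.1 A.2).2⟩ : (Gam i).obj 0) (Gam j)) (SS.Map.id (Gam j))).pull)).mapH
            d y :=
    mapH_eq_sum (b.1.powersetCard i).attach _ _ (fun p x => ax2_cc i j N b x) d y
  rw [hD, hA, hB, map_sum, map_sum, map_sum, sum_range_succ] at h1
  have z1 : ∑ n ∈ range (i + j), φ (((cW n N).comp (UP i j n)).mapH d y) = 0 := by
    refine sum_eq_zero fun n hn => ?_
    rw [mem_range] at hn
    rcases Nat.eq_zero_or_pos n with h | h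
    · subst h
      have hU : (cW (R := ZMod 2) 0 N).comp (UP i j 0) =
          (cW (R := ZMod 2) 0 N).comp (UP i j 0) := rfl
      have hz : ((cW (R := ZMod 2) 0 N).comp (UP i j 0)).mapH d y = 0 := by
        have := mapH_eq_sum (∅ : Finset ℕ) ((cW (R := ZMod 2) 0 N).comp (UP i j 0))
          (fun _ => (cW (R := ZMod 2) 0 N).comp (UP i j 0)) (fun p x => by
            rw [sum_empty]
            have hU0 : (UP (R := ZMod 2) i j 0).app p x = 0 := by
              funext C
              rw [UP_app]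
              refine sum_eq_zero fun z hz => ?_
              obtain ⟨A, B⟩ := z
              obtain ⟨h1, h2, h3⟩ := mem_pairs.1 hz
              have hC : C.1 = ∅ := card_eq_zero.1 C.2.2
              rw [hC] at h3
              have hA : A = ∅ := (union_eq_empty.1 h3).1
              rw [hA, card_empty] at h1
              omega
            show (cW (R := ZMod 2) 0 N).app p ((UP (R := ZMod 2) i j 0).app p x) = 0
            rw [hU0, map_zero]) d y
        rw [this, sum_empty]
      rw [hz, map_zero]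
    · rw [Hom.mapH_comp]
      exact LinearMap.congr_fun (h0 n h hn) _
  have z2 : ∀ v ∈ (b.1.powersetCard j).attach, φ (((cW i N).comp
        ((SS.pair (SS.Map.id (Gam i)) (cst (⟨v.1, b.2.1.mono (mem_powersetCard.1 v.2).1,
          (mem_powersetCard.1 v.2).2⟩ : (Gam j).obj 0) (Gam i))).pull)).mapH d y) = 0 := by
    intro v _
    rw [Hom.mapH_comp]
    exact LinearMap.congr_fun (h0 i hi (by omega)) _
  have z3 : ∀ v ∈ (b.1.powersetCard i).attach, φ (((cW j N).comp
        ((SS.pair (cst (⟨v.1, b.2.1.mono (mem_powersetCard.1 v.2).1,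
          (mem_powersetCard.1 v.2).2⟩ : (Gam i).obj 0) (Gam j)) (SS.Map.id (Gam j))).pull)).mapH
            d y) = 0 := by
    intro v _
    rw [Hom.mapH_comp]
    exact LinearMap.congr_fun (h0 j hj (by omega)) _
  rw [z1, sum_eq_zero z2, sum_eq_zero z3, zero_add, add_zero, Hom.mapH_comp] at h1
  exact h1

/-- the first nonzero weight component kills the transfers from disjoint pairs -/
theorem xi_trP (hP : Prim N d φ) {i j : ℕ} (hi : 1 ≤ i) (hj : 1 ≤ j)
    (hs : Function.Surjective (((GamP.incl i j).pull (R := ZMod 2)).mapH d))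
    (h0 : ∀ n, 1 ≤ n → n < i + j → xi φ n = 0) (x : (SS.F (ZMod 2) (GamP i j)).H d) :
    xi φ (i + j) ((trP i j (i + j)).mapH d x) = 0 := by
  obtain ⟨y, rfl⟩ := hs x
  rw [← Hom.mapH_comp]
  have : (trP i j (i + j)).comp ((GamP.incl i j).pull (R := ZMod 2)) = UP i j (i + j) := by
    apply Hom.ext
    intro p x
    exact trP_incl i j x
  rw [this]
  exact young hP hi hj h0 y

/-- a functional killing the transfers from pairs with an odd binomial coefficient is zero -/
theorem xi_eq_zero_of_odd {i j : ℕ} (ho : Odd ((i + j).choose i))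
    (h : ∀ x : (SS.F (ZMod 2) (GamP i j)).H d,
      xi φ (i + j) ((trP i j (i + j)).mapH d x) = 0) : xi φ (i + j) = 0 := by
  apply LinearMap.ext
  intro w
  have h1 := h (((GamP.tot i j).pull).mapH d w)
  rw [← Hom.mapH_comp] at h1
  have h2 : ((trP i j (i + j)).comp ((GamP.tot i j).pull (R := ZMod 2))) = Hom.id _ := by
    apply Hom.ext
    intro p x
    refine (trP_tot i j x).trans ?_
    have : (((i + j).choose i : ℕ) : ZMod 2) = 1 := by
      rw [ZMod.natCast_eq_one_iff_odd]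
      exact ho
    rw [this, one_smul]
    rfl
  rw [h2, Hom.mapH_id] at h1
  exact h1

/-- the first nonzero weight is a power of two, at least two -/
theorem exists_pow (hP : Prim N d φ)
    (hs : ∀ i j, Function.Surjective (((GamP.incl i j).pull (R := ZMod 2)).mapH d))
    (hG0 : ∀ x : (SS.F (ZMod 2) (Gam 0)).H d, x = 0)
    (hG1 : ∀ x : (SS.F (ZMod 2) (Gam 1)).H d, x = 0) (hφ : φ ≠ 0) :
    ∃ k, xi φ (2 ^ (k + 1)) ≠ 0 ∧ ∀ n, n < 2 ^ (k + 1) → xi φ n = 0 := by
  classical
  have hex : ∃ m, xi φ m ≠ 0 := ⟨N, by rwa [xi_self]⟩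
  set m := Nat.find hex with hm
  have h1 : xi φ m ≠ 0 := Nat.find_spec hex
  have h2 : ∀ n, n < m → xi φ n = 0 := fun n hn => not_not.1 (Nat.find_min hex hn)
  have h3 : m ≠ 0 := by
    intro h
    apply h1
    rw [h]
    apply LinearMap.ext
    intro x
    rw [hG0 x, map_zero, map_zero]
  have h4 : m ≠ 1 := by
    intro h
    apply h1
    rw [h]
    apply LinearMap.ext
    intro x
    rw [hG1 x, map_zero, map_zero]
  by_cases hp : ∃ k, m = 2 ^ k
  · obtain ⟨k, hk⟩ := hp
    cases k with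
    | zero => exact absurd hk (by simpa using h4)
    | succ k => exact ⟨k, by rw [← hk]; exact h1, by rw [← hk]; exact h2⟩
  · exfalso
    obtain ⟨a, ha, ha', ho⟩ := exists_odd_choose m (by omega) (fun k hk => hp ⟨k, hk⟩)
    obtain ⟨j, hj⟩ : ∃ j, m = a + j := ⟨m - a, by omega⟩
    apply h1
    rw [hj] at ho ⊢
    exact xi_eq_zero_of_odd ho fun x => xi_trP hP ha (by omega) (hs a j)
      (fun n _ hn => h2 n (by omega)) x

end xi

end Vale.Agent.P263.TOP.H
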