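import Vale.Agent.P263.TOP.H.ColorYoung
import Vale.Agent.P263.TOP.H.Weights
import Vale.Agent.P263.TOP.H.Pair

/-!
# P263, section [H]: the tree functional kills the transfers from intransitive subgroups (helper67)

`sum_fullT_trP` : the transfer over the full trees with leaves `C` of a transfer from an
intransitive subgroup is a sum of Young transfers `trP i j`, `i, j ≥ 1`.
`xi_full_Itr` : hence it is killed by the first nonzero weight component of a primitive functional.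
-/

noncomputable section

namespace Vale.Agent.P263.TOP.H

open Finset Vale.Agent.P263.S Vale.Agent.P263.E Vale.Agent.P263.E.SS Vale.Agent.P263.H

variable {R : Type} [CommRing R] {p q : ℕ}

/-- **(I5)**. -/
theorem sum_fullT_trP {n : ℕ} (f : (F R (SS.BW Two n)).obj p) (C : (Gam (2 ^ n)).obj p) :
    ∑ t ∈ fullT n C.1, ((nonmono n).sum (R := R)).app p f (cl n t) =
      ∑ i ∈ Ico 1 (2 ^ n), (trP i (2 ^ n - i) (2 ^ n)).app p
        ((colY R n i (2 ^ n - i)).app p f) C := by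
  rw [sum_fullT_nonmono f C.2.1 C.2.2]
  refine sum_congr rfl fun i hi => ?_
  rw [mem_Ico] at hi
  rw [trP_app]
  refine sum_congr rfl fun z hz => ?_
  obtain ⟨A, B⟩ := z
  have hd := disjoint_of_mem_pairs (by rw [C.2.2]; omega) hz
  obtain ⟨h1, h2, h3⟩ := mem_pairs.1 hz
  have hg : Good (A ∪ B) := by rw [h3]; exact C.2.1
  rw [eP_of _ ⟨hg, hd, h1, h2⟩]
  refine Eq.trans ?_ (colY_app f ⟨(A, B), hg, hd, h1, h2⟩).symm
  show ∑ t ∈ fullT n C.1, f (clc n A t) = ∑ t ∈ fullT n (A ∪ B), f (clc n A t)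
  rw [h3]

section xi

variable {N d : ℕ} {φ : (SS.F (ZMod 2) (Gam N)).H d →ₗ[ZMod 2] ZMod 2}

theorem xi_trPC (hP : Prim N d φ) {i j m : ℕ} (hm : i + j = m) (hi : 1 ≤ i) (hj : 1 ≤ j)
    (h0 : ∀ n, 1 ≤ n → n < m → xi φ n = 0) (x : (SS.F (ZMod 2) (GamP i j)).H d) :
    xi φ m ((trP i j m).mapH d x) = 0 := by
  subst hm
  exact xi_trP hP hi hj (incl_mapH_surjective i j d) h0 x

/-- **The tree functional kills the transfers from intransitive subgroups.** -/
theorem xi_full_Itr (hP : Prim N d φ) {n : ℕ} (h0 : ∀ m, 1 ≤ m → m < 2 ^ n → xi φ m = 0)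
    (L : Hom (SS.F (ZMod 2) (SS.BW SS.pt n)) (SS.F (ZMod 2) (Gam (2 ^ n))))
    (hL : ∀ (p : ℕ) (w : (SS.F (ZMod 2) (SS.BW SS.pt n)).obj p) (C : (Gam (2 ^ n)).obj p),
      L.app p w C = ∑ t ∈ fullT n C.1, w (cl n t))
    {w : (SS.F (ZMod 2) (SS.BW SS.pt n)).H d} (hw : w ∈ Itr (ZMod 2) n d) :
    xi φ (2 ^ n) (L.mapH d w) = 0 := by
  obtain ⟨y, rfl⟩ := hw
  rw [← Hom.mapH_comp]
  have h1 : (L.comp (nonmono n).sum).mapH d y = ∑ i ∈ Ico 1 (2 ^ n),
      ((trP i (2 ^ n - i) (2 ^ n)).comp (colY (ZMod 2) n i (2 ^ n - i))).mapH d y := by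
    refine mapH_eq_sum (Ico 1 (2 ^ n)) _ _ (fun p x => ?_) d y
    funext C
    refine Eq.trans ?_ (F_sum_apply _ _ _).symm
    refine (hL p _ C).trans ?_
    exact sum_fullT_trP x C
  rw [h1, map_sum]
  refine sum_eq_zero fun i hi => ?_
  rw [mem_Ico] at hi
  rw [Hom.mapH_comp]
  exact xi_trPC hP (by omega) hi.1 (by omega) h0 _

end xi

end Vale.Agent.P263.TOP.H
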