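import Vale.Agent.P263.E.D2
import Vale.Agent.P263.E.Cofree

/-!
# P263, section [H-FLAG] (helper354): the simplices of `BV m` as orbits of `(𝔽₂^m)^(p+1)`, linear maps
and functions on `BV m`
-/

namespace Vale.Agent.P263.TOP.H

open Vale.Agent.P263.S Vale.Agent.P263.E

noncomputable section

/-- the vector space `𝔽₂^m` -/
abbrev VV (m : ℕ) : Type := Fin m → ZMod 2

/-- the elements of `C2` as elements of `ZMod 2` -/
abbrev cA (a : ZMod 2) : C2 := Multiplicative.ofAdd a

theorem cA_add (a b : ZMod 2) : cA (a + b) = cA a * cA b := rfl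

theorem cA_one : cA 1 = tau := rfl

theorem VV_add_self {m : ℕ} (v : VV m) : v + v = 0 := by
  funext i
  exact CharTwo.add_self_eq_zero (v i)

/-- The simplex `[s]` of `BV m`. -/
def BVmk : (m : ℕ) → {p : ℕ} → (Fin (p + 1) → VV m) → (SS.BV m).obj p
  | 0, _, _ => ()
  | m + 1, _, s => (SS.BC2.mk (fun i => cA (s i 0)), BVmk m (fun i j => s i j.succ))

theorem BVmk_succ (m : ℕ) {p : ℕ} (s : Fin (p + 1) → VV (m + 1)) :
    BVmk (m + 1) s = ((SS.BC2.mk (fun i => cA (s i 0)), BVmk m (fun i j => s i j.succ)) :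
      (SS.BC2.prod (SS.BV m)).obj p) := rfl

theorem BC2mk_eq_iff {p : ℕ} {s t : Fin (p + 1) → C2} :
    SS.BC2.mk s = SS.BC2.mk t ↔ s = t ∨ s = fun i => tau * t i := by
  refine (SS.D2.mk_eq_iff (Z := SS.pt) (z := ()) (z' := ()) (w := ()) (w' := ())).trans ?_
  constructor
  · rintro (⟨h, _, _⟩ | ⟨h, _, _⟩)
    · exact Or.inl h
    · exact Or.inr h
  · rintro (h | h)
    · exact Or.inl ⟨h, rfl, rfl⟩
    · exact Or.inr ⟨h, rfl, rfl⟩

theorem BVmk_add : ∀ (m : ℕ) {p : ℕ} (v : VV m) (s : Fin (p + 1) → VV m),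
    BVmk m (fun i => v + s i) = BVmk m s
  | 0, _, _, _ => rfl
  | m + 1, p, v, s => by
    rw [BVmk_succ, BVmk_succ]
    refine Prod.ext ?_ ?_
    · show SS.BC2.mk (fun i => cA (v 0 + s i 0)) = SS.BC2.mk (fun i => cA (s i 0))
      rw [BC2mk_eq_iff]
      have h : v 0 = 0 ∨ v 0 = 1 := by
        generalize v 0 = a; revert a; decide
      rcases h with h | h
      · left; funext i; rw [h, zero_add]
      · right; funext i; rw [h]; rfl
    · exact BVmk_add m (fun j => v j.succ) (fun i j => s i j.succ)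

theorem exists_of_BVmk_eq : ∀ (m : ℕ) {p : ℕ} (s t : Fin (p + 1) → VV m), BVmk m s = BVmk m t →
    ∃ v : VV m, s = fun i => v + t i
  | 0, _, s, t, _ => ⟨0, by funext i; exact Subsingleton.elim _ _⟩
  | m + 1, p, s, t, h => by
    rw [BVmk_succ, BVmk_succ] at h
    have h1 : SS.BC2.mk (fun i => cA (s i 0)) = SS.BC2.mk (fun i => cA (t i 0)) :=
      congrArg Prod.fst h
    have h2 : BVmk m (fun i j => s i j.succ) = BVmk m (fun i j => t i j.succ) :=
      congrArg Prod.snd h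
    obtain ⟨v, hv⟩ := exists_of_BVmk_eq m _ _ h2
    obtain ⟨a, ha⟩ : ∃ a : ZMod 2, ∀ i, s i 0 = a + t i 0 := by
      rcases BC2mk_eq_iff.1 h1 with h3 | h3
      · exact ⟨0, fun i => by rw [zero_add]; exact congrFun h3 i⟩
      · exact ⟨1, fun i => congrFun h3 i⟩
    refine ⟨Fin.cons a v, ?_⟩
    funext i j
    refine Fin.cases ?_ (fun j => ?_) j
    · show s i 0 = a + t i 0
      exact ha i
    · show s i j.succ = v j + t i j.succ
      exact congrFun (congrFun hv i) j

theorem BVmk_surjective : ∀ (m : ℕ) {p : ℕ} (x : (SS.BV m).obj p), ∃ s, BVmk m s = x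
  | 0, _, x => ⟨fun _ => 0, rfl⟩
  | m + 1, p, x => by
    obtain ⟨b, y⟩ := (x : (SS.BC2.prod (SS.BV m)).obj p)
    obtain ⟨s, rfl⟩ := SS.BC2.rep b
    obtain ⟨t, rfl⟩ := BVmk_surjective m y
    refine ⟨fun i => Fin.cons (Multiplicative.toAdd (s i)) (t i), ?_⟩
    rfl

theorem BV_map_mk : ∀ (m : ℕ) {p q : ℕ} (f : Op p q) (s : Fin (q + 1) → VV m),
    (SS.BV m).map f (BVmk m s) = BVmk m (fun i => s (f i))
  | 0, _, _, _, _ => rfl
  | m + 1, p, q, f, s => by
    rw [BVmk_succ, BVmk_succ]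
    exact Prod.ext rfl (BV_map_mk m f _)

/-- a representative -/
def BVrep {m p : ℕ} (x : (SS.BV m).obj p) : Fin (p + 1) → VV m := (BVmk_surjective m x).choose

@[simp] theorem BVmk_rep {m p : ℕ} (x : (SS.BV m).obj p) : BVmk m (BVrep x) = x :=
  (BVmk_surjective m x).choose_spec

/-- functions out of `BV m` given by functions of the representatives -/
theorem BVrep_mk {m p : ℕ} {α : Type*} (f : (Fin (p + 1) → VV m) → α)
    (hf : ∀ v s, f (fun i => v + s i) = f s) (s : Fin (p + 1) → VV m) :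
    f (BVrep (BVmk m s)) = f s := by
  obtain ⟨v, hv⟩ := exists_of_BVmk_eq m _ _ (BVmk_rep (BVmk m s))
  rw [hv, hf]

/-- simplicial maps out of `BV m` -/
def BVhom {m : ℕ} {X : SS} (f : ∀ {p : ℕ}, (Fin (p + 1) → VV m) → X.obj p)
    (hf : ∀ {p : ℕ} (v : VV m) (s : Fin (p + 1) → VV m), f (fun i => v + s i) = f s)
    (hn : ∀ {p q : ℕ} (a : Op p q) (s : Fin (q + 1) → VV m),
      f (fun i => s (a i)) = X.map a (f s)) : SS.Map (SS.BV m) X where
  app x := f (BVrep x)
  nat {p q} a x := by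
    obtain ⟨s, rfl⟩ := BVmk_surjective m x
    rw [BV_map_mk, BVrep_mk f hf, BVrep_mk f hf, hn]

theorem BVhom_mk {m : ℕ} {X : SS} (f : ∀ {p : ℕ}, (Fin (p + 1) → VV m) → X.obj p)
    (hf : ∀ {p : ℕ} (v : VV m) (s : Fin (p + 1) → VV m), f (fun i => v + s i) = f s)
    (hn : ∀ {p q : ℕ} (a : Op p q) (s : Fin (q + 1) → VV m),
      f (fun i => s (a i)) = X.map a (f s)) {p : ℕ} (s : Fin (p + 1) → VV m) :
    (BVhom f hf hn).app (BVmk m s) = f s := BVrep_mk f hf s

/-- maps out of `BV m` are determined on the simplices `[s]` -/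
theorem BVhom_ext {m : ℕ} {X : SS} {f g : SS.Map (SS.BV m) X}
    (h : ∀ {p : ℕ} (s : Fin (p + 1) → VV m), f.app (BVmk m s) = g.app (BVmk m s)) : f = g := by
  apply SS.Map.ext
  intro p x
  obtain ⟨s, rfl⟩ := BVmk_surjective m x
  exact h s

/-- homotopies out of `BV m` -/
def BVhtp {m : ℕ} {X : SS} (f : ∀ {p : ℕ}, Op p 1 → (Fin (p + 1) → VV m) → X.obj p)
    (hf : ∀ {p : ℕ} (χ : Op p 1) (v : VV m) (s : Fin (p + 1) → VV m),
      f χ (fun i => v + s i) = f χ s)
    (hn : ∀ {p q : ℕ} (a : Op p q) (χ : Op q 1) (s : Fin (q + 1) → VV m),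
      f (χ.comp a) (fun i => s (a i)) = X.map a (f χ s)) : SS.Htp (SS.BV m) X where
  h p χ x := f χ (BVrep x)
  nat {p q} a χ x := by
    obtain ⟨s, rfl⟩ := BVmk_surjective m x
    rw [BV_map_mk, BVrep_mk (f (χ.comp a)) (hf _), BVrep_mk (f χ) (hf χ), hn]

theorem BVhtp_mk {m : ℕ} {X : SS} (f : ∀ {p : ℕ}, Op p 1 → (Fin (p + 1) → VV m) → X.obj p)
    (hf : ∀ {p : ℕ} (χ : Op p 1) (v : VV m) (s : Fin (p + 1) → VV m),
      f χ (fun i => v + s i) = f χ s)
    (hn : ∀ {p q : ℕ} (a : Op p q) (χ : Op q 1) (s : Fin (q + 1) → VV m),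
      f (χ.comp a) (fun i => s (a i)) = X.map a (f χ s)) {p : ℕ} (χ : Op p 1)
    (s : Fin (p + 1) → VV m) :
    (BVhtp f hf hn).h p χ (BVmk m s) = f χ s := BVrep_mk (f χ) (hf χ) s

/-- the map of classifying spaces of a homomorphism -/
def BVlin {m n : ℕ} (A : VV m →+ VV n) : SS.Map (SS.BV m) (SS.BV n) :=
  BVhom (fun s => BVmk n (fun i => A (s i)))
    (fun v s => by simp only [map_add]; exact BVmk_add n (A v) (fun i => A (s i)))
    (fun a s => (BV_map_mk n a (fun i => A (s i))).symm)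

@[simp] theorem BVlin_mk {m n : ℕ} (A : VV m →+ VV n) {p : ℕ} (s : Fin (p + 1) → VV m) :
    (BVlin A).app (BVmk m s) = BVmk n (fun i => A (s i)) :=
  BVrep_mk (fun s => BVmk n (fun i => A (s i)))
    (fun v s => by simp only [map_add]; exact BVmk_add n (A v) (fun i => A (s i))) s

theorem BVlin_comp {l m n : ℕ} (A : VV l →+ VV m) (B : VV m →+ VV n) :
    BVlin (B.comp A) = (BVlin B).comp (BVlin A) := by
  apply BVhom_ext
  intro p s
  rw [SS.Map.comp_app, BVlin_mk, BVlin_mk, BVlin_mk]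
  rfl

theorem BVlin_id (m : ℕ) : BVlin (AddMonoidHom.id (VV m)) = SS.Map.id _ := by
  apply BVhom_ext
  intro p s
  rw [BVlin_mk]
  rfl

/-- the iterated diagonal on `[s]` -/
theorem dn_BVmk (n : ℕ) {p : ℕ} (s : Fin (p + 1) → VV (n + 1)) :
    (SS.BV.dn (n + 1)).app (BVmk (n + 1) s) =
      SS.D2.mk (fun i => cA (s i 0)) ((SS.BV.dn n).app (BVmk n (fun i j => s i j.succ)))
        ((SS.BV.dn n).app (BVmk n (fun i j => s i j.succ))) := rfl

/-! ### homotopy fixed points of the trivial action and functions on `BV m` -/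

section
variable (R : Type) [CommRing R] (m : ℕ)

/-- homotopy fixed points of the trivial action as functions on `BV m` -/
def hGtoBV : Hom (hG (Act.triv (Multiplicative (VV m)) (SS.F R SS.pt))) (SS.F R (SS.BV m)) where
  app p :=
    { toFun := fun f x => (hG.fn f (fun i => Multiplicative.ofAdd (BVrep x i)) : Unit → R) ()
      map_add' := fun _ _ => rfl
      map_smul' := fun _ _ => rfl }
  nat {p q} a f := by
    funext x
    obtain ⟨s, rfl⟩ := BVmk_surjective m x
    show (hG.fn ((hG (Act.triv (Multiplicative (VV m)) (SS.F R SS.pt))).map a f)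
      (fun i => Multiplicative.ofAdd (BVrep (BVmk m s) i)) : Unit → R) () =
      (hG.fn f (fun i => Multiplicative.ofAdd (BVrep ((SS.BV m).map a (BVmk m s)) i)) :
        Unit → R) ()
    rw [BV_map_mk,
      BVrep_mk (fun s => (hG.fn ((hG (Act.triv (Multiplicative (VV m)) (SS.F R SS.pt))).map a f)
        (fun i => Multiplicative.ofAdd (s i)) : Unit → R) ()) (fun v s => by
          exact congrFun (hG.fn_mul _ (Multiplicative.ofAdd v)
            (fun i => Multiplicative.ofAdd (s i))) ()),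
      BVrep_mk (fun s => (hG.fn f (fun i => Multiplicative.ofAdd (s i)) : Unit → R) ())
        (fun v s => by
          exact congrFun (hG.fn_mul _ (Multiplicative.ofAdd v)
            (fun i => Multiplicative.ofAdd (s i))) ())]
    rfl

theorem hGtoBV_mk {p : ℕ} (f : (hG (Act.triv (Multiplicative (VV m)) (SS.F R SS.pt))).obj p)
    (s : Fin (p + 1) → VV m) :
    (hGtoBV R m).app p f (BVmk m s) =
      (hG.fn f (fun i => Multiplicative.ofAdd (s i)) : Unit → R) () :=
  BVrep_mk (fun s => (hG.fn f (fun i => Multiplicative.ofAdd (s i)) : Unit → R) ())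
        (fun v s => by
          exact congrFun (hG.fn_mul _ (Multiplicative.ofAdd v)
            (fun i => Multiplicative.ofAdd (s i))) ()) s

end

end

end Vale.Agent.P263.TOP.H
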