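import Vale.Agent.P263.S.Defs
import Vale.Agent.P263.S.Htpy

/-!
# P263, section [H-FLAG], F1: the fixed point formula (helper354)

`W` an `𝔽₂`-vector space (the group is `Multiplicative W`), `X` a finite `W`-set, `B` a cosimplicial
`𝔽₂`-module with trivial action.  For a cocycle `f` of `hG` of the functions `X → B`, the sum of `f`
over `X` is cohomologous to the sum of the values of `f` at the fixed points of `W`.
-/

namespace Vale.Agent.P263.TOP.H

open Vale.Agent.P263.S

noncomputable section

variable {R : Type} [CommRing R]

/-- functions on a set with values in a cosimplicial module -/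
def fnS (X : Type) (B : CosMod R) : CosMod R where
  obj p := X → B.obj p
  map φ :=
    { toFun := fun f x => B.map φ (f x)
      map_add' := fun f g => by funext x; simp
      map_smul' := fun r f => by funext x; simp }
  map_id {p} := by
    refine LinearMap.ext fun f => ?_
    funext s
    exact B.map_id_apply _
  map_comp g f := by
    refine LinearMap.ext fun x => ?_
    funext s
    exact (B.map_map g f _).symm

@[simp] theorem fnS_map {X : Type} (B : CosMod R) {p q : ℕ} (φ : Op p q)
    (f : X → B.obj p) (x : X) : ((fnS X B).map φ f : X → B.obj q) x = B.map φ (f x) := rfl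

/-- The translation action of a group on the functions on a `G`-set. -/
def actS (G : Type) [Group G] (X : Type) [MulAction G X] (B : CosMod R) : Act G (fnS X B) where
  act p :=
    { toFun := fun g =>
        { toFun := fun f x => f (g⁻¹ • x)
          map_add' := fun _ _ => rfl
          map_smul' := fun _ _ => rfl }
      map_one' := by
        refine LinearMap.ext fun f => ?_
        funext x
        show f ((1 : G)⁻¹ • x) = f x
        rw [inv_one, one_smul]
      map_mul' := fun g h => by
        refine LinearMap.ext fun f => ?_
        funext x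
        show f ((g * h)⁻¹ • x) = f (h⁻¹ • g⁻¹ • x)
        rw [mul_inv_rev, mul_smul] }
  nat _ _ _ := rfl

section
variable {G : Type} [Group G] {X : Type} [MulAction G X] {B : CosMod R}

@[simp] theorem actS_act (p : ℕ) (g : G) (f : X → B.obj p) (x : X) :
    ((actS G X B).act p g f : X → B.obj p) x = f (g⁻¹ • x) := rfl

/-- Values of an element of `hG (actS G X B)`. -/
def val {p : ℕ} (f : (hG (actS G X B)).obj p) (s : Fin (p + 1) → G) (x : X) : B.obj p :=
  (hG.fn f s : X → B.obj p) x

theorem val_mul {p : ℕ} (f : (hG (actS G X B)).obj p) (g : G) (s : Fin (p + 1) → G) (x : X) :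
    val f (fun i => g * s i) x = val f s (g⁻¹ • x) := by
  rw [val, hG.fn_mul]; rfl

theorem val_mul_smul {p : ℕ} (f : (hG (actS G X B)).obj p) (g : G) (s : Fin (p + 1) → G) (x : X) :
    val f (fun i => g * s i) (g • x) = val f s x := by
  rw [val_mul, inv_smul_smul]

theorem val_map {p q : ℕ} (φ : Op p q) (f : (hG (actS G X B)).obj p) (s : Fin (q + 1) → G) (x : X) :
    val ((hG (actS G X B)).map φ f) s x = B.map φ (val f (s ∘ φ) x) := rfl

theorem val_ext {p : ℕ} {f g : (hG (actS G X B)).obj p} (h : ∀ s x, val f s x = val g s x) :
    f = g := hG.ext fun s => funext (h s)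

/-- Build an element of `hG (actS G X B)`. -/
def mkS {p : ℕ} (f : (Fin (p + 1) → G) → X → B.obj p)
    (hf : ∀ g s x, f (fun i => g * s i) (g • x) = f s x) : (hG (actS G X B)).obj p :=
  hG.mk _ f fun g s => by
    funext x
    show f (fun i => g * s i) x = f s (g⁻¹ • x)
    rw [← hf g s (g⁻¹ • x), smul_inv_smul]

@[simp] theorem val_mkS {p : ℕ} (f : (Fin (p + 1) → G) → X → B.obj p) (hf) (s) (x : X) :
    val (mkS (B := B) f hf) s x = f s x := rfl

variable (G X B) in
/-- The transfer: sum over `X`. -/
def trS [Fintype X] : Hom (hG (actS G X B)) (hG (Act.triv G B)) where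
  app p :=
    { toFun := fun f => hG.mk _ (fun s => ∑ x, val f s x) (fun g s => by
        show ∑ x, val f (fun i => g * s i) x = ∑ x, val f s x
        rw [← Equiv.sum_comp (MulAction.toPerm g)]
        exact Finset.sum_congr rfl fun x _ => val_mul_smul f g s x)
      map_add' := fun f g => hG.ext fun s => by
        show ∑ x, (val f s x + val g s x) = _
        rw [Finset.sum_add_distrib]; rfl
      map_smul' := fun r f => hG.ext fun s => by
        show ∑ x, r • val f s x = r • ∑ x, val f s x
        rw [Finset.smul_sum] }
  nat φ f := hG.ext fun s => by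
    show ∑ x, B.map φ (val f (s ∘ φ) x) = B.map φ (∑ x, val f (s ∘ φ) x)
    rw [map_sum]

theorem trS_fn [Fintype X] {p : ℕ} (f : (hG (actS G X B)).obj p) (s : Fin (p + 1) → G) :
    hG.fn ((trS G X B).app p f) s = ∑ x, val f s x := rfl

variable (B) in
/-- Evaluation at a fixed point. -/
def evS (x : X) (hx : ∀ g : G, g • x = x) : Hom (hG (actS G X B)) (hG (Act.triv G B)) where
  app p :=
    { toFun := fun f => hG.mk _ (fun s => val f s x) (fun g s => by
        show val f (fun i => g * s i) x = val f s x
        conv_lhs => rw [← hx g]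
        exact val_mul_smul f g s x)
      map_add' := fun f g => rfl
      map_smul' := fun r f => rfl }
  nat φ f := rfl

theorem evS_fn (x : X) (hx : ∀ g : G, g • x = x) {p : ℕ} (f : (hG (actS G X B)).obj p)
    (s : Fin (p + 1) → G) : hG.fn ((evS B x hx).app p f) s = val f s x := rfl

/-- The homotopy defined by an equivariant family of self-maps of `G`. -/
def prismS (φ : X → G → G) (hφ : ∀ g x v, φ (g • x) (g * v) = g * φ x v) :
    Prism (hG (actS G X B)) (hG (actS G X B)) where
  h p θ :=
    { toFun := fun f => mkS (fun s x => val f (fun i => if θ i = 0 then s i else φ x (s i)) x)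
        (fun g s x => by
          rw [← val_mul_smul f g (fun i => if θ i = 0 then s i else φ x (s i)) x]
          congr 1
          funext i
          by_cases h : θ i = 0
          · rw [if_pos h, if_pos h]
          · rw [if_neg h, if_neg h, hφ])
      map_add' := fun f g => rfl
      map_smul' := fun r f => rfl }
  nat α θ f := val_ext fun s x => rfl

theorem prismS_h (φ : X → G → G) (hφ : ∀ g x v, φ (g • x) (g * v) = g * φ x v) {p : ℕ} (θ : Op p 1)
    (f : (hG (actS G X B)).obj p) (s : Fin (p + 1) → G) (x : X) :
    val ((prismS (B := B) φ hφ).h p θ f) s x =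
      val f (fun i => if θ i = 0 then s i else φ x (s i)) x := rfl

end

/-! ### The choice of the retractions -/

section
variable {W : Type} [AddCommGroup W] [Module (ZMod 2) W] {X : Type} [MulAction (Multiplicative W) X]

theorem two_add (w : W) : w + w = 0 := by
  have : (2 : ZMod 2) • w = 0 := by rw [show (2 : ZMod 2) = 0 from rfl, zero_smul]
  rw [← this, show (2 : ZMod 2) = 1 + 1 from rfl, add_smul, one_smul]

/-- The stabilizer as a subspace. -/
def stab (x : X) : Submodule (ZMod 2) W where
  carrier := {w | Multiplicative.ofAdd w • x = x}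
  add_mem' := fun {a b} ha hb => by
    show Multiplicative.ofAdd (a + b) • x = x
    rw [ofAdd_add, mul_smul]
    rw [show Multiplicative.ofAdd b • x = x from hb]
    exact ha
  zero_mem' := one_smul _ x
  smul_mem' := fun c w hw => by
    have : c = 0 ∨ c = 1 := by revert c; decide
    rcases this with rfl | rfl
    · rw [zero_smul]; exact one_smul _ x
    · rwa [one_smul]

theorem mem_stab {x : X} {w : W} : w ∈ stab x ↔ Multiplicative.ofAdd w • x = x := Iff.rfl

theorem stab_smul (g : Multiplicative W) (x : X) : stab (W := W) (g • x) = stab x := by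
  ext w
  rw [mem_stab, mem_stab, smul_smul, mul_comm, ← smul_smul]
  exact (MulAction.injective g).eq_iff

/-- Data of F1 at a non fixed point: a linear form vanishing on the stabilizer and a vector. -/
theorem exists_form (K : Submodule (ZMod 2) W) (hK : K ≠ ⊤) :
    ∃ p : (W →ₗ[ZMod 2] ZMod 2) × W, p.1 p.2 = 1 ∧ ∀ w ∈ K, p.1 w = 0 := by
  obtain ⟨f, hf, hle⟩ := Submodule.exists_le_ker_of_lt_top K (lt_top_iff_ne_top.2 hK)
  obtain ⟨t, ht⟩ : ∃ t, f t ≠ 0 := by
    by_contra hcon
    push Not at hcon
    exact hf (LinearMap.ext hcon)
  refine ⟨(f, t), ?_, fun w hw => LinearMap.mem_ker.1 (hle hw)⟩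
  have : ∀ a : ZMod 2, a ≠ 0 → a = 1 := by decide
  exact this _ ht

open Classical in
/-- the linear form and the vector attached to a subspace -/
def form (K : Submodule (ZMod 2) W) : (W →ₗ[ZMod 2] ZMod 2) × W :=
  if h : K ≠ ⊤ then (exists_form K h).choose else 0

theorem form_spec {K : Submodule (ZMod 2) W} (h : K ≠ ⊤) :
    (form K).1 (form K).2 = 1 ∧ ∀ w ∈ K, (form K).1 w = 0 := by
  rw [form, dif_pos h]
  exact (exists_form K h).choose_spec

/-- base point of the orbit -/
def bpt (x : X) : X := (Quotient.out (Quotient.mk (MulAction.orbitRel (Multiplicative W) X) x) : X)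

omit [Module (ZMod 2) W] in
theorem exists_bpt (x : X) : ∃ g : Multiplicative W, x = g • bpt (W := W) x := by
  have h : (MulAction.orbitRel (Multiplicative W) X).r (bpt (W := W) x) x :=
    Quotient.exact (Quotient.out_eq (Quotient.mk (MulAction.orbitRel (Multiplicative W) X) x))
  obtain ⟨g, hg⟩ := h
  refine ⟨g⁻¹, ?_⟩
  rw [← hg]
  exact (inv_smul_smul g x).symm

omit [Module (ZMod 2) W] in
theorem bpt_smul (g : Multiplicative W) (x : X) : bpt (W := W) (g • x) = bpt (W := W) x := by
  have : (Quotient.mk (MulAction.orbitRel (Multiplicative W) X) (g • x)) =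
      Quotient.mk (MulAction.orbitRel (Multiplicative W) X) x :=
    Quotient.sound (MulAction.mem_orbit x g)
  rw [bpt, this, bpt]

/-- `ε x`: the value of the form on an element which moves the base point of the orbit to `x` -/
def eps (x : X) : ZMod 2 :=
  (form (stab (W := W) (bpt (W := W) x))).1 (Multiplicative.toAdd (exists_bpt (W := W) x).choose)

theorem stab_bpt (x : X) : stab (W := W) (bpt (W := W) x) = stab x := by
  obtain ⟨g, hg⟩ := exists_bpt (W := W) x
  conv_rhs => rw [hg]
  rw [stab_smul]

theorem eps_smul (g : Multiplicative W) (x : X) (hx : stab (W := W) x ≠ ⊤) :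
    eps (W := W) (g • x) = eps (W := W) x + (form (stab (W := W) x)).1 (Multiplicative.toAdd g) := by
  have h1 := (exists_bpt (W := W) (g • x)).choose_spec
  have h2 := (exists_bpt (W := W) x).choose_spec
  rw [eps, eps]
  set a := (exists_bpt (W := W) (g • x)).choose
  set b := (exists_bpt (W := W) x).choose
  rw [bpt_smul] at h1 ⊢
  rw [stab_bpt] at *
  have h3 : (Multiplicative.toAdd a + Multiplicative.toAdd g + Multiplicative.toAdd b) ∈
      stab (W := W) x := by
    rw [← stab_bpt, mem_stab]
    rw [ofAdd_add, ofAdd_add, ofAdd_toAdd, ofAdd_toAdd, ofAdd_toAdd, mul_smul, ← h2, mul_smul, h1,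
      smul_smul]
    have : a * a = 1 := Multiplicative.ext (two_add (Multiplicative.toAdd a))
    rw [this, one_smul]
  have h4 := (form_spec hx).2 _ h3
  rw [map_add, map_add] at h4
  generalize (form (stab (W := W) x)).1 (Multiplicative.toAdd a) = u at *
  generalize (form (stab (W := W) x)).1 (Multiplicative.toAdd b) = v at *
  generalize (form (stab (W := W) x)).1 (Multiplicative.toAdd g) = w at *
  revert u v w
  decide

/-- The self-map of the group attached to `x ∈ X`: the identity for a fixed point; otherwise the
projection along a vector which is not in the stabilizer, suitably translated. -/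
def phi (x : X) (v : Multiplicative W) : Multiplicative W :=
  haveI := Classical.dec (stab (W := W) x = ⊤)
  if stab (W := W) x = ⊤ then v else
    if (eps (W := W) x + (form (stab (W := W) x)).1 (Multiplicative.toAdd v) = 0) then v
    else Multiplicative.ofAdd (form (stab (W := W) x)).2 * v

theorem phi_fixed {x : X} (h : stab (W := W) x = ⊤) (v : Multiplicative W) : phi x v = v := by
  rw [phi, if_pos h]

theorem phi_smul (g : Multiplicative W) (x : X) (v : Multiplicative W) :
    phi (g • x) (g * v) = g * phi x v := by
  by_cases h : stab (W := W) x = ⊤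
  · rw [phi_fixed h, phi_fixed (by rw [stab_smul, h])]
  · have h' : stab (W := W) (g • x) ≠ ⊤ := by rw [stab_smul]; exact h
    rw [phi, phi, if_neg h, if_neg h', stab_smul, eps_smul g x h, toAdd_mul, map_add]
    have : ∀ a b c : ZMod 2, a + b + (b + c) = a + c := by decide
    rw [this]
    split_ifs
    · rfl
    · rw [mul_left_comm]

theorem phi_tr {x : X} (h : stab (W := W) x ≠ ⊤) (v : Multiplicative W) :
    phi (Multiplicative.ofAdd (form (stab (W := W) x)).2 • x) v =
      Multiplicative.ofAdd (form (stab (W := W) x)).2 * phi x v := by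
  set t := Multiplicative.ofAdd (form (stab (W := W) x)).2 with ht
  have htt : t * t = 1 := Multiplicative.ext (two_add (form (stab (W := W) x)).2)
  have h' : stab (W := W) (t • x) ≠ ⊤ := by rw [stab_smul]; exact h
  rw [phi, phi, if_neg h, if_neg h', stab_smul, eps_smul t x h, ht, toAdd_ofAdd,
    (form_spec h).1, ← ht]
  have h01 : ∀ a b : ZMod 2, (a + 1 + b = 0) ↔ ¬ (a + b = 0) := by decide
  by_cases h3 : eps (W := W) x + (form (stab (W := W) x)).1 (Multiplicative.toAdd v) = 0
  · rw [if_pos h3, if_neg (fun h4 => (h01 _ _).1 h4 h3)]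
  · rw [if_neg h3, if_pos ((h01 _ _).2 h3), ← mul_assoc, htt, one_mul]

theorem fixed_iff {x : X} : stab (W := W) x = ⊤ ↔ ∀ g : Multiplicative W, g • x = x :=
  ⟨fun h g => (by
    have : Multiplicative.toAdd g ∈ stab (W := W) x := by rw [h]; trivial
    exact this), fun h => by
    ext w
    exact ⟨fun _ => trivial, fun _ => h _⟩⟩

variable {B : CosMod R}

/-- **Fixed point formula.**  The transfer of a cocycle is cohomologous to the sum of its values at
the fixed points. -/
theorem trS_sub_mem [Fintype X] [DecidablePred fun x : X => stab (W := W) x = ⊤]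
    (h2 : (2 : R) = 0) {p : ℕ}
    {f : (hG (actS (Multiplicative W) X B)).obj p}
    (hf : f ∈ (hG (actS (Multiplicative W) X B)).Z p) :
    (trS (Multiplicative W) X B).app p f -
      ∑ x : {x : X // stab (W := W) x = ⊤}, (evS B x.1 (fixed_iff.1 x.2)).app p f ∈
      (hG (Act.triv (Multiplicative W) B)).Bd p := by
  set P := prismS (B := B) (phi (W := W) (X := X)) (fun g x v => phi_smul g x v) with hP
  have h1 := (trS (Multiplicative W) X B).app_mem_Bd (P.sub_mem hf)
  have h0 : P.h p (c0 p) f = f := val_ext fun s x => by
    rw [hP, prismS_h]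
    congr 1
    funext i
    rw [if_pos (c0_val p i)]
  have h3 : (trS (Multiplicative W) X B).app p (P.h p (c1 p) f) =
      ∑ x : {x : X // stab (W := W) x = ⊤}, (evS B x.1 (fixed_iff.1 x.2)).app p f := by
    refine hG.ext fun s => ?_
    have e1 : hG.fn (∑ x : {x : X // stab (W := W) x = ⊤}, (evS B x.1 (fixed_iff.1 x.2)).app p f) s =
        ∑ x : {x : X // stab (W := W) x = ⊤}, val f s x.1 := by
      have : ∀ (T : Finset {x : X // stab (W := W) x = ⊤}),
          hG.fn (∑ x ∈ T, (evS B x.1 (fixed_iff.1 x.2)).app p f) s = ∑ x ∈ T, val f s x.1 := by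
        intro T
        classical
        induction T using Finset.induction_on with
        | empty => rfl
        | insert a T ha ih =>
          rw [Finset.sum_insert ha, Finset.sum_insert ha, ← ih]
          rfl
      exact this _
    rw [e1, trS_fn]
    have e2 : ∀ x, val (P.h p (c1 p) f) s x = val f (fun i => phi (W := W) x (s i)) x := fun x => by
      rw [hP, prismS_h]
      refine congrArg (fun u => val f u x) (funext fun i => ?_)
      rw [if_neg (by rw [c1_val]; exact one_ne_zero)]
    rw [Finset.sum_congr rfl fun x _ => e2 x,
      ← Finset.sum_filter_add_sum_filter_not Finset.univ (fun x : X => stab (W := W) x = ⊤),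
      Finset.sum_subtype (p := fun x : X => stab (W := W) x = ⊤) _ (fun x => by simp)]
    have e3 : ∑ x ∈ Finset.univ.filter (fun x : X => ¬ stab (W := W) x = ⊤),
        val f (fun i => phi (W := W) x (s i)) x = 0 := by
      refine Finset.sum_involution
        (fun x _ => Multiplicative.ofAdd (form (stab (W := W) x)).2 • x) ?_ ?_ ?_ ?_
      · intro x hx
        rw [Finset.mem_filter] at hx
        have : val f (fun i => phi (W := W)
            (Multiplicative.ofAdd (form (stab (W := W) x)).2 • x) (s i))
            (Multiplicative.ofAdd (form (stab (W := W) x)).2 • x) =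
            val f (fun i => phi (W := W) x (s i)) x := by
          rw [← val_mul_smul f (Multiplicative.ofAdd (form (stab (W := W) x)).2)
            (fun i => phi (W := W) x (s i)) x]
          congr 1
          funext i
          exact phi_tr hx.2 (s i)
        rw [this, ← two_smul R, h2, zero_smul]
      · intro x hx _ hcon
        rw [Finset.mem_filter] at hx
        have : (form (stab (W := W) x)).2 ∈ stab (W := W) x := hcon
        have h4 := (form_spec hx.2).2 _ this
        rw [(form_spec hx.2).1] at h4
        exact one_ne_zero h4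
      · intro x hx
        rw [Finset.mem_filter] at hx ⊢
        exact ⟨Finset.mem_univ _, by rw [stab_smul]; exact hx.2⟩
      · intro x hx
        show Multiplicative.ofAdd (form (stab (W := W)
          (Multiplicative.ofAdd (form (stab (W := W) x)).2 • x))).2 •
          Multiplicative.ofAdd (form (stab (W := W) x)).2 • x = x
        rw [stab_smul, smul_smul]
        have : Multiplicative.ofAdd (form (stab (W := W) x)).2 *
          Multiplicative.ofAdd (form (stab (W := W) x)).2 = 1 :=
          Multiplicative.ext (two_add (form (stab (W := W) x)).2)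
        rw [this, one_smul]
    rw [e3, add_zero]
    exact Finset.sum_congr rfl fun x _ => by
      congr 1
      funext i
      exact phi_fixed x.2 _
  rw [h0, map_sub, h3] at h1
  rw [← neg_sub]
  exact neg_mem h1

end

end

end Vale.Agent.P263.TOP.H
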