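import Vale.Agent.P263.TOP.H.Color
import Vale.Agent.P263.TOP.H.BVg
import Vale.Agent.P263.TOP.H.FixPt

/-!
# P263, section [H]: transfers from intransitive subgroups vanish on `V_n` (helper67)

The coverings `(col n).S` of `BW pt n` pulled back to `BV n` are labelled by the colourings
`x : 𝔽₂^n → Bool`, with `𝔽₂^n` acting by translation; the mono-coloured ones are the fixed points.
Hence the pull-back of `(nonmono n).sum` to `BV n` is zero in cohomology (`dn_nonmono`).
-/

namespace Vale.Agent.P263.TOP.H

open Vale.Agent.P263.S Vale.Agent.P263.E Vale.Agent.P263.H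

noncomputable section

/-- The colourings of `𝔽₂^n`. -/
def XX (n : ℕ) : Type := VV n → Bool

instance (n : ℕ) : Fintype (XX n) := inferInstanceAs (Fintype (VV n → Bool))

instance (n : ℕ) : MulAction (Multiplicative (VV n)) (XX n) where
  smul g x := fun w => x (Multiplicative.toAdd g + w)
  one_smul x := by
    funext w
    show x (0 + w) = x w
    rw [zero_add]
  mul_smul g h x := by
    funext w
    show x (Multiplicative.toAdd g + Multiplicative.toAdd h + w) =
      x (Multiplicative.toAdd h + (Multiplicative.toAdd g + w))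
    rw [add_comm (Multiplicative.toAdd g) (Multiplicative.toAdd h), add_assoc]

theorem XX_smul {n : ℕ} (g : Multiplicative (VV n)) (x : XX n) (w : VV n) :
    (g • x) w = x (Multiplicative.toAdd g + w) := rfl

/-- the half of a colouring -/
def XX.half {n : ℕ} (x : XX (n + 1)) (a : ZMod 2) : XX n := fun w => x (Fin.cons a w)

/-- the coloured tree over `dn [s]` with the colouring `x` -/
def Tx : (n : ℕ) → {p : ℕ} → (Fin (p + 1) → VV n) → XX n → (SS.BW Two n).obj p
  | 0, _, _, x => (x 0 : Bool)
  | n + 1, _, s, x => SS.D2.mk (fun i => cA (s i 0)) (Tx n (fun i j => s i j.succ) (x.half 0))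
      (Tx n (fun i j => s i j.succ) (x.half 1))

theorem Tx_succ (n : ℕ) {p : ℕ} (s : Fin (p + 1) → VV (n + 1)) (x : XX (n + 1)) :
    Tx (n + 1) s x = SS.D2.mk (fun i => cA (s i 0)) (Tx n (fun i j => s i j.succ) (x.half 0))
      (Tx n (fun i j => s i j.succ) (x.half 1)) := rfl

theorem Tx_map : ∀ (n : ℕ) {p q : ℕ} (f : Op p q) (s : Fin (q + 1) → VV n) (x : XX n),
    (SS.BW Two n).map f (Tx n s x) = Tx n (fun i => s (f i)) x
  | 0, _, _, _, _, _ => rfl
  | n + 1, p, q, f, s, x => by
    rw [Tx_succ, Tx_succ]
    refine (SS.D2.map_mk f _ _ _).trans ?_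
    rw [Tx_map n f, Tx_map n f]

theorem cons_half {n : ℕ} (x : XX (n + 1)) (v : VV (n + 1)) (a : ZMod 2) (w : VV n) :
    x (v + Fin.cons a w) = x.half (v 0 + a) ((fun j => v j.succ) + w) := by
  show x _ = x _
  congr 1
  funext j
  refine Fin.cases ?_ (fun j => ?_) j
  · rfl
  · rfl

theorem half_smul {n : ℕ} (x : XX (n + 1)) (v : VV (n + 1)) (a : ZMod 2) :
    (Multiplicative.ofAdd v • x).half a =
      Multiplicative.ofAdd (fun j : Fin n => v j.succ) • x.half (v 0 + a) := by
  funext w
  exact cons_half x v a w

theorem Tx_smul : ∀ (n : ℕ) {p : ℕ} (v : VV n) (s : Fin (p + 1) → VV n) (x : XX n),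
    Tx n (fun i => v + s i) (Multiplicative.ofAdd v • x) = Tx n s x
  | 0, p, v, s, x => by
    show x (v + 0) = x 0
    congr 1
    exact Subsingleton.elim _ _
  | n + 1, p, v, s, x => by
    rw [Tx_succ, Tx_succ, half_smul, half_smul]
    have e1 : ∀ a, Tx n (fun i j => (v + s i) (Fin.succ j))
        (Multiplicative.ofAdd (fun j : Fin n => v j.succ) • x.half a) =
        Tx n (fun i j => s i j.succ) (x.half a) := fun a =>
      Tx_smul n (fun j => v j.succ) (fun i j => s i j.succ) (x.half a)
    rw [e1, e1]
    have h : v 0 = 0 ∨ v 0 = 1 := by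
      generalize v 0 = a; revert a; decide
    rcases h with h | h
    · rw [h, zero_add, zero_add]
      congr 1
      funext i
      show cA (v 0 + s i 0) = _
      rw [h, zero_add]
    · rw [h, add_zero, show (1 : ZMod 2) + 1 = 0 from rfl]
      have e2 : (fun i => cA ((v + s i) 0)) = fun i => tau * cA (s i 0) := by
        funext i
        show cA (v 0 + s i 0) = _
        rw [h]
        rfl
      rw [e2]
      exact SS.D2.mk_swap _ _ _

/-- colourings of `𝔽₂^(n+1)` as pairs -/
def XXequiv (n : ℕ) : XX (n + 1) ≃ XX n × XX n where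
  toFun x := (x.half 0, x.half 1)
  invFun y := fun v => if v 0 = 0 then y.1 (fun j => v j.succ) else y.2 (fun j => v j.succ)
  left_inv x := by
    funext v
    have h : v 0 = 0 ∨ v 0 = 1 := by
      generalize v 0 = a; revert a; decide
    have e : ∀ a : ZMod 2, v 0 = a → (Fin.cons a (fun j : Fin n => v j.succ) : VV (n + 1)) = v := by
      rintro a rfl
      funext j
      refine Fin.cases ?_ (fun j => ?_) j
      · rfl
      · rfl
    rcases h with h | h
    · show (if v 0 = 0 then x (Fin.cons 0 (fun j => v j.succ)) else _) = x v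
      rw [if_pos h, e 0 h]
    · show (if v 0 = 0 then _ else x (Fin.cons 1 (fun j => v j.succ))) = x v
      rw [if_neg (by rw [h]; decide), e 1 h]
  right_inv y := by
    refine Prod.ext ?_ ?_
    · funext w
      show (if (0 : ZMod 2) = 0 then y.1 w else y.2 w) = y.1 w
      exact if_pos rfl
    · funext w
      show (if (1 : ZMod 2) = 0 then y.1 w else y.2 w) = y.2 w
      exact if_neg (by decide)

theorem sum_col_dn {A : Type*} [AddCommMonoid A] : ∀ (n : ℕ) {p : ℕ} (s : Fin (p + 1) → VV n)
    (g : (SS.BW Two n).obj p → A),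
    ∑ t ∈ (col n).S ((SS.BV.dn n).app (BVmk n s)), g t = ∑ x : XX n, g (Tx n s x)
  | 0, p, s, g => by
    rw [sum_col_zero, ← Fintype.sum_bool (fun b : Bool => g b)]
    symm
    refine Fintype.sum_equiv (⟨fun x => x 0, fun b _ => b, fun x => ?_, fun b => rfl⟩ :
      XX 0 ≃ Bool) _ _ (fun x => rfl)
    funext w
    show x 0 = x w
    congr 1
    exact Subsingleton.elim _ _
  | n + 1, p, s, g => by
    rw [dn_BVmk, sum_col_succ, sum_col_dn n]
    have e1 : ∀ x : XX n, ∑ t' ∈ (col n).S ((SS.BV.dn n).app (BVmk n fun i j => s i j.succ)),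
        g (SS.D2.mk (fun i => cA (s i 0)) (Tx n (fun i j => s i j.succ) x) t') =
        ∑ y : XX n, g (SS.D2.mk (fun i => cA (s i 0)) (Tx n (fun i j => s i j.succ) x)
          (Tx n (fun i j => s i j.succ) y)) := fun x =>
      sum_col_dn n _ _
    rw [Finset.sum_congr rfl fun x _ => e1 x, ← Fintype.sum_prod_type']
    symm
    exact Fintype.sum_equiv (XXequiv n) _ _ (fun x => rfl)

theorem mono_Tx (b : Bool) : ∀ (n : ℕ) {p : ℕ} (s : Fin (p + 1) → VV n) (x : XX n),
    mono b n (Tx n s x) ↔ ∀ w, x w = b
  | 0, p, s, x => by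
    rw [mono_zero]
    constructor
    · intro h w
      rw [Subsingleton.elim w 0]
      exact h
    · intro h
      exact h 0
  | n + 1, p, s, x => by
    rw [Tx_succ, mono_mk, mono_Tx b n, mono_Tx b n]
    constructor
    · rintro ⟨h1, h2⟩ v
      have h : v 0 = 0 ∨ v 0 = 1 := by
        generalize v 0 = a; revert a; decide
      have e : ∀ a : ZMod 2, v 0 = a → x v = x.half a (fun j => v j.succ) := by
        rintro a rfl
        show x v = x _
        congr 1
        funext j
        refine Fin.cases ?_ (fun j => ?_) j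
        · rfl
        · rfl
      rcases h with h | h
      · rw [e 0 h]; exact h1 _
      · rw [e 1 h]; exact h2 _
    · intro h
      exact ⟨fun w => h _, fun w => h _⟩

/-- the colouring is not constant -/
def NC {n : ℕ} (x : XX n) : Prop := ∀ b, ¬ ∀ w, x w = b

theorem NM_Tx (n : ℕ) {p : ℕ} (s : Fin (p + 1) → VV n) (x : XX n) :
    NM n (Tx n s x) ↔ NC x :=
  forall_congr' fun b => not_congr (mono_Tx b n s x)

theorem NC_smul {n : ℕ} (g : Multiplicative (VV n)) (x : XX n) : NC (g • x) ↔ NC x := by
  refine forall_congr' fun b => not_congr ⟨fun h w => ?_, fun h w => h _⟩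
  have := h (-Multiplicative.toAdd g + w)
  rwa [XX_smul, add_neg_cancel_left] at this

theorem not_NC_of_fixed {n : ℕ} {x : XX n} (h : ∀ g : Multiplicative (VV n), g • x = x) :
    ¬ NC x := by
  intro hb
  apply hb (x 0)
  intro w
  have h4 : (Multiplicative.ofAdd w • x) 0 = x 0 := by rw [h]
  have h5 : x (w + 0) = x 0 := h4
  rwa [add_zero] at h5

variable (R : Type) [CommRing R]

open Classical in
/-- the values of a cochain on the coloured trees over `BV n` with non-constant colouring -/
def labHom (n : ℕ) : Hom (SS.F R (SS.BW Two n))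
    (hG (actS (Multiplicative (VV n)) (XX n) (SS.F R SS.pt))) where
  app p :=
    { toFun := fun f => mkS (B := SS.F R SS.pt) (fun s x => fun _ =>
          if NC x then f (Tx n (fun i => Multiplicative.toAdd (s i)) x) else 0)
        (fun g s x => by
          funext _
          have h1 := NC_smul g x
          have h2 : Tx n (fun i => Multiplicative.toAdd (g * s i)) (g • x) =
              Tx n (fun i => Multiplicative.toAdd (s i)) x :=
            Tx_smul n (Multiplicative.toAdd g) (fun i => Multiplicative.toAdd (s i)) x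
          show (if NC (g • x) then
            f (Tx n (fun i => Multiplicative.toAdd (g * s i)) (g • x)) else 0) = _
          rw [h2]
          by_cases h : NC x
          · rw [if_pos h, if_pos (h1.2 h)]
          · rw [if_neg h, if_neg (fun h' => h (h1.1 h'))])
      map_add' := fun f g => val_ext fun s x => by
        funext _
        show (if _ then f _ + g _ else 0) = (if _ then f _ else 0) + (if _ then g _ else 0)
        split_ifs
        · rfl
        · rw [add_zero]
      map_smul' := fun r f => val_ext fun s x => by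
        funext _
        show (if _ then r * f _ else 0) = r * (if _ then f _ else 0)
        split_ifs
        · rfl
        · rw [mul_zero] }
  nat {p q} φ f := val_ext fun s x => by
    funext _
    show (if _ then f ((SS.BW Two n).map φ (Tx n (fun i => Multiplicative.toAdd (s i)) x)) else 0) =
      (if _ then f (Tx n (fun i => Multiplicative.toAdd (s (φ i))) x) else 0)
    rw [Tx_map]

open Classical in
theorem labHom_val (n : ℕ) {p : ℕ} (f : (SS.F R (SS.BW Two n)).obj p)
    (s : Fin (p + 1) → Multiplicative (VV n)) (x : XX n) (u : Unit) :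
    (val ((labHom R n).app p f) s x : Unit → R) u =
      if NC x then f (Tx n (fun i => Multiplicative.toAdd (s i)) x) else 0 := rfl

/-- The pull-back of `(nonmono n).sum` to `BV n` is a transfer of the form `trS`. -/
theorem dn_comp_nonmono (n : ℕ) : ((SS.BV.dn n).pull (R := R)).comp (nonmono n).sum =
    (hGtoBV R n).comp ((trS (Multiplicative (VV n)) (XX n) (SS.F R SS.pt)).comp (labHom R n)) := by
  classical
  apply Hom.ext
  intro p f
  funext y
  obtain ⟨s, rfl⟩ := BVmk_surjective n y
  show (nonmono n).sum.app p f ((SS.BV.dn n).app (BVmk n s)) =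
    (hGtoBV R n).app p ((trS (Multiplicative (VV n)) (XX n) (SS.F R SS.pt)).app p
      ((labHom R n).app p f)) (BVmk n s)
  rw [hGtoBV_mk, trS_fn, nonmono_sum_apply, sum_col_dn]
  have e : ∀ T : Finset (XX n), (∑ x ∈ T, val ((labHom R n).app p f)
      (fun i => Multiplicative.ofAdd (s i)) x : Unit → R) () =
      ∑ x ∈ T, (val ((labHom R n).app p f)
        (fun i => Multiplicative.ofAdd (s i)) x : Unit → R) () := fun T => Finset.sum_apply _ _ _
  refine Eq.trans ?_ (e Finset.univ).symm
  refine Finset.sum_congr rfl fun x _ => ?_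
  rw [labHom_val]
  have h := NM_Tx n s x
  by_cases hx : NM n (Tx n s x)
  · rw [if_pos hx, if_pos (h.1 hx)]; rfl
  · rw [if_neg hx, if_neg (fun h' => hx (h.2 h'))]

/-- **Transfers from intransitive subgroups vanish on `V_n`.** -/
theorem dn_nonmono (h2 : (2 : R) = 0) (n q : ℕ) (y : (SS.F R (SS.BW Two n)).H q) :
    ((SS.BV.dn n).pull (R := R)).mapH q ((nonmono n).sum.mapH q y) = 0 := by
  classical
  have h1 : ((SS.BV.dn n).pull (R := R)).mapH q ((nonmono n).sum.mapH q y) =
      (hGtoBV R n).mapH q ((trS (Multiplicative (VV n)) (XX n) (SS.F R SS.pt)).mapH q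
        ((labHom R n).mapH q y)) := by
    rw [← Hom.mapH_comp, dn_comp_nonmono, Hom.mapH_comp, Hom.mapH_comp]
  rw [h1]
  suffices h : (trS (Multiplicative (VV n)) (XX n) (SS.F R SS.pt)).mapH q
      ((labHom R n).mapH q y) = 0 by rw [h, map_zero]
  induction y using CosMod.H_ind with
  | h z =>
    rw [Hom.mapH_cls, Hom.mapH_cls, CosMod.cls_eq_zero_iff]
    have key := trS_sub_mem (W := VV n) (X := XX n) (B := SS.F R SS.pt) h2
      (Hom.app_mem_Z (labHom R n) z.2)
    have hz : ∑ x : {x : XX n // stab (W := VV n) x = ⊤},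
        (evS (SS.F R SS.pt) x.1 (fixed_iff.1 x.2)).app q ((labHom R n).app q z.1) = 0 := by
      refine Finset.sum_eq_zero fun x _ => ?_
      refine hG.ext fun s => ?_
      funext u
      exact if_neg (not_NC_of_fixed (fixed_iff.1 x.2))
    rw [hz, sub_zero] at key
    exact key

end

end Vale.Agent.P263.TOP.H
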