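import Vale.Agent.P263.TOP.H.IntrAbs
import Vale.Agent.P263.TOP.H.ColorV
import Vale.Agent.P263.E.KunFin

/-!
# P263, section [H]: the submodules of transfers from intransitive subgroups (helper67)

`upZ_corr` : `u^j P` commutes with the transfer of a correspondence; `upW_mem_Itr`, `span_Itr` and
`Intr.ofModel` : the structure `Intr T` for every tower `T` which is identified with the cohomology
of the spaces `BW pt n`.
-/

namespace Vale.Agent.P263.H

open Vale.Agent.P263.S Vale.Agent.P263.E Vale.Agent.P263.E.SS Vale.Agent.P263.TI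
open Vale.Agent.P263.TOP.H

noncomputable section

theorem toHG_upZ (Z : SS) (j q d : ℕ) (e : j + 2 * q = d) (x : (SS.F (ZMod 2) Z).H q) :
    (toHG Z).mapH d (upZ Z j q d e x) =
      uP (muF (ZMod 2) Z Z) (swapF (ZMod 2) Z) (muF_sym (ZMod 2) Z) j q d e x :=
  mapH_toHG_ofHG (ZMod 2) Z d _

/-- Transfers of correspondences commute with `u^j P`. -/
theorem upZ_corr {W Z : SS} (c : Corr W Z) (j q d : ℕ) (e : j + 2 * q = d)
    (x : (SS.F (ZMod 2) W).H q) :
    c.D2.sum.mapH d (upZ W j q d e x) = upZ Z j q d e (c.sum.mapH q x) := by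
  have hgc : ∀ p (s : C2) (x : (SS.F (ZMod 2) (W.prod W)).obj p),
      (c.prod c).sum.app p ((swapF (ZMod 2) W).act p s x) =
        (swapF (ZMod 2) Z).act p s ((c.prod c).sum.app p x) := fun p s x =>
    c.prod_sum_swap x s
  have h1 := uP_nat (muF (ZMod 2) W W) (swapF (ZMod 2) W) (muF_sym (ZMod 2) W) (muF (ZMod 2) Z Z)
    (swapF (ZMod 2) Z) (muF_sym (ZMod 2) Z) c.sum (c.prod c).sum hgc
    (fun p a b => c.prod_sum_mu c a b) j q d e x
  have h2 := c.toHG_comp_D2_sum (R := ZMod 2)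
  have h3 : (toHG Z).mapH d (c.D2.sum.mapH d (upZ W j q d e x)) =
      (hG.mapHom (swapF (ZMod 2) W) (swapF (ZMod 2) Z) (c.prod c).sum hgc).mapH d
        ((toHG W).mapH d (upZ W j q d e x)) := by
    rw [← Hom.mapH_comp, ← Hom.mapH_comp, h2]
  rw [toHG_upZ, ← h1] at h3
  have h4 := congrArg ((ofHG Z).mapH d) h3
  rwa [mapH_ofHG_toHG] at h4

/-- `u^j P(x)` in the cohomology of `BW pt (n + 1)` -/
def upW (n j q d : ℕ) (e : j + 2 * q = d) (x : (SS.F (ZMod 2) (BW pt n)).H q) :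
    (SS.F (ZMod 2) (BW pt (n + 1))).H d := upZ (BW pt n) j q d e x

/-- **The field `up_mem`.** -/
theorem upW_mem_Itr (n j q d : ℕ) (e : j + 2 * q = d) {x : (SS.F (ZMod 2) (BW pt n)).H q}
    (hx : x ∈ Itr (ZMod 2) n q) : upW n j q d e x ∈ Itr (ZMod 2) (n + 1) d := by
  obtain ⟨y, rfl⟩ := hx
  rw [upW, ← upZ_corr]
  exact D2_nonmono_mem n d _

/-- The transfer of the covering `Z × Z → D2 Z`. -/
theorem trZ_eq (R : Type) [CommRing R] (Z : SS) : trZ R Z = trSheet R Z := by
  apply Hom.ext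
  intro p f
  funext x
  obtain ⟨s, z, z', rfl⟩ := D2.rep x
  rw [trZ_mk, trSheet_mk]

/-- **The field `span`.** -/
theorem span_Itr (n d : ℕ)
    (w : (SS.F (ZMod 2) (BW pt (n + 1))).H d) : ∃ x : ∀ q : ℕ, (SS.F (ZMod 2) (BW pt n)).H q,
    w - ∑ i : Fin (d / 2 + 1), upW n (d - 2 * i) i d (by have := i.2; omega) (x i) ∈
      Itr (ZMod 2) (n + 1) d := by
  obtain ⟨y, x, h1⟩ := spanD2 (BW pt n) d w
  refine ⟨x, ?_⟩
  rw [trZ_eq] at h1
  have h2 : w - ∑ i : Fin (d / 2 + 1),
      upW n (d - 2 * i) i d (by have := i.2; omega) (x i) =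
      (trSheet (ZMod 2) (BW pt n)).mapH d y := h1
  rw [h2]
  exact trSheet_mem n d y

/-- **The structure `Intr`** for a tower identified with the cohomology of the spaces `BW pt n`. -/
def Intr.ofModel (T : Tower) (e : ∀ n q : ℕ, T.H n q ≃ₗ[ZMod 2] (SS.F (ZMod 2) (BW pt n)).H q)
    (hup : ∀ (n j q q' : ℕ) (h : j + 2 * q = q') (y : T.H n q),
      e (n + 1) q' (T.up n j q q' h y) = upW n j q q' h (e n q y))
    (hr : ∀ (n q : ℕ) (y : T.H n q), ((BV.dn n).pull (R := ZMod 2)).mapH q (e n q y) = 0 →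
      T.r n q y = 0) : Intr T where
  I n q := (Itr (ZMod 2) n q).comap (e n q).toLinearMap
  up_mem n j q q' h y hy := by
    show e (n + 1) q' (T.up n j q q' h y) ∈ Itr (ZMod 2) (n + 1) q'
    rw [hup]
    exact upW_mem_Itr n j q q' h hy
  span n d w := by
    obtain ⟨x, hx⟩ := span_Itr n d (e (n + 1) d w)
    refine ⟨fun q => (e n q).symm (x q), ?_⟩
    show e (n + 1) d _ ∈ Itr (ZMod 2) (n + 1) d
    rw [map_sub, map_sum]
    have h1 : ∀ i : Fin (d / 2 + 1), e (n + 1) d (T.up n (d - 2 * i) i d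
        (by have := i.2; omega) ((e n i).symm (x i))) =
        upW n (d - 2 * i) i d (by have := i.2; omega) (x i) := fun i => by
      rw [hup, LinearEquiv.apply_symm_apply]
    rw [Finset.sum_congr rfl fun i _ => h1 i]
    exact hx
  r_I n q y hy := by
    apply hr
    obtain ⟨z, hz⟩ := hy
    have hz' : (nonmono n).sum.mapH q z = e n q y := hz
    rw [← hz']
    exact dn_nonmono (ZMod 2) rfl n q z

end

end Vale.Agent.P263.H
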