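import Vale.Agent.P263.TOP.H.Res

/-!
# P263, block H5 (helper774): the cell map `lam e : BV m → Gam (2^m)` does not depend, up to homotopy,
on the injective labelling `e`; the pull-backs along it are invariant under the linear group.
-/

namespace Vale.Agent.P263.TOP.H

open Finset Vale.Agent.P263.S Vale.Agent.P263.E

noncomputable section

variable {m : ℕ}

/-- the label vectors, with a labelling for every vertex -/
def lamg {p : ℕ} (E : Fin (p + 1) → VV m → ℕ) (s : Fin (p + 1) → VV m) (v : VV m) : Lab p :=
  fun i => E i (v + s i)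

section
variable {p : ℕ} {E : Fin (p + 1) → VV m → ℕ} (hE : ∀ i, Function.Injective (E i))

include hE in
theorem lamg_injective (s : Fin (p + 1) → VV m) : Function.Injective (lamg E s) := by
  intro v w h
  exact add_right_cancel (hE 0 (congrFun h 0))

include hE in
theorem good_lamg (s : Fin (p + 1) → VV m) :
    Good ((univ : Finset (VV m)).image (lamg E s)) := by
  intro i a ha b hb hab
  rw [mem_coe, mem_image] at ha hb
  obtain ⟨v, _, rfl⟩ := ha
  obtain ⟨w, _, rfl⟩ := hb
  have h1 : E i (v + s i) = E i (w + s i) := hab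
  rw [add_right_cancel (hE i h1)]

theorem lamg_add (v : VV m) (s : Fin (p + 1) → VV m) (x : VV m) :
    lamg E (fun i => v + s i) x = lamg E s (v + x) := by
  funext i
  show E i (x + (v + s i)) = E i (v + x + s i)
  congr 1
  abel

theorem image_lamg_add (v : VV m) (s : Fin (p + 1) → VV m) :
    (univ : Finset (VV m)).image (lamg E (fun i => v + s i)) =
      (univ : Finset (VV m)).image (lamg E s) := by
  ext a
  rw [mem_image, mem_image]
  constructor
  · rintro ⟨x, _, rfl⟩
    exact ⟨v + x, mem_univ _, (lamg_add v s x).symm⟩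
  · rintro ⟨x, _, rfl⟩
    refine ⟨v + x, mem_univ _, ?_⟩
    rw [lamg_add, ← add_assoc, VV_add_self, zero_add]

end

theorem res_lamg {p q : ℕ} (a : Op p q) (E : Fin (q + 1) → VV m → ℕ) (s : Fin (q + 1) → VV m) :
    (univ : Finset (VV m)).image (lamg (fun i => E (a i)) (fun i => s (a i))) =
      res a ((univ : Finset (VV m)).image (lamg E s)) := by
  unfold res
  rw [image_image]
  rfl

/-- the homotopy between the cell maps of two labellings -/
def lamHtp {e0 e1 : VV m → ℕ} (h0 : Function.Injective e0) (h1 : Function.Injective e1) :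
    SS.Htp (SS.BV m) (Gam (2 ^ m)) :=
  BVhtp (X := Gam (2 ^ m))
    (fun χ s => ⟨(univ : Finset (VV m)).image (lamg (fun i => if χ i = 0 then e0 else e1) s),
      good_lamg (fun i => by show Function.Injective (if χ i = 0 then e0 else e1)
                             split_ifs
                             exacts [h0, h1]) s, by
      rw [card_image_of_injective _ (lamg_injective
        (fun i => by show Function.Injective (if χ i = 0 then e0 else e1)
                     split_ifs
                     exacts [h0, h1]) s), card_univ, card_VV]⟩)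
    (fun χ v s => Subtype.ext (image_lamg_add v s))
    (fun a χ s => Subtype.ext (res_lamg a (fun i => if χ i = 0 then e0 else e1) s))

theorem lamHtp_mk {e0 e1 : VV m → ℕ} (h0 : Function.Injective e0) (h1 : Function.Injective e1)
    {p : ℕ} (χ : Op p 1) (s : Fin (p + 1) → VV m) :
    ((lamHtp h0 h1).h p χ (BVmk m s)).1 =
      (univ : Finset (VV m)).image (lamg (fun i => if χ i = 0 then e0 else e1) s) :=
  BVrep_mk (fun s => (univ : Finset (VV m)).image (lamg (fun i => if χ i = 0 then e0 else e1) s))
    (fun v s => image_lamg_add v s) s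

theorem lamHtp_e0 {e0 e1 : VV m → ℕ} (h0 : Function.Injective e0) (h1 : Function.Injective e1) :
    (lamHtp h0 h1).e0 = lam h0 := by
  apply BVhom_ext
  intro p s
  apply Subtype.ext
  rw [lam_mk]
  show ((lamHtp h0 h1).h p (c0 p) (BVmk m s)).1 = _
  rw [lamHtp_mk]
  refine congrArg (fun f => (univ : Finset (VV m)).image f) (funext fun v => funext fun i => ?_)
  show (if c0 p i = 0 then e0 else e1) (v + s i) = e0 (v + s i)
  rw [if_pos (c0_val p i)]

theorem lamHtp_e1 {e0 e1 : VV m → ℕ} (h0 : Function.Injective e0) (h1 : Function.Injective e1) :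
    (lamHtp h0 h1).e1 = lam h1 := by
  apply BVhom_ext
  intro p s
  apply Subtype.ext
  rw [lam_mk]
  show ((lamHtp h0 h1).h p (c1 p) (BVmk m s)).1 = _
  rw [lamHtp_mk]
  refine congrArg (fun f => (univ : Finset (VV m)).image f) (funext fun v => funext fun i => ?_)
  show (if c1 p i = 0 then e0 else e1) (v + s i) = e1 (v + s i)
  rw [if_neg (by rw [c1_val]; exact one_ne_zero)]

/-- the pull-back along the cell map does not depend on the labelling -/
theorem lam_mapH_eq {R : Type} [CommRing R] {e0 e1 : VV m → ℕ} (h0 : Function.Injective e0)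
    (h1 : Function.Injective e1) (p : ℕ) (w : (SS.F R (Gam (2 ^ m))).H p) :
    ((lam h1).pull (R := R)).mapH p w = ((lam h0).pull (R := R)).mapH p w := by
  rw [← lamHtp_e0 h0 h1, ← lamHtp_e1 h0 h1]
  exact (lamHtp h0 h1).mapH_eq p w

/-- a linear automorphism changes the labelling -/
theorem lam_BVlin {e : VV m → ℕ} (he : Function.Injective e) (B : VV m →+ VV m)
    (hB : Function.Bijective B) :
    (lam he).comp (BVlin B) = lam (he.comp hB.injective) := by
  apply BVhom_ext
  intro p s
  apply Subtype.ext
  rw [SS.Map.comp_app, BVlin_mk, lam_mk, lam_mk]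
  ext a
  rw [mem_image, mem_image]
  constructor
  · rintro ⟨x, _, rfl⟩
    obtain ⟨y, rfl⟩ := hB.surjective x
    refine ⟨y, mem_univ _, ?_⟩
    funext i
    show e (B (y + s i)) = e (B y + B (s i))
    rw [map_add]
  · rintro ⟨y, _, rfl⟩
    refine ⟨B y, mem_univ _, ?_⟩
    funext i
    show e (B y + B (s i)) = e (B (y + s i))
    rw [map_add]

/-- **the pull-backs along the cell map are invariant under the linear automorphisms** -/
theorem BVlin_lam_mapH {R : Type} [CommRing R] {e : VV m → ℕ} (he : Function.Injective e)
    (B : VV m →+ VV m) (hB : Function.Bijective B) (p : ℕ) (w : (SS.F R (Gam (2 ^ m))).H p) :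
    ((BVlin B).pull (R := R)).mapH p (((lam he).pull (R := R)).mapH p w) =
      ((lam he).pull (R := R)).mapH p w := by
  rw [← Hom.mapH_comp, ← SS.Map.pull_comp]
  have h := lam_BVlin he B hB
  have h2 : (((lam he).comp (BVlin B)).pull (R := R)).mapH p w =
      ((lam (he.comp hB.injective)).pull (R := R)).mapH p w :=
    congrArg (fun f : SS.Map (SS.BV m) (Gam (2 ^ m)) => (f.pull (R := R)).mapH p w) h
  exact h2.trans (lam_mapH_eq he (he.comp hB.injective) p w)

end

end Vale.Agent.P263.TOP.H
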