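import Vale.Agent.P263.TOP.H.Res
import Vale.Agent.P263.TW.PolGL
import Vale.Agent.P263.TI.OddFam

/-!
# P263, section [H-FLAG] (helper354): sums over the invariant trees in the polynomial ring
-/

noncomputable section

namespace Vale.Agent.P263.TOP.H

open Finset Vale.Agent.P263.S Vale.Agent.P263.E Vale.Agent.P263.TW Vale.Agent.P263.TI
open Vale.Agent.P263.EX.GE Vale.Agent.P263.LZ

theorem mat_comp {l m n : ℕ} (A : VV m →+ VV n) (B : VV l →+ VV m) :
    mat (A.comp B) = mat A * mat B := by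
  ext j k
  rw [Matrix.mul_apply]
  exact apply_eq_sum A (B (Pi.single k 1)) j

theorem mat_id (n : ℕ) : mat (AddMonoidHom.id (VV n)) = 1 := by
  ext j k
  show (Pi.single k (1 : ZMod 2) : VV n) j = _
  rw [Matrix.one_apply]
  by_cases h : j = k
  · subst h
    rw [Pi.single_eq_same, if_pos rfl]
  · rw [Pi.single_eq_of_ne h, if_neg h]

/-- the inverse matrix -/
theorem mat_chi_mul {m : ℕ} (t : InvTree m) :
    mat t.chi * mat (lcHom VV_add_self t.flag) = 1 := by
  rw [← mat_comp, ← mat_id]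
  exact congrArg mat (AddMonoidHom.ext fun x => coords_lc VV_add_self t.flag t.bij x)

instance (m : ℕ) : Fintype (InvTree m) := by
  classical
  exact Subtype.fintype _

/-- the first coordinate is the top form -/
theorem chi_zero {n : ℕ} (t : InvTree (n + 1)) (x : VV (n + 1)) : t.chi x 0 = nu t.1.1 x := by
  have h := t.isStd.nu_lc VV_add_self (t.chi x)
  rw [← h]
  congr 1
  exact lc_coords VV_add_self t.flag t.bij x

/-- a linear form as an additive map -/
def dpHom {m : ℕ} (v : VV m) : VV m →+ ZMod 2 where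
  toFun := dp v
  map_zero' := by unfold dp; simp
  map_add' := dp_add v

theorem row_eq_iff {n : ℕ} (t : InvTree (n + 1)) (v : VV (n + 1)) :
    mat t.chi 0 = v ↔ ∀ x, nu t.1.1 x = dp v x := by
  constructor
  · intro h x
    rw [← chi_zero, apply_eq_sum, h]
    rfl
  · intro h
    funext k
    show t.chi (Pi.single k 1) 0 = v k
    rw [chi_zero, h, dp_single]

/-- every nonzero vector is the first row of an odd number of the matrices -/
theorem odd_row (n : ℕ) (v : VV (n + 1)) (hv : v ≠ 0) :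
    Odd ((univ : Finset (InvTree (n + 1))).filter (fun t => mat t.chi 0 = v)).card := by
  classical
  have hne : dpHom v ≠ 0 := by
    intro h
    apply hv
    funext k
    have := DFunLike.congr_fun h (Pi.single k 1)
    rw [← dp_single v k]
    exact this
  obtain ⟨hfin, hodd⟩ := odd_fixNu VV_add_self n (card_VV (n + 1)) (dpHom v) hne
  have e : {t : InvTree (n + 1) // mat t.chi 0 = v} ≃ FixNu n (dpHom v) := by
    refine Equiv.ofBijective (fun t => ⟨t.1.1.1, t.1.fixed, (row_eq_iff t.1 v).1 t.2⟩) ⟨?_, ?_⟩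
    · intro s t h
      have h1 : s.1.1.1 = t.1.1.1 := congrArg (fun z : FixNu n (dpHom v) => z.1) h
      exact Subtype.ext (Subtype.ext (Subtype.ext h1))
    · rintro ⟨t, ht, hnu⟩
      have hfull : leaves (n + 1) t = (univ : Finset (VV (n + 1))) := leaves_eq_univ_of_fixed ht
      let T : Full (n + 1) (univ : Finset (VV (n + 1))) := ⟨t, hfull⟩
      have hst : stab (W := VV (n + 1)) T = ⊤ :=
        fixed_iff.2 fun g => Subtype.ext (ht (Multiplicative.toAdd g))
      let T' : InvTree (n + 1) := ⟨T, hst⟩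
      exact ⟨⟨T', (row_eq_iff T' v).2 hnu⟩, rfl⟩
  rw [← Fintype.card_subtype, ← Nat.card_eq_fintype_card, Nat.card_congr e]
  exact hodd

/-- **The sum over the invariant trees of the transforms of `St (io Y)`.** -/
theorem sum_invTree (n : ℕ) (Y : D n) :
    ∑ t : InvTree (n + 1), sub (mat t.chi) (Sta n (io n Y)) =
      ∑ v ∈ univ.erase (0 : Fin (n + 1) → ZMod 2), Stv n v Y :=
  sum_odd_family (fun t : InvTree (n + 1) => mat t.chi)
    (fun t => mat (lcHom VV_add_self t.flag)) mat_chi_mul (fun v hv => odd_row n v hv) Y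

/-- The polynomial of the pull-back to `BV m` of the sum over the full trees. -/
theorem pol_lam_full (P : PolD) {m : ℕ} {e : VV m → ℕ} (he : Function.Injective e)
    (L : Hom (SS.F (ZMod 2) (SS.BW SS.pt m)) (SS.F (ZMod 2) (Gam (2 ^ m))))
    (hL : ∀ (p : ℕ) (w : (SS.F (ZMod 2) (SS.BW SS.pt m)).obj p) (F : (Gam (2 ^ m)).obj p),
      L.app p w F = ∑ t ∈ fullTrees m F.1, w (cl m t)) (p : ℕ)
    (w : (SS.F (ZMod 2) (SS.BW SS.pt m)).H p) :
    P.pol m p (((lam he).pull (R := ZMod 2)).mapH p (L.mapH p w)) =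
      ∑ t : InvTree m, sub (mat t.chi)
        (P.pol m p (((SS.BV.dn m).pull (R := ZMod 2)).mapH p w)) := by
  rw [lam_mapH_full he L hL p w, map_sum]
  exact Finset.sum_congr rfl fun t _ => P.pol_lin t.chi p _

/-- **r_up**: if the restriction of `w` is `St (io Y)`, the restriction of the transfer of `w` is
the sum of the `St_v Y`. -/
theorem pol_lam_up (P : PolD) {n : ℕ} {e : VV (n + 1) → ℕ} (he : Function.Injective e)
    (L : Hom (SS.F (ZMod 2) (SS.BW SS.pt (n + 1))) (SS.F (ZMod 2) (Gam (2 ^ (n + 1)))))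
    (hL : ∀ (p : ℕ) (w : (SS.F (ZMod 2) (SS.BW SS.pt (n + 1))).obj p)
      (F : (Gam (2 ^ (n + 1))).obj p),
      L.app p w F = ∑ t ∈ fullTrees (n + 1) F.1, w (cl (n + 1) t)) (p : ℕ)
    (w : (SS.F (ZMod 2) (SS.BW SS.pt (n + 1))).H p) (Y : D n)
    (hw : P.pol (n + 1) p (((SS.BV.dn (n + 1)).pull (R := ZMod 2)).mapH p w) =
      Sta n (io n Y)) :
    P.pol (n + 1) p (((lam he).pull (R := ZMod 2)).mapH p (L.mapH p w)) =
      ∑ v ∈ univ.erase (0 : Fin (n + 1) → ZMod 2), Stv n v Y := by
  rw [pol_lam_full P he L hL p w, hw, sum_invTree]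

end Vale.Agent.P263.TOP.H
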