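import Vale.Agent.P263.TOP.H.TopAbs
import Vale.Agent.P263.TOP.H.PhiSq
import Vale.Agent.P263.TOP.H.RUp
import Vale.Agent.P263.TOP.H.LamGL
import Vale.Agent.P263.TOP.H.ColorTr
import Vale.Agent.P263.TOP.H.IntrTop

/-!
# P263, block H5 (helper774): assembly of the structure `SymData`

`MData M P` : the tower model `M` is the cohomology of the spaces `BW_n` with the operations `upW`,
`sqc` and the restriction `P.pol ∘ dn^*`.
`LRes m` : the transfer `L` over the full trees and a section `res` of it on cohomology, whose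
restriction to `BV m` is the pull-back along the cell map.
`symData` : the functional `hT G.phi M (n + 1)` satisfies `SymData`, if the components of weight
`< 2^(n+1)` of `G.phi` vanish.
-/

namespace Vale.Agent.P263.TOP.H

open Finset Vale.Agent.P263.S Vale.Agent.P263.E Vale.Agent.P263.LZ Vale.Agent.P263.EX
open Vale.Agent.P263.EX.GE Vale.Agent.P263.TI Vale.Agent.P263.TW Vale.Agent.P263.H

noncomputable section

/-! ### invariance under the linear group -/

/-- the linear map of a matrix -/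
def mv {m : ℕ} (A : Matrix (Fin m) (Fin m) (ZMod 2)) : VV m →+ VV m :=
  (Matrix.toLin' A).toAddMonoidHom

theorem mv_mul {m : ℕ} (A B : Matrix (Fin m) (Fin m) (ZMod 2)) (x : VV m) :
    mv (A * B) x = mv A (mv B x) := by
  show Matrix.toLin' (A * B) x = Matrix.toLin' A (Matrix.toLin' B x)
  rw [Matrix.toLin'_mul]
  rfl

theorem mv_one {m : ℕ} (x : VV m) : mv (1 : Matrix (Fin m) (Fin m) (ZMod 2)) x = x := by
  show Matrix.toLin' (1 : Matrix (Fin m) (Fin m) (ZMod 2)) x = x
  rw [Matrix.toLin'_one]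
  rfl

theorem mv_bijective {m : ℕ} {A B : Matrix (Fin m) (Fin m) (ZMod 2)} (h : A * B = 1) :
    Function.Bijective (mv A) := by
  have h' : B * A = 1 := mul_eq_one_comm.1 h
  refine Function.bijective_iff_has_inverse.2 ⟨mv B, fun x => ?_, fun x => ?_⟩
  · rw [← mv_mul, h', mv_one]
  · rw [← mv_mul, h, mv_one]

theorem mat_mv {m : ℕ} (A : Matrix (Fin m) (Fin m) (ZMod 2)) : mat (mv A) = A := by
  ext j k
  show Matrix.toLin' A (Pi.single k 1) j = A j k
  rw [Matrix.toLin'_apply, Matrix.mulVec_single_one]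
  rfl

/-- **The polynomial of a class of `BV m` which comes from `Gam (2^m)` is a Dickson polynomial.** -/
theorem exists_dickson (P : PolD) {m : ℕ} {e : VV m → ℕ} (he : Function.Injective e) (q : ℕ)
    (x : Co (Gam (2 ^ m)) q) :
    ∃ X : D m, P.pol m q (((lam he).pull (R := ZMod 2)).mapH q x) = io m X := by
  obtain ⟨X, hX⟩ := (dickson m (P.pol m q (((lam he).pull (R := ZMod 2)).mapH q x))).1 (by
    intro A B hAB
    have h1 := P.pol_lin (mv A) q (((lam he).pull (R := ZMod 2)).mapH q x)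
    rw [BVlin_lam_mapH he (mv A) (mv_bijective hAB), mat_mv] at h1
    exact h1.symm)
  exact ⟨X, hX.symm⟩

/-! ### the data -/

/-- the tower model is the standard one -/
structure MData (M : TowerModel) (P : PolD) : Prop where
  up : ∀ (n j q q' : ℕ) (h : j + 2 * q = q') (y : M.T.H n q),
    M.e (n + 1) q' (M.T.up n j q q' h y) = upW n j q q' h (M.e n q y)
  sq : ∀ (n a q q' : ℕ) (h : q + a = q') (y : M.T.H n q),
    M.e n q' (M.T.sq n a q q' h y) = sqc (SS.BW SS.pt n) q q' (M.e n q y)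
  r : ∀ (n q : ℕ) (y : M.T.H n q),
    M.T.r n q y = P.pol n q (((SS.BV.dn n).pull (R := ZMod 2)).mapH q (M.e n q y))

/-- the structure `Intr` -/
def MData.intr {M : TowerModel} {P : PolD} (hM : MData M P) : Intr M.T :=
  Intr.ofModel M.T M.e hM.up (fun n q y h => by rw [hM.r, h, map_zero])

theorem MData.mem_Itr {M : TowerModel} {P : PolD} (hM : MData M P) (n q : ℕ) (w : M.T.H n q)
    (h : M.T.r n q w = 0) : M.e n q w ∈ Itr (ZMod 2) n q :=
  hM.intr.mem_of_r_eq_zero n q w h

/-- the transfer over the full trees and a section of it on cohomology -/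
structure LRes (m : ℕ) where
  L : Hom (SS.F (ZMod 2) (SS.BW SS.pt m)) (SS.F (ZMod 2) (Gam (2 ^ m)))
  hL : ∀ (p : ℕ) (w : (SS.F (ZMod 2) (SS.BW SS.pt m)).obj p) (C : (Gam (2 ^ m)).obj p),
    L.app p w C = ∑ t ∈ fullT m C.1, w (cl m t)
  res : ∀ d, Co (Gam (2 ^ m)) d →ₗ[ZMod 2] Co (SS.BW SS.pt m) d
  L_res : ∀ (d : ℕ) (x : Co (Gam (2 ^ m)) d), L.mapH d (res d x) = x
  e : VV m → ℕ
  he : Function.Injective e
  dn_res : ∀ (d : ℕ) (x : Co (Gam (2 ^ m)) d),
    ((SS.BV.dn m).pull (R := ZMod 2)).mapH d (res d x) = ((lam he).pull (R := ZMod 2)).mapH d x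

/-- **The structure `SymData`.** -/
def symData {M : TowerModel} {P : PolD} (hM : MData M P) {n : ℕ} (K : LRes (n + 1)) {d N : ℕ}
    (G : Geo d N) (hP : H.Prim N d G.phi)
    (h0 : ∀ m, 1 ≤ m → m < 2 ^ (n + 1) → xi G.phi m = 0)
    (hW : hfun G.phi (n + 1) = (xi G.phi (2 ^ (n + 1))).comp (K.L.mapH d)) :
    SymData M.T n d (hT G.phi M (n + 1)) where
  phi_r w hw := by
    rw [hT_apply, hW]
    exact xi_full_Itr hP h0 K.L K.hL (hM.mem_Itr (n + 1) d w hw)
  t w := (M.e (n + 1) d).symm (K.res d (K.L.mapH d (M.e (n + 1) d w)))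
  phi_t w := by
    rw [hT_apply, hT_apply, LinearEquiv.apply_symm_apply, hW]
    show xi G.phi (2 ^ (n + 1)) (K.L.mapH d (K.res d _)) = _
    rw [K.L_res]
    rfl
  r_t w := by
    obtain ⟨X, hX⟩ := exists_dickson P K.he d (K.L.mapH d (M.e (n + 1) d w))
    refine ⟨X, ?_⟩
    rw [hM.r, LinearEquiv.apply_symm_apply, K.dn_res]
    exact hX
  r_up c h y Y hY := by
    rw [hM.r, LinearEquiv.apply_symm_apply, K.dn_res]
    refine pol_lam_up P K.he K.L K.hL d _ Y ?_
    rw [← hM.r, M.T.r_up, hY, pow_zero, one_mul]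
  phi_sq a q h y ha := by
    rw [hT_apply, hM.sq]
    exact hfun_sqc G (n + 1) (by omega) _

end

end Vale.Agent.P263.TOP.H
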