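import Vale.Agent.P263.TOP.H.TCov
import Vale.Agent.P263.E.CMap

/-!
# P263, blocks [E] and [H]: the tree coverings over `Gam N`

`TCov n N : Cov (Gam N)` : the covering of the proper trees of depth `n`, total space `TT n N`.
`codeLab n N : (TCov n N).PLab` : the labelling by the codes.
`bridge n N : CMap ((TCov n N).ksub 2) (TCov (n+1) N) id` : an unordered pair of trees is a tree.
`cls_bridge` : the classifying maps agree strictly: `cls (n+1) ∘ bridge = cl2 codeLab (cls n)`.
-/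

noncomputable section

namespace Vale.Agent.P263.TOP.H

open Finset Vale.Agent.P263.S Vale.Agent.P263.E

/-- the classifying map of the tree covering -/
def tcls (n N : ℕ) : SS.Map (TCov n N).tot (SS.BW SS.pt n) := TT.cls n N

/-- 795's `ctree` -/
theorem ctree_eq (R : Type) [CommRing R] (n N : ℕ) :
    ctree R n N = ((TCov n N).tr (R := R)).comp (tcls n N).pull := rfl

theorem mapH_ctree (R : Type) [CommRing R] (n N p : ℕ) (c : (SS.F R (SS.BW SS.pt n)).H p) :
    (ctree R n N).mapH p c = ((TCov n N).tr (R := R)).mapH p (((tcls n N).pull).mapH p c) :=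
  Hom.mapH_comp _ _ _ _

@[simp] theorem tcls_app (n N : ℕ) {p : ℕ} (z : (TCov n N).tot.obj p) :
    (tcls n N).app z = cl n z.1.2 := rfl

section pairs

variable {n N : ℕ}

theorem nc_good {p : ℕ} (x : ((TCov n N).nc C2).tot.obj p) :
    ((TCov n N).p1 x).1.1 = ((TCov n N).p2 x).1.1 := by
  have h1 : (⟨((TCov n N).p1 x).1.1, ((TCov n N).p1 x).2.1⟩ : (Gam N).obj p) = x.1.base :=
    (TCov n N).pr_p1 x
  have h2 : (⟨((TCov n N).p2 x).1.1, ((TCov n N).p2 x).2.1⟩ : (Gam N).obj p) = x.1.base :=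
    (TCov n N).pr_p2 x
  exact congrArg Subtype.val (h1.trans h2.symm)

theorem nc_mem {p : ℕ} (x : ((TCov n N).nc C2).tot.obj p) :
    ((TCov n N).p2 x).1.2 ∈ trees n ((TCov n N).p1 x).1.1 := by
  rw [nc_good]
  exact ((TCov n N).p2 x).2.2

theorem nc_ne {p : ℕ} (x : ((TCov n N).nc C2).tot.obj p) :
    ((TCov n N).p1 x).1.2 ≠ ((TCov n N).p2 x).1.2 := fun h =>
  (TCov n N).p1_ne_p2 x (Subtype.ext (Prod.ext (nc_good x) h))

theorem nc_ev_ne {p : ℕ} (x : ((TCov n N).nc C2).tot.obj p) (i : Fin (p + 1)) :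
    ev n i ((TCov n N).p1 x).1.2 ≠ ev n i ((TCov n N).p2 x).1.2 :=
  ((TCov n N).p1 x).2.1.1.ev_ne ((TCov n N).p1 x).2.2 (nc_mem x) (nc_ne x) i

/-- the tree of an ordered pair of different trees -/
def pairMap (n N : ℕ) : SS.Map ((TCov n N).nc C2).tot (TT (n + 1) N) where
  app x := ⟨(((TCov n N).p1 x).1.1, (s(((TCov n N).p1 x).1.2, ((TCov n N).p2 x).1.2) : Sym2 _)),
    ((TCov n N).p1 x).2.1, mem_trees_succ.2 ⟨((TCov n N).p1 x).2.2, nc_mem x, nc_ne x⟩⟩
  nat _ _ := rfl

theorem pairMap_pr {p : ℕ} (x : ((TCov n N).nc C2).tot.obj p) :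
    (TT.pr (n + 1) N).app ((pairMap n N).app x) = x.1.base := (TCov n N).pr_p1 x

theorem pairMap_swap {p : ℕ} (x : ((TCov n N).nc C2).tot.obj p) :
    (pairMap n N).app ((TCov n N).swap.app x) = (pairMap n N).app x := by
  refine Subtype.ext (Prod.ext (nc_good x).symm ?_)
  exact Sym2.eq_swap

theorem pairMap_eq_iff {p : ℕ} {x x' : ((TCov n N).nc C2).tot.obj p} :
    (pairMap n N).app x = (pairMap n N).app x' ↔ x = x' ∨ x = (TCov n N).swap.app x' := by
  constructor
  · intro h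
    have hF : ((TCov n N).p1 x).1.1 = ((TCov n N).p1 x').1.1 :=
      congrArg (fun z : (TT (n + 1) N).obj p => z.1.1) h
    have ht : (s(((TCov n N).p1 x).1.2, ((TCov n N).p2 x).1.2) : Sym2 (TW (Lab p) n)) =
        s(((TCov n N).p1 x').1.2, ((TCov n N).p2 x').1.2) :=
      congrArg (fun z : (TT (n + 1) N).obj p => z.1.2) h
    rcases Sym2.eq_iff.1 ht with ⟨h1, h2⟩ | ⟨h1, h2⟩
    · left
      refine (TCov n N).pair_ext (Subtype.ext (Prod.ext hF h1)) (Subtype.ext (Prod.ext ?_ h2))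
      rw [← nc_good, ← nc_good, hF]
    · right
      refine (TCov n N).pair_ext (Subtype.ext (Prod.ext ?_ h1)) (Subtype.ext (Prod.ext ?_ h2))
      · rw [hF]
        exact nc_good x'
      · rw [← nc_good, hF]
        rfl
  · rintro (rfl | rfl)
    · rfl
    · exact pairMap_swap _

theorem pairMap_surj {p : ℕ} (z : (TT (n + 1) N).obj p) : ∃ x, (pairMap n N).app x = z := by
  obtain ⟨⟨F, t⟩, hF, ht⟩ := z
  induction t using Sym2.ind with
  | _ s t =>
    have ht' := mem_trees_succ.1 ht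
    let y : (TCov n N).tot.obj p := ⟨(F, s), hF, ht'.1⟩
    let y' : (TCov n N).tot.obj p := ⟨(F, t), hF, ht'.2.1⟩
    have hne : y ≠ y' := fun h => ht'.2.2 (congrArg (fun z : (TT n N).obj p => z.1.2) h)
    exact ⟨(TCov n N).mkPair y y' rfl hne, rfl⟩

/-- unordered pairs of trees are trees -/
def bridge (n N : ℕ) : CMap ((TCov n N).ksub 2) (TCov (n + 1) N) (SS.Map.id (Gam N)) where
  g := ⟨fun w => (pairMap n N).app ((TCov n N).toSub_surj w).choose, fun θ w => by
    refine Eq.trans ?_ ((pairMap n N).nat θ ((TCov n N).toSub_surj w).choose)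
    refine pairMap_eq_iff.2 ?_
    rw [← (TCov n N).toSub_eq_iff,
      ((TCov n N).toSub_surj _).choose_spec, (TCov n N).toSub.nat,
      ((TCov n N).toSub_surj _).choose_spec]⟩
  pr_g {p} w := by
    refine (pairMap_pr _).trans ?_
    exact congrArg Cov.Sbs.base ((TCov n N).toSub_surj w).choose_spec
  inj {p w w'} _ h' := by
    rw [← ((TCov n N).toSub_surj w).choose_spec, ← ((TCov n N).toSub_surj w').choose_spec,
      (TCov n N).toSub_eq_iff, ← pairMap_eq_iff]
    exact h'
  surj {p} F z h := by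
    obtain ⟨x, rfl⟩ := pairMap_surj z
    refine ⟨(TCov n N).toSub.app x, ?_, ?_⟩
    · exact (pairMap_pr x).symm.trans h
    · change (pairMap n N).app ((TCov n N).toSub_surj ((TCov n N).toSub.app x)).choose = _
      rw [pairMap_eq_iff, ← (TCov n N).toSub_eq_iff, ((TCov n N).toSub_surj _).choose_spec]

theorem bridge_toSub {p : ℕ} (x : ((TCov n N).nc C2).tot.obj p) :
    (bridge n N).g.app ((TCov n N).toSub.app x) = (pairMap n N).app x := by
  change (pairMap n N).app ((TCov n N).toSub_surj ((TCov n N).toSub.app x)).choose = _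
  rw [pairMap_eq_iff, ← (TCov n N).toSub_eq_iff, ((TCov n N).toSub_surj _).choose_spec]

/-- the labelling of the ordered pairs of trees by the codes -/
def codeLab (n N : ℕ) : (TCov n N).PLab where
  c x := ord n ((TCov n N).p1 x).1.2 ((TCov n N).p2 x).1.2 0
  c_swap x := congrFun (ord_symm fun i => nc_ev_ne x i) 0

theorem codeLab_lab {p : ℕ} (x : ((TCov n N).nc C2).tot.obj p) :
    (codeLab n N).lab x = ord n ((TCov n N).p1 x).1.2 ((TCov n N).p2 x).1.2 := by
  funext i
  rw [Cov.PLab.lab_apply]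
  exact congrFun (ord_map (vx p i) ((TCov n N).p1 x).1.2 ((TCov n N).p2 x).1.2) 0

/-- **the classifying maps of 290's model and of block [E] agree** -/
theorem cls_bridge (n N : ℕ) :
    (tcls (n + 1) N).comp (bridge n N).g = (TCov n N).cl2 (codeLab n N) (tcls n N) := by
  apply SS.Map.ext
  intro p w
  obtain ⟨x, rfl⟩ := (TCov n N).toSub_surj w
  refine Eq.trans ?_ ((TCov n N).cl2_toSub (codeLab n N) (tcls n N) x).symm
  refine (congrArg (tcls (n + 1) N).app (bridge_toSub x)).trans ?_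
  rw [codeLab_lab]
  exact cl_mk_of_ne n (nc_ev_ne x)

end pairs

/-! ### the transfer over any base `f : B → Gam N` -/

section transfer

variable {R : Type} [CommRing R] {B : SS} {n N : ℕ} {Y : Cov B} {f : SS.Map B (Gam N)}

/-- the unordered pairs of a pull back of the tree covering -/
def bridgeOf (φ : CMap Y (TCov n N) f) : CMap (Y.ksub 2) (TCov (n + 1) N) f :=
  (bridge n N).comp (φ.ksub 2)

theorem cl2_bridgeOf (φ : CMap Y (TCov n N) f) :
    Y.cl2 (φ.pLab (codeLab n N)) ((tcls n N).comp φ.g) =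
      (tcls (n + 1) N).comp (bridgeOf φ).g := by
  rw [φ.cl2_pLab, ← cls_bridge]
  rfl

/-- **`tr_W (cl2^* c) = f^* (tr (cls (n+1))^* c)`**, the link between block [E] and block [H] -/
theorem mapH_tr_cl2 (φ : CMap Y (TCov n N) f) (p : ℕ)
    (c : (SS.F R (SS.BW SS.pt (n + 1))).H p) :
    ((Y.ksub 2).tr (R := R)).mapH p
        (((Y.cl2 (φ.pLab (codeLab n N)) ((tcls n N).comp φ.g)).pull).mapH p c) =
      (f.pull).mapH p (((TCov (n + 1) N).tr (R := R)).mapH p (((tcls (n + 1) N).pull).mapH p c)) := by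
  have h : ((Y.cl2 (φ.pLab (codeLab n N)) ((tcls n N).comp φ.g)).pull (R := R)) =
      ((bridgeOf φ).g.pull).comp ((tcls (n + 1) N).pull) := by
    rw [cl2_bridgeOf]
    rfl
  have h2 : ((Y.cl2 (φ.pLab (codeLab n N)) ((tcls n N).comp φ.g)).pull (R := R)).mapH p c =
      ((bridgeOf φ).g.pull).mapH p (((tcls (n + 1) N).pull).mapH p c) :=
    (congrArg (fun k : Hom (SS.F R (SS.BW SS.pt (n + 1))) (SS.F R (Y.ksub 2).tot) => k.mapH p c)
      h).trans (Hom.mapH_comp _ _ _ _)
  exact (congrArg (((Y.ksub 2).tr (R := R)).mapH p) h2).trans ((bridgeOf φ).mapH_tr_pull p _)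

/-- the same with `ctree` -/
theorem mapH_tr_cl2' (φ : CMap Y (TCov n N) f) (p : ℕ)
    (c : (SS.F R (SS.BW SS.pt (n + 1))).H p) :
    ((Y.ksub 2).tr (R := R)).mapH p
        (((Y.cl2 (φ.pLab (codeLab n N)) ((tcls n N).comp φ.g)).pull).mapH p c) =
      (f.pull).mapH p ((ctree R (n + 1) N).mapH p c) :=
  (mapH_tr_cl2 φ p c).trans (congrArg ((f.pull).mapH p) (mapH_ctree R (n + 1) N p c).symm)

/-- the transfer of the covering itself -/
theorem mapH_tr_cls (φ : CMap Y (TCov n N) f) (p : ℕ) (c : (SS.F R (SS.BW SS.pt n)).H p) :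
    (Y.tr (R := R)).mapH p ((((tcls n N).comp φ.g).pull).mapH p c) =
      (f.pull).mapH p ((ctree R n N).mapH p c) := by
  have h1 : ((tcls n N).comp φ.g).pull (R := R) = (φ.g.pull).comp ((tcls n N).pull) := rfl
  rw [h1, Hom.mapH_comp, mapH_ctree]
  exact φ.mapH_tr_pull p _

end transfer

end Vale.Agent.P263.TOP.H
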