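import Vale.Agent.P263.E.Corr

/-!
# P263, section [H]: two-coloured trees and the transfers from intransitive subgroups

`col n : Corr (BW Two n) (BW pt n)` : all colourings of the leaves of a tree by two colours;
`nonmono n` : the colourings in which both colours occur.  `Itr R n q` : the image of the transfer of
`nonmono n` in `H^q(BW_n)`, i.e. the sums of transfers from intransitive subgroups.
-/

noncomputable section

namespace Vale.Agent.P263.H

open Vale.Agent.P263.S Vale.Agent.P263.E Vale.Agent.P263.E.SS Classical

variable {R : Type} [CommRing R] {p q : ℕ}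

/-- The discrete simplicial set. -/
def disc (α : Type) : SS where
  obj _ := α
  map _ x := x
  map_id _ := rfl
  map_comp _ _ _ := rfl

/-- Two points. -/
abbrev Two : SS := disc Bool

/-- All colourings of the leaves. -/
def col : (n : ℕ) → Corr (BW Two n) (BW pt n)
  | 0 =>
    { S := fun _ => (Finset.univ : Finset Bool)
      inj := fun _ _ _ _ _ _ h => h
      img := fun _ _ => Finset.image_id }
  | n + 1 => (col n).D2

theorem sum_col_zero (z : (BW pt 0).obj p) {A : Type*} [AddCommMonoid A]
    (f : (BW Two 0).obj p → A) : ∑ t ∈ (col 0).S z, f t = f true + f false :=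
  Fintype.sum_bool (fun b : Bool => f b)

theorem sum_col_succ {n : ℕ} (s : Fin (p + 1) → C2) (z z' : (BW pt n).obj p) {A : Type*}
    [AddCommMonoid A] (f : (BW Two (n + 1)).obj p → A) :
    ∑ t ∈ (col (n + 1)).S (D2.mk s z z'), f t =
      ∑ t ∈ (col n).S z, ∑ t' ∈ (col n).S z', f (D2.mk s t t') :=
  (col n).sum_D2_S_mk s z z' f

/-- The tree of a coloured tree. -/
abbrev forget (n : ℕ) : Map (BW Two n) (BW pt n) := Map.BW (toPt Two) n

theorem forget_mk {n : ℕ} (s : Fin (p + 1) → C2) (t t' : (BW Two n).obj p) :
    (forget (n + 1)).app (D2.mk s t t') = D2.mk s ((forget n).app t) ((forget n).app t') := rfl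

theorem mem_col : ∀ {n : ℕ} {z : (BW pt n).obj p} {t : (BW Two n).obj p},
    t ∈ (col n).S z → (forget n).app t = z := by
  intro n
  induction n with
  | zero => intro z t _; rfl
  | succ n ih =>
    intro z t h
    obtain ⟨s, z, z', rfl⟩ := D2.rep z
    obtain ⟨⟨a, b⟩, h1, rfl⟩ := Finset.mem_image.1 h
    have h2 := Finset.mem_product.1 h1
    rw [forget_mk, ih h2.1, ih h2.2]

theorem mem_col_forget : ∀ {n : ℕ} (t : (BW Two n).obj p), t ∈ (col n).S ((forget n).app t) := by
  intro n
  induction n with
  | zero => intro t; exact Finset.mem_univ (α := Bool) t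
  | succ n ih =>
    intro t
    obtain ⟨s, a, b, rfl⟩ := D2.rep t
    exact Corr.mem_D2_S_mk.2 ⟨ih a, ih b⟩

/-- All leaves have the colour `b`. -/
def mono (b : Bool) : (n : ℕ) → {p : ℕ} → (BW Two n).obj p → Prop
  | 0, _, t => (t : Bool) = b
  | n + 1, _, t => D2.lift (Z := BW Two n) (fun _ t t' => mono b n t ∧ mono b n t')
      (fun _ _ _ => propext and_comm) t

theorem mono_zero (b : Bool) (t : (BW Two 0).obj p) : mono b 0 t ↔ (t : Bool) = b := Iff.rfl

theorem mono_mk {b : Bool} {n : ℕ} (s : Fin (p + 1) → C2) (t t' : (BW Two n).obj p) :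
    mono b (n + 1) (D2.mk s t t' : (D2 (BW Two n)).obj p) ↔ mono b n t ∧ mono b n t' := Iff.rfl

theorem mono_map (b : Bool) : ∀ (n : ℕ) (f : Op p q) (t : (BW Two n).obj q),
    mono b n ((BW Two n).map f t) ↔ mono b n t := by
  intro n
  induction n with
  | zero => intro f t; exact Iff.rfl
  | succ n ih =>
    intro f t
    obtain ⟨s, a, b', rfl⟩ := D2.rep t
    have h : (BW Two (n + 1)).map f (D2.mk s a b') =
      D2.mk (fun i => s (f i)) ((BW Two n).map f a) ((BW Two n).map f b') := rfl
    rw [h]
    show mono b n _ ∧ mono b n _ ↔ mono b n _ ∧ mono b n _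
    rw [ih, ih]

theorem not_mono_both : ∀ {n : ℕ} {b b' : Bool} {t : (BW Two n).obj p}, mono b n t →
    mono b' n t → b = b' := by
  intro n
  induction n with
  | zero => intro b b' t h h'; exact h.symm.trans h'
  | succ n ih =>
    intro b b' t h h'
    obtain ⟨s, a, a', rfl⟩ := D2.rep t
    exact ih h.1 h'.1

/-- Over every tree there is exactly one colouring with the single colour `b`. -/
theorem exists_mono (b : Bool) : ∀ (n : ℕ) (z : (BW pt n).obj p),
    ∃ t ∈ (col n).S z, mono b n t ∧ ∀ t' ∈ (col n).S z, mono b n t' → t' = t := by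
  intro n
  induction n with
  | zero => intro z; exact ⟨b, Finset.mem_univ (α := Bool) b, rfl, fun t' _ h => h⟩
  | succ n ih =>
    intro z
    obtain ⟨s, z, z', rfl⟩ := D2.rep z
    obtain ⟨t, h1, h2, h3⟩ := ih z
    obtain ⟨t', h1', h2', h3'⟩ := ih z'
    refine ⟨D2.mk s t t', Corr.mem_D2_S_mk.2 ⟨h1, h1'⟩, ⟨h2, h2'⟩, ?_⟩
    intro w hw hm
    obtain ⟨⟨a, b⟩, h4, rfl⟩ := Finset.mem_image.1 hw
    have h5 := Finset.mem_product.1 h4
    rw [h3 a h5.1 hm.1, h3' b h5.2 hm.2]

/-- a sum over the one-coloured colourings -/
theorem sum_mono (b : Bool) {n : ℕ} (z : (BW pt n).obj p) {A : Type*} [AddCommMonoid A] (a : A) :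
    ∑ t ∈ (col n).S z, (if mono b n t then a else 0) = a := by
  obtain ⟨t, h1, h2, h3⟩ := exists_mono b n z
  rw [Finset.sum_eq_single t, if_pos h2]
  · intro t' h4 h5
    rw [if_neg]
    intro h6
    exact h5 (h3 t' h4 h6)
  · intro h; exact absurd h1 h

/-- Both colours occur. -/
def NM (n : ℕ) {p : ℕ} (t : (BW Two n).obj p) : Prop := ∀ b, ¬ mono b n t

theorem NM_map (n : ℕ) (f : Op p q) (t : (BW Two n).obj q) : NM n ((BW Two n).map f t) ↔ NM n t :=
  forall_congr' (fun b => not_congr (mono_map b n f t))

/-- The colourings in which both colours occur. -/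
def nonmono (n : ℕ) : Corr (BW Two n) (BW pt n) := (col n).filter (NM n) (NM_map n)

theorem nonmono_sum_apply {n : ℕ} (f : (F R (BW Two n)).obj p) (z : (BW pt n).obj p) :
    ((nonmono n).sum (R := R)).app p f z =
      ∑ t ∈ (col n).S z, if NM n t then f t else 0 :=
  Finset.sum_filter (s := (col n).S z) (NM n) f

/-- The transfers from intransitive subgroups in `H^q(BW_n; R)`. -/
def Itr (R : Type) [CommRing R] (n q : ℕ) : Submodule R ((F R (BW pt n)).H q) :=
  LinearMap.range ((nonmono n).sum (R := R) |>.mapH q)

/-! ### the transfer from `Z × Z` -/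

/-- The transfer `F (Z × Z) → F (D2 Z)`. -/
def trSheet (R : Type) [CommRing R] (Z : SS) : Hom (F R (Z.prod Z)) (F R (D2 Z)) where
  app p :=
    { toFun := fun f => D2.lift (fun _ z z' => f (z, z') + f (z', z)) (fun _ _ _ => add_comm _ _)
      map_add' := fun f g => by
        funext x
        obtain ⟨s, z, z', rfl⟩ := D2.rep x
        exact add_add_add_comm _ _ _ _
      map_smul' := fun r f => by
        funext x
        obtain ⟨s, z, z', rfl⟩ := D2.rep x
        exact (mul_add _ _ _).symm }
  nat φ f := by
    funext x
    obtain ⟨s, z, z', rfl⟩ := D2.rep x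
    rfl

@[simp] theorem trSheet_mk {Z : SS} (f : (F R (Z.prod Z)).obj p) (s : Fin (p + 1) → C2)
    (z z' : Z.obj p) : (trSheet R Z).app p f (D2.mk s z z') = f (z, z') + f (z', z) := rfl

/-- Functions on `Z × Z` as functions on the two-coloured trees: one half in each colour. -/
def half (R : Type) [CommRing R] (n : ℕ) :
    Hom (F R ((BW pt n).prod (BW pt n))) (F R (BW Two (n + 1))) where
  app p :=
    { toFun := fun f => D2.lift (Z := BW Two n) (fun _ t t' =>
          (if mono false n t ∧ mono true n t' then f ((forget n).app t, (forget n).app t') else 0) +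
          (if mono false n t' ∧ mono true n t then f ((forget n).app t', (forget n).app t) else 0))
        (fun _ _ _ => add_comm _ _)
      map_add' := fun f g => by
        funext x
        obtain ⟨s, z, z', rfl⟩ := D2.rep x
        simp only [D2.lift_mk]
        show (_ : R) = ((_ : R) + (_ : R)) + ((_ : R) + (_ : R))
        rw [add_add_add_comm]
        congr 1
        · split_ifs
          · rfl
          · simp
        · split_ifs
          · rfl
          · simp
      map_smul' := fun r f => by
        funext x
        obtain ⟨s, z, z', rfl⟩ := D2.rep x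
        simp only [D2.lift_mk]
        show (_ : R) = r * ((_ : R) + (_ : R))
        rw [mul_add]
        congr 1
        · split_ifs
          · rfl
          · simp
        · split_ifs
          · rfl
          · simp }
  nat {p q} φ f := by
    funext x
    obtain ⟨s, z, z', rfl⟩ := D2.rep x
    show (if mono false n z ∧ mono true n z' then
          f ((BW pt n).map φ ((forget n).app z), (BW pt n).map φ ((forget n).app z')) else 0) +
        (if mono false n z' ∧ mono true n z then
          f ((BW pt n).map φ ((forget n).app z'), (BW pt n).map φ ((forget n).app z)) else 0) =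
      (if mono false n ((BW Two n).map φ z) ∧ mono true n ((BW Two n).map φ z') then
        f ((forget n).app ((BW Two n).map φ z), (forget n).app ((BW Two n).map φ z')) else 0) +
      (if mono false n ((BW Two n).map φ z') ∧ mono true n ((BW Two n).map φ z) then
        f ((forget n).app ((BW Two n).map φ z'), (forget n).app ((BW Two n).map φ z)) else 0)
    rw [(forget n).nat, (forget n).nat, mono_map, mono_map, mono_map, mono_map]

theorem half_mk {n : ℕ} (f : (F R ((BW pt n).prod (BW pt n))).obj p) (s : Fin (p + 1) → C2)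
    (t t' : (BW Two n).obj p) : (half R n).app p f (D2.mk s t t' : (D2 (BW Two n)).obj p) =
      (if mono false n t ∧ mono true n t' then f ((forget n).app t, (forget n).app t') else 0) +
      (if mono false n t' ∧ mono true n t then f ((forget n).app t', (forget n).app t) else 0) :=
  rfl

theorem nonmono_half (n : ℕ) : ((nonmono (n + 1)).sum (R := R)).comp (half R n) =
    trSheet R (BW pt n) := by
  refine Hom.ext fun p f => ?_
  funext x
  obtain ⟨s, z, z', rfl⟩ := D2.rep x
  show _ = f (z, z') + f (z', z)
  refine (nonmono_sum_apply _ _).trans ?_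
  refine (sum_col_succ s z z' _).trans ?_
  have h1 : ∀ t ∈ (col n).S z, ∀ t' ∈ (col n).S z',
      (if NM (n + 1) (D2.mk s t t' : (D2 (BW Two n)).obj p) then
        (half R n).app p f (D2.mk s t t') else 0) =
      (if mono false n t then (if mono true n t' then f (z, z') else 0) else 0) +
      (if mono true n t then (if mono false n t' then f (z', z) else 0) else 0) := by
    intro t ht t' ht'
    have hz := mem_col ht
    have hz' := mem_col ht'
    rw [half_mk, hz, hz']
    by_cases h : NM (n + 1) (D2.mk s t t' : (D2 (BW Two n)).obj p)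
    · rw [if_pos h]
      congr 1
      · by_cases h1 : mono false n t <;> by_cases h2 : mono true n t' <;> simp [h1, h2]
      · by_cases h1 : mono true n t <;> by_cases h2 : mono false n t' <;> simp [h1, h2]
    · rw [if_neg h]
      obtain ⟨b, h2⟩ := _root_.not_forall_not.1 h
      have h3 : mono b n t := h2.1
      have h4 : mono b n t' := h2.2
      cases b with
      | false =>
        have h5 : ¬ mono true n t := fun h => Bool.noConfusion (not_mono_both h3 h)
        have h6 : ¬ mono true n t' := fun h => Bool.noConfusion (not_mono_both h4 h)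
        rw [if_neg h6, if_neg h5, ite_self, add_zero]
      | true =>
        have h5 : ¬ mono false n t := fun h => Bool.noConfusion (not_mono_both h h3)
        have h6 : ¬ mono false n t' := fun h => Bool.noConfusion (not_mono_both h h4)
        rw [if_neg h6, if_neg h5, ite_self, add_zero]
  rw [Finset.sum_congr rfl (fun t ht => Finset.sum_congr rfl (h1 t ht))]
  simp only [Finset.sum_add_distrib]
  congr 1
  · have h2 : ∀ t ∈ (col n).S z, (∑ t' ∈ (col n).S z',
        if mono false n t then (if mono true n t' then f (z, z') else 0) else 0) =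
        if mono false n t then f (z, z') else 0 := by
      intro t _
      by_cases h : mono false n t
      · simp only [h, if_true]
        exact sum_mono true z' _
      · simp only [h, if_false, Finset.sum_const_zero]
    rw [Finset.sum_congr rfl h2]
    exact sum_mono false z _
  · have h2 : ∀ t ∈ (col n).S z, (∑ t' ∈ (col n).S z',
        if mono true n t then (if mono false n t' then f (z', z) else 0) else 0) =
        if mono true n t then f (z', z) else 0 := by
      intro t _
      by_cases h : mono true n t
      · simp only [h, if_true]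
        exact sum_mono false z' _
      · simp only [h, if_false, Finset.sum_const_zero]
    rw [Finset.sum_congr rfl h2]
    exact sum_mono true z _

/-- **(I1)** the transfers from `Z × Z` are transfers from intransitive subgroups. -/
theorem trSheet_mem (n q : ℕ) (x : (F R ((BW pt n).prod (BW pt n))).H q) :
    (trSheet R (BW pt n)).mapH q x ∈ Itr R (n + 1) q := by
  rw [← nonmono_half]
  exact ⟨(half R n).mapH q x, (Hom.mapH_comp _ _ _ _).symm⟩

/-! ### two-coloured halves -/

/-- Both halves are two-coloured. -/
def NM2 (n : ℕ) {p : ℕ} (x : (BW Two (n + 1)).obj p) : Prop :=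
  D2.lift (Z := BW Two n) (fun _ t t' => NM n t ∧ NM n t') (fun _ _ _ => propext and_comm) x

theorem NM2_mk {n : ℕ} (s : Fin (p + 1) → C2) (t t' : (BW Two n).obj p) :
    NM2 n (D2.mk s t t' : (D2 (BW Two n)).obj p) ↔ NM n t ∧ NM n t' := Iff.rfl

theorem NM2_map (n : ℕ) (φ : Op p q) (x : (BW Two (n + 1)).obj q) :
    NM2 n ((BW Two (n + 1)).map φ x) ↔ NM2 n x := by
  obtain ⟨s, z, z', rfl⟩ := D2.rep x
  show NM n ((BW Two n).map φ z) ∧ NM n ((BW Two n).map φ z') ↔ NM n z ∧ NM n z'
  rw [NM_map, NM_map]

/-- Extension by zero from the coloured trees with both halves two-coloured. -/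
def both (R : Type) [CommRing R] (n : ℕ) :
    Hom (F R (BW Two (n + 1))) (F R (BW Two (n + 1))) := cut R (NM2 n) (NM2_map n)

theorem both_mk {n : ℕ} (f : (F R (BW Two (n + 1))).obj p) (s : Fin (p + 1) → C2)
    (t t' : (BW Two n).obj p) : (both R n).app p f (D2.mk s t t' : (D2 (BW Two n)).obj p) =
      if NM2 n (D2.mk s t t' : (D2 (BW Two n)).obj p) then f (D2.mk s t t') else 0 := rfl

theorem nonmono_both (n : ℕ) : ((nonmono (n + 1)).sum (R := R)).comp (both R n) =
    ((nonmono n).D2).sum := by
  refine Hom.ext fun p f => ?_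
  funext x
  obtain ⟨s, z, z', rfl⟩ := D2.rep x
  refine (nonmono_sum_apply _ _).trans ?_
  refine (sum_col_succ s z z' _).trans ?_
  refine Eq.trans ?_ ((nonmono n).sum_D2_S_mk s z z' f).symm
  have e : ∀ (z : (BW pt n).obj p) (g : (BW Two n).obj p → R), ∑ t ∈ (nonmono n).S z, g t =
      ∑ t ∈ (col n).S z, if NM n t then g t else 0 :=
    fun z g => Finset.sum_filter (s := (col n).S z) (NM n) g
  rw [e]
  refine Finset.sum_congr rfl (fun t _ => ?_)
  by_cases h : NM n t
  · rw [if_pos h, e]
    refine Finset.sum_congr rfl (fun t' _ => ?_)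
    rw [both_mk]
    have h2 : NM (n + 1) (D2.mk s t t' : (D2 (BW Two n)).obj p) :=
      fun b hb => h b hb.1
    rw [if_pos h2]
    by_cases h' : NM n t'
    · rw [if_pos (NM2_mk s t t' |>.2 ⟨h, h'⟩), if_pos h']
    · rw [if_neg (fun h3 => h' ((NM2_mk s t t').1 h3).2), if_neg h']
  · rw [if_neg h]
    refine Finset.sum_eq_zero (fun t' _ => ?_)
    rw [both_mk, if_neg (fun h3 => h ((NM2_mk s t t').1 h3).1)]
    exact ite_self _

/-- **(I2)** the transfers of `D2` of the two-coloured trees are transfers from intransitive
subgroups. -/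
theorem D2_nonmono_mem (n q : ℕ) (x : (F R (D2 (BW Two n))).H q) :
    ((nonmono n).D2.sum (R := R)).mapH q x ∈ Itr R (n + 1) q := by
  rw [← nonmono_both]
  exact ⟨(both R n).mapH q x, (Hom.mapH_comp _ _ _ _).symm⟩

end Vale.Agent.P263.H
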