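import Vale.Agent.P263.TOP.H.Color
import Vale.Agent.P263.TOP.H.Model

/-!
# P263, section [H]: the tree transfer of an intransitive transfer is a Young transfer

`clc n A t` : the classifying map of the tree `t` of label vectors with the leaves coloured by
membership in `A`.  `LLnonmono` : the transfer along the full trees composed with the transfer of
`nonmono n` is the sum over `0 < i < 2^n` of Young transfers.
-/

noncomputable section

namespace Vale.Agent.P263.TOP.H

open Finset Vale.Agent.P263.S Vale.Agent.P263.E Vale.Agent.P263.E.SS Vale.Agent.P263.H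

variable {R : Type} [CommRing R] {p q : ℕ}

/-- a base point in every degree of `BW Two n` -/
def bwFalse : (n : ℕ) → (p : ℕ) → (SS.BW Two n).obj p
  | 0, _ => false
  | n + 1, p => SS.D2.mk (fun _ => 1) (bwFalse n p) (bwFalse n p)

open Classical in
/-- the coloured classifying map of a pair -/
def clcPair {p : ℕ} (n : ℕ) (c : TW (Lab p) n → (SS.BW Two n).obj p)
    (s t : TW (Lab p) n) : (SS.D2 (SS.BW Two n)).obj p :=
  if ∀ i, ev n i s ≠ ev n i t then SS.D2.mk (ord n s t) (c s) (c t)
  else SS.D2.mk (fun _ => 1) (bwFalse n p) (bwFalse n p)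

theorem clcPair_symm {p : ℕ} (n : ℕ) (c : TW (Lab p) n → (SS.BW Two n).obj p)
    (s t : TW (Lab p) n) : clcPair n c s t = clcPair n c t s := by
  unfold clcPair
  by_cases h : ∀ i, ev n i s ≠ ev n i t
  · rw [if_pos h, if_pos (fun i => (h i).symm), ord_symm h]
    exact (SS.D2.mk_swap _ _ _).symm
  · rw [if_neg h, if_neg (fun h' => h fun i => (h' i).symm)]

/-- the classifying map of trees of label vectors, the leaves coloured by membership in `A` -/
def clc {p : ℕ} : (n : ℕ) → Finset (Lab p) → TW (Lab p) n → (SS.BW Two n).obj p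
  | 0, A, t => decide ((t : Lab p) ∈ A)
  | n + 1, A, t => Sym2.lift ⟨fun s t => clcPair n (clc n A) s t,
      fun s t => clcPair_symm n (clc n A) s t⟩ t

theorem clc_mk {p : ℕ} (n : ℕ) (A : Finset (Lab p)) (s t : TW (Lab p) n) :
    clc (n + 1) A (s(s, t) : Sym2 (TW (Lab p) n)) = clcPair n (clc n A) s t := rfl

theorem clc_mk_of_ne {p : ℕ} (n : ℕ) (A : Finset (Lab p)) {s t : TW (Lab p) n}
    (h : ∀ i, ev n i s ≠ ev n i t) :
    clc (n + 1) A (s(s, t) : Sym2 (TW (Lab p) n)) =
      SS.D2.mk (ord n s t) (clc n A s) (clc n A t) := by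
  rw [clc_mk, clcPair, if_pos h]

/-- only the colours of the leaves matter -/
theorem clc_congr {p : ℕ} : ∀ (n : ℕ) {A B : Finset (Lab p)} (t : TW (Lab p) n),
    (∀ x ∈ TW.leaves n t, x ∈ A ↔ x ∈ B) → clc n A t = clc n B t
  | 0, A, B, t, h => by
    have h1 := h t (mem_singleton_self (t : Lab p))
    show (decide ((t : Lab p) ∈ A) : Bool) = decide ((t : Lab p) ∈ B)
    exact decide_eq_decide.2 h1
  | n + 1, A, B, t, h => by
    induction t using Sym2.ind with
    | _ s t =>
      have h1 : clc n A s = clc n B s := clc_congr n s (fun x hx => h x (by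
        rw [TW.leaves_mk]; exact mem_union_left _ hx))
      have h2 : clc n A t = clc n B t := clc_congr n t (fun x hx => h x (by
        rw [TW.leaves_mk]; exact mem_union_right _ hx))
      rw [clc_mk, clc_mk, clcPair, clcPair, h1, h2]

theorem card_leaves_le {p : ℕ} : ∀ (n : ℕ) (t : TW (Lab p) n), (TW.leaves n t).card ≤ 2 ^ n
  | 0, t => by
    show ({(t : Lab p)} : Finset (Lab p)).card ≤ 1
    rw [card_singleton]
  | n + 1, t => by
    induction t using Sym2.ind with
    | _ s t =>
      rw [TW.leaves_mk, pow_succ]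
      have h1 := card_leaves_le n s
      have h2 := card_leaves_le n t
      have h3 := card_union_le (TW.leaves n s) (TW.leaves n t)
      omega

theorem full_mk {p : ℕ} {n : ℕ} {s t : TW (Lab p) n}
    (h : (TW.leaves (n + 1) (s(s, t) : Sym2 (TW (Lab p) n))).card = 2 ^ (n + 1)) :
    (TW.leaves n s).card = 2 ^ n ∧ (TW.leaves n t).card = 2 ^ n ∧
      Disjoint (TW.leaves n s) (TW.leaves n t) := by
  rw [TW.leaves_mk, pow_succ] at h
  have h1 := card_leaves_le n s
  have h2 := card_leaves_le n t
  have h3 := card_union_le (TW.leaves n s) (TW.leaves n t)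
  have h4 := card_union_add_card_inter (TW.leaves n s) (TW.leaves n t)
  refine ⟨by omega, by omega, ?_⟩
  rw [disjoint_iff_inter_eq_empty, ← card_eq_zero]
  omega

/-- sums over the subsets of a disjoint union -/
theorem sum_powerset_union {α : Type*} [DecidableEq α] {A B : Finset α} (h : Disjoint A B)
    {M : Type*} [AddCommMonoid M] (f : Finset α → M) :
    ∑ C ∈ (A ∪ B).powerset, f C = ∑ a ∈ A.powerset, ∑ b ∈ B.powerset, f (a ∪ b) := by
  rw [← sum_product']
  symm
  refine sum_bij (fun z _ => z.1 ∪ z.2) ?_ ?_ ?_ ?_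
  · rintro ⟨a, b⟩ hz
    rw [mem_product, mem_powerset, mem_powerset] at hz
    exact mem_powerset.2 (union_subset_union hz.1 hz.2)
  · rintro ⟨a, b⟩ hz ⟨a', b'⟩ hz' he
    rw [mem_product, mem_powerset, mem_powerset] at hz hz'
    simp only at hz hz' he
    have key : ∀ {x y : Finset α}, x ⊆ A → y ⊆ B → (x ∪ y) ∩ A = x ∧ (x ∪ y) ∩ B = y := by
      intro x y hx hy
      constructor
      · ext e
        simp only [mem_inter, mem_union]
        constructor
        · rintro ⟨h1 | h1, h2⟩
          · exact h1
          · exact absurd (hy h1) (disjoint_left.1 h h2)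
        · intro h1; exact ⟨Or.inl h1, hx h1⟩
      · ext e
        simp only [mem_inter, mem_union]
        constructor
        · rintro ⟨h1 | h1, h2⟩
          · exact absurd h2 (disjoint_left.1 h (hx h1))
          · exact h1
        · intro h1; exact ⟨Or.inr h1, hy h1⟩
    have k1 := key hz.1 hz.2
    have k2 := key hz'.1 hz'.2
    rw [he] at k1
    exact Prod.ext (k1.1.symm.trans k2.1) (k1.2.symm.trans k2.2)
  · intro C hC
    rw [mem_powerset] at hC
    refine ⟨(C ∩ A, C ∩ B), mem_product.2 ⟨mem_powerset.2 inter_subset_right,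
      mem_powerset.2 inter_subset_right⟩, ?_⟩
    show C ∩ A ∪ C ∩ B = C
    rw [← inter_union_distrib_left, inter_eq_left.2 hC]
  · rintro ⟨a, b⟩ _
    rfl

/-- **the colourings of the classifying tree of a full tree are the subsets of its leaves** -/
theorem sum_col_cl {p : ℕ} {F : Finset (Lab p)} (hF : Good F) {M : Type*} [AddCommMonoid M] :
    ∀ (n : ℕ) (t : TW (Lab p) n), t ∈ trees n F → (TW.leaves n t).card = 2 ^ n →
      ∀ y : (SS.BW Two n).obj p → M,
      ∑ x ∈ (col n).S (cl n t), y x = ∑ A ∈ (TW.leaves n t).powerset, y (clc n A t)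
  | 0, t, _, _, y => by
    rw [sum_col_zero]
    show y true + y false = ∑ A ∈ ({(t : Lab p)} : Finset (Lab p)).powerset, y (clc 0 A t)
    rw [← insert_empty_eq (t : Lab p), sum_powerset_insert (notMem_empty _)]
    simp only [powerset_empty, sum_singleton]
    rw [add_comm]
    have h1 : clc 0 (∅ : Finset (Lab p)) t = (false : Bool) := by
      show (decide ((t : Lab p) ∈ (∅ : Finset (Lab p))) : Bool) = false
      simp
    have h2 : clc 0 (insert (t : Lab p) (∅ : Finset (Lab p))) t = (true : Bool) := by
      show (decide ((t : Lab p) ∈ insert (t : Lab p) (∅ : Finset (Lab p))) : Bool) = true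
      simp
    rw [h1, h2]
  | n + 1, t, ht, hc, y => by
    induction t using Sym2.ind with
    | _ s t =>
      rw [mem_trees_succ] at ht
      obtain ⟨h1, h2, h3⟩ := ht
      have h4 : ∀ i, ev n i s ≠ ev n i t := hF.ev_ne h1 h2 h3
      obtain ⟨h5, h6, h7⟩ := full_mk hc
      rw [cl_mk_of_ne n h4]
      refine (sum_col_succ _ _ _ y).trans ?_
      rw [TW.leaves_mk, sum_powerset_union h7]
      rw [sum_col_cl hF n s h1 h5]
      refine sum_congr rfl (fun A hA => ?_)
      rw [sum_col_cl hF n t h2 h6]
      refine sum_congr rfl (fun B hB => ?_)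
      rw [mem_powerset] at hA hB
      rw [clc_mk_of_ne n _ h4]
      congr 2
      · refine clc_congr n s (fun x hx => ?_)
        rw [mem_union]
        exact ⟨Or.inl, fun h => h.resolve_right (fun h' => disjoint_left.1 h7 hx (hB h'))⟩
      · refine clc_congr n t (fun x hx => ?_)
        rw [mem_union]
        exact ⟨Or.inr, fun h => h.resolve_left (fun h' => disjoint_left.1 h7 (hA h') hx)⟩

theorem leaves_subset {p : ℕ} {F : Finset (Lab p)} : ∀ (n : ℕ) (t : TW (Lab p) n),
    t ∈ trees n F → TW.leaves n t ⊆ F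
  | 0, t, h => singleton_subset_iff.2 h
  | n + 1, t, h => by
    induction t using Sym2.ind with
    | _ s t =>
      rw [mem_trees_succ] at h
      rw [TW.leaves_mk]
      exact union_subset (leaves_subset n s h.1) (leaves_subset n t h.2.1)

/-- when all leaves have the same colour -/
theorem mono_clc {p : ℕ} {F : Finset (Lab p)} (hF : Good F) (A : Finset (Lab p)) (b : Bool) :
    ∀ (n : ℕ) (t : TW (Lab p) n), t ∈ trees n F →
      (mono b n (clc n A t) ↔ ∀ x ∈ TW.leaves n t, (x ∈ A ↔ b = true))
  | 0, t, _ => by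
    show (decide ((t : Lab p) ∈ A) : Bool) = b ↔ ∀ x ∈ ({(t : Lab p)} : Finset (Lab p)), _
    constructor
    · intro h x hx
      rw [mem_singleton] at hx
      rw [hx, ← h, decide_eq_true_iff]
    · intro h
      have h1 := h t (mem_singleton_self _)
      cases b with
      | false => exact decide_eq_false (fun h2 => Bool.noConfusion (h1.1 h2))
      | true => exact decide_eq_true (h1.2 rfl)
  | n + 1, t, ht => by
    induction t using Sym2.ind with
    | _ s t =>
      rw [mem_trees_succ] at ht
      obtain ⟨h1, h2, h3⟩ := ht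
      have h4 : ∀ i, ev n i s ≠ ev n i t := hF.ev_ne h1 h2 h3
      rw [clc_mk_of_ne n _ h4, TW.leaves_mk]
      refine (mono_mk _ _ _).trans ?_
      rw [mono_clc hF A b n s h1, mono_clc hF A b n t h2]
      constructor
      · rintro ⟨h5, h6⟩ x hx
        rcases mem_union.1 hx with hx | hx
        · exact h5 x hx
        · exact h6 x hx
      · intro h5
        exact ⟨fun x hx => h5 x (mem_union_left _ hx), fun x hx => h5 x (mem_union_right _ hx)⟩

theorem NM_clc {p : ℕ} {F : Finset (Lab p)} (hF : Good F) {n : ℕ} {t : TW (Lab p) n}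
    (ht : t ∈ trees n F) (hl : TW.leaves n t = F) {A : Finset (Lab p)} (hA : A ⊆ F) :
    NM n (clc n A t) ↔ A ≠ ∅ ∧ A ≠ F := by
  unfold NM
  constructor
  · intro h
    refine ⟨fun h1 => h false ?_, fun h1 => h true ?_⟩
    · rw [mono_clc hF A false n t ht]
      intro x _
      rw [h1]
      simp
    · rw [mono_clc hF A true n t ht, hl]
      intro x hx
      rw [h1]
      simp [hx]
  · rintro ⟨h1, h2⟩ b hb
    rw [mono_clc hF A b n t ht, hl] at hb
    cases b with
    | false =>
      apply h1
      rw [eq_empty_iff_forall_notMem]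
      intro x hx
      exact Bool.noConfusion ((hb x (hA hx)).1 hx)
    | true => exact h2 (hA.antisymm (fun x hx => (hb x hx).2 rfl))

/-- the coloured classifying map is simplicial -/
theorem Good.clc_map {p : ℕ} {F : Finset (Lab p)} (h : Good F) {A : Finset (Lab p)} (hA : A ⊆ F)
    {q : ℕ} (φ : Op q p) :
    ∀ (n : ℕ) (t : TW (Lab p) n), t ∈ trees n F →
      clc n (H.res φ A) (TW.map (rl φ) n t) = (SS.BW Two n).map φ (clc n A t)
  | 0, t, ht => by
    show (decide (rl φ (t : Lab p) ∈ H.res φ A) : Bool) = decide ((t : Lab p) ∈ A)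
    exact decide_eq_decide.2 (h.mem_res_iff φ hA ht)
  | n + 1, t, ht => by
    induction t using Sym2.ind with
    | _ s t =>
      rw [mem_trees_succ] at ht
      obtain ⟨h1, h2, h3⟩ := ht
      have h4 : ∀ i, ev n i s ≠ ev n i t := h.ev_ne h1 h2 h3
      have h5 : ∀ i, ev n i (TW.map (rl φ) n s) ≠ ev n i (TW.map (rl φ) n t) := by
        intro i
        rw [ev_map, ev_map]
        exact h4 _
      rw [TW.map_mk, clc_mk_of_ne n _ h4, clc_mk_of_ne n _ h5]
      show _ = (SS.D2 (SS.BW Two n)).map φ _
      rw [SS.D2.map_mk, ord_map, h.clc_map hA φ n s h1, h.clc_map hA φ n t h2]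

end Vale.Agent.P263.TOP.H
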