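import Vale.Agent.P263.TOP.H.ColorCl

/-!
# P263, section [H]: the tree transfer of an intransitive transfer is a sum of Young transfers
-/

noncomputable section

namespace Vale.Agent.P263.TOP.H

open Finset Vale.Agent.P263.S Vale.Agent.P263.E Vale.Agent.P263.E.SS Vale.Agent.P263.H

variable {R : Type} [CommRing R] {p q : ℕ}

theorem TW.leaves_mapC {α β : Type} [DecidableEq α] [DecidableEq β] (f : α → β) :
    ∀ (n : ℕ) (t : TW α n), TW.leaves n (TW.map f n t) = (TW.leaves n t).image f
  | 0, t => (image_singleton f (t : α)).symm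
  | n + 1, t => by
    induction t using Sym2.ind with
    | _ s t => rw [TW.map_mk, TW.leaves_mk, TW.leaves_mk, TW.leaves_mapC f n s,
        TW.leaves_mapC f n t, image_union]

/-- the trees whose set of leaves is exactly `C` -/
def fullT {α : Type} [DecidableEq α] (n : ℕ) (C : Finset α) : Finset (TW α n) :=
  (trees n C).filter (fun t => TW.leaves n t = C)

theorem mem_fullT {α : Type} [DecidableEq α] {n : ℕ} {C : Finset α} {t : TW α n} :
    t ∈ fullT n C ↔ t ∈ trees n C ∧ TW.leaves n t = C := mem_filter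

theorem fullT_image {α β : Type} [DecidableEq α] [DecidableEq β] {f : α → β} {C : Finset α}
    (hf : Set.InjOn f (C : Set α)) (hl : ∀ (n : ℕ) (t : TW α n), t ∈ trees n C →
      TW.leaves n t ⊆ C) (n : ℕ) : fullT n (C.image f) = (fullT n C).image (TW.map f n) := by
  ext t
  rw [mem_fullT, trees_image hf, mem_image, mem_image]
  constructor
  · rintro ⟨⟨s, hs, rfl⟩, h⟩
    refine ⟨s, mem_fullT.2 ⟨hs, ?_⟩, rfl⟩
    rw [TW.leaves_mapC] at h
    refine (hl n s hs).antisymm (fun x hx => ?_)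
    have hx' : f x ∈ (TW.leaves n s).image f := by rw [h]; exact mem_image_of_mem f hx
    obtain ⟨y, hy, hyx⟩ := mem_image.1 hx'
    rwa [← hf (mem_coe.2 (hl n s hs hy)) (mem_coe.2 hx) hyx]
  · rintro ⟨s, hs, rfl⟩
    rw [mem_fullT] at hs
    exact ⟨⟨s, hs.1, rfl⟩, by rw [TW.leaves_mapC, hs.2]⟩

theorem Good.sum_fullT_res {C : Finset (Lab p)} (h : Good C) (φ : Op q p) (n : ℕ) {M : Type*}
    [AddCommMonoid M] (w : TW (Lab q) n → M) :
    ∑ t ∈ fullT n (H.res φ C), w t = ∑ t ∈ fullT n C, w (TW.map (rl φ) n t) := by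
  have h1 : fullT n (H.res φ C) = (fullT n C).image (TW.map (rl φ) n) :=
    fullT_image (h.injOn φ) (fun n t ht => leaves_subset n t ht) n
  rw [h1, sum_image]
  intro s hs t ht hst
  exact TW.map_injOn (h.injOn φ) n (mem_coe.2 (mem_fullT.1 (mem_coe.1 hs)).1)
    (mem_coe.2 (mem_fullT.1 (mem_coe.1 ht)).1) hst

/-- cochains on the two-coloured trees give cochains on the pairs: sum over the full trees on
`A ∪ B`, the leaves in `A` being white -/
def colY (R : Type) [CommRing R] (n i j : ℕ) :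
    Hom (F R (SS.BW Two n)) (F R (GamP i j)) where
  app p :=
    { toFun := fun y z => ∑ t ∈ fullT n (z.1.1 ∪ z.1.2), y (clc n z.1.1 t)
      map_add' := fun y y' => by funext z; exact sum_add_distrib
      map_smul' := fun r y => by funext z; exact (mul_sum _ _ _).symm }
  nat {p q} φ y := by
    funext z
    show ∑ t ∈ fullT n (z.1.1 ∪ z.1.2), y ((SS.BW Two n).map φ (clc n z.1.1 t)) =
      ∑ t ∈ fullT n (H.res φ z.1.1 ∪ H.res φ z.1.2), y (clc n (H.res φ z.1.1) t)
    rw [← res_union, Good.sum_fullT_res z.2.1]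
    refine sum_congr rfl (fun t ht => ?_)
    rw [z.2.1.clc_map subset_union_left φ n t (mem_fullT.1 ht).1]

theorem colY_app {n i j : ℕ} (y : (F R (SS.BW Two n)).obj p) (z : (GamP i j).obj p) :
    (colY R n i j).app p y z = ∑ t ∈ fullT n (z.1.1 ∪ z.1.2), y (clc n z.1.1 t) := rfl

/-- a sum over the pairs with union `C` and `i + j = card C` -/
theorem sum_pairs_disj {α : Type} [DecidableEq α] {C : Finset α} {i j : ℕ} (h : i + j = C.card)
    {M : Type*} [AddCommMonoid M] (g : Finset α → Finset α → M) :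
    ∑ z ∈ pairs i j C, g z.1 z.2 = ∑ A ∈ C.powersetCard i, g A (C \ A) := by
  refine sum_bij (fun z _ => z.1) ?_ ?_ ?_ ?_
  · rintro ⟨A, B⟩ hz
    obtain ⟨h1, h2, h3⟩ := mem_pairs.1 hz
    rw [mem_powersetCard]
    exact ⟨h3 ▸ subset_union_left, h1⟩
  · rintro ⟨A, B⟩ hz ⟨A', B'⟩ hz' he
    obtain ⟨h1, h2, h3⟩ := mem_pairs.1 hz
    obtain ⟨h1', h2', h3'⟩ := mem_pairs.1 hz'
    simp only at he
    subst he
    have key : ∀ {B : Finset α}, B.card = j → A ∪ B = C → B = C \ A := by
      intro B hB hu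
      have h4 := card_union_add_card_inter A B
      rw [hu] at h4
      have h5 : A ∩ B = ∅ := by
        rw [← card_eq_zero]; omega
      ext x
      rw [mem_sdiff, ← hu, mem_union]
      constructor
      · intro hx
        exact ⟨Or.inr hx, fun hx' => by
          have : x ∈ A ∩ B := mem_inter.2 ⟨hx', hx⟩
          rw [h5] at this; exact notMem_empty _ this⟩
      · rintro ⟨h6, h7⟩
        exact h6.resolve_left h7
    rw [key h2 h3, key h2' h3']
  · intro A hA
    rw [mem_powersetCard] at hA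
    refine ⟨(A, C \ A), mem_pairs.2 ⟨hA.2, ?_, union_sdiff_of_subset hA.1⟩, rfl⟩
    rw [card_sdiff_of_subset hA.1]
    omega
  · rintro ⟨A, B⟩ hz
    obtain ⟨h1, h2, h3⟩ := mem_pairs.1 hz
    simp only
    congr 1
    have h4 := card_union_add_card_inter A B
    rw [h3] at h4
    have h5 : A ∩ B = ∅ := by
      rw [← card_eq_zero]; omega
    ext x
    rw [mem_sdiff, ← h3, mem_union]
    constructor
    · intro hx
      exact ⟨Or.inr hx, fun hx' => by
        have : x ∈ A ∩ B := mem_inter.2 ⟨hx', hx⟩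
        rw [h5] at this; exact notMem_empty _ this⟩
    · rintro ⟨h6, h7⟩
      exact h6.resolve_left h7

/-- **(I5), pointwise**: the transfer along the full trees of an intransitive transfer is a sum of
transfers from pairs. -/
theorem sum_fullT_nonmono {n : ℕ} (y : (F R (SS.BW Two n)).obj p) {C : Finset (Lab p)}
    (hC : Good C) (hc : C.card = 2 ^ n) :
    ∑ t ∈ fullT n C, ((nonmono n).sum (R := R)).app p y (cl n t) =
      ∑ i ∈ Ico 1 (2 ^ n), ∑ z ∈ pairs i (2 ^ n - i) C, ∑ t ∈ fullT n C, y (clc n z.1 t) := by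
  classical
  have h1 : ∀ t ∈ fullT n C, ((nonmono n).sum (R := R)).app p y (cl n t) =
      ∑ A ∈ C.powerset, if A ≠ ∅ ∧ A ≠ C then y (clc n A t) else 0 := by
    intro t ht
    rw [mem_fullT] at ht
    refine (nonmono_sum_apply y (cl n t)).trans ?_
    refine (sum_col_cl hC n t ht.1 (by rw [ht.2, hc]) (fun x => if NM n x then y x else 0)).trans ?_
    rw [ht.2]
    refine sum_congr rfl (fun A hA => ?_)
    rw [mem_powerset] at hA
    exact if_congr (NM_clc hC ht.1 ht.2 hA) rfl rfl
  rw [sum_congr rfl h1, sum_comm]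
  have h2 : ∀ A ∈ C.powerset, (∑ t ∈ fullT n C, if A ≠ ∅ ∧ A ≠ C then y (clc n A t) else 0) =
      if A ≠ ∅ ∧ A ≠ C then ∑ t ∈ fullT n C, y (clc n A t) else 0 := by
    intro A _
    split_ifs
    · rfl
    · exact sum_const_zero
  rw [sum_congr rfl h2, sum_powerset]
  have h3 : ∀ i ∈ range (C.card + 1), (∑ A ∈ C.powersetCard i,
      if A ≠ ∅ ∧ A ≠ C then ∑ t ∈ fullT n C, y (clc n A t) else 0) =
      if i ∈ Ico 1 (2 ^ n) then ∑ A ∈ C.powersetCard i, ∑ t ∈ fullT n C, y (clc n A t) else 0 := by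
    intro i hi
    rw [mem_range, hc] at hi
    by_cases h4 : i ∈ Ico 1 (2 ^ n)
    · rw [if_pos h4]
      rw [mem_Ico] at h4
      refine sum_congr rfl (fun A hA => ?_)
      rw [mem_powersetCard] at hA
      rw [if_pos]
      constructor
      · intro h5; rw [h5, card_empty] at hA; omega
      · intro h5; rw [h5, hc] at hA; omega
    · rw [if_neg h4]
      rw [mem_Ico] at h4
      refine sum_eq_zero (fun A hA => ?_)
      rw [mem_powersetCard] at hA
      rw [if_neg]
      rintro ⟨h5, h6⟩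
      have h7 : i ≠ 0 := fun h7 => h5 (card_eq_zero.1 (by rw [hA.2, h7]))
      have h8 : i ≠ 2 ^ n := fun h8 => h6 (eq_of_subset_of_card_le hA.1 (by rw [hA.2, hc, h8]))
      omega
  rw [sum_congr rfl h3, ← sum_filter]
  have h4 : (range (C.card + 1)).filter (fun i => i ∈ Ico 1 (2 ^ n)) = Ico 1 (2 ^ n) := by
    ext i
    rw [mem_filter, mem_range, mem_Ico, hc]
    omega
  rw [h4]
  refine sum_congr rfl (fun i hi => ?_)
  rw [mem_Ico] at hi
  rw [sum_pairs_disj (by rw [hc]; omega) (fun A _ => ∑ t ∈ fullT n C, y (clc n A t))]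

end Vale.Agent.P263.TOP.H
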