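import Vale.Agent.P263.TOP.H.Trees
import Vale.Agent.P263.TOP.H.Pair
import Vale.Agent.P263.TOP.LevelB

/-!
P263, block [H]: the first nonvanishing functional `hfun phi n` sees only the top weight.
-/

namespace Vale.Agent.P263.TOP.H

open Finset Vale.Agent.P263.S Vale.Agent.P263.E

/-- a vertex of `Gam N` -/
def gamPt (N : ℕ) : (Gam N).obj 0 :=
  ⟨(range N).map ⟨fun a => (fun _ => a : Lab 0), fun a b h => congrFun h 0⟩, by
    constructor
    · intro i s hs t ht hst
      obtain ⟨a, -, rfl⟩ := mem_map.1 (mem_coe.1 hs)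
      obtain ⟨b, -, rfl⟩ := mem_map.1 (mem_coe.1 ht)
      have hab : a = b := hst
      rw [hab]
    · rw [card_map, card_range]⟩

variable {N d : ℕ} {phi : Co (Gam N) d →ₗ[ZMod 2] ZMod 2}

/-- the two forms of primitivity -/
theorem prim_of (h : ∀ v, TOP.Prim phi v) : Prim N d phi := ⟨gamPt N, fun Y => h (gamPt N) Y⟩

theorem gam_zero (hd : 0 < d) (x : (SS.F (ZMod 2) (Gam 0)).H d) : x = 0 := by
  obtain ⟨e, rfl⟩ : ∃ e, d = e + 1 := ⟨d - 1, by omega⟩
  exact gam_zero_H e x

theorem gam_one (hd : 0 < d) (x : (SS.F (ZMod 2) (Gam 1)).H d) : x = 0 := by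
  obtain ⟨e, rfl⟩ : ∃ e, d = e + 1 := ⟨d - 1, by omega⟩
  exact gam_one_H e x

/-- the functionals of the tree transfers, sorted by the weights -/
theorem hfun_eq_sum (n : ℕ) (x : Co (SS.BW SS.pt n) d) :
    hfun phi n x = ∑ j ∈ range (N + 1), xi phi j ((LL n j).mapH d x) := by
  rw [hfun_apply, mapH_eq_sum (range (N + 1)) (ctree (ZMod 2) n N)
    (fun j => (cW j N).comp (LL n j)) (fun p w => ctree_eq_sum n N w) d x, map_sum]
  refine sum_congr rfl fun j _ => ?_
  rw [Hom.mapH_comp]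
  rfl

theorem LL_mapH_eq_zero {n j : ℕ} (h : 2 ^ n < j) (x : Co (SS.BW SS.pt n) d) :
    (LL (R := ZMod 2) n j).mapH d x = 0 := by
  have := mapH_eq_sum (∅ : Finset ℕ) (LL (R := ZMod 2) n j) (fun _ => LL n j)
    (fun p w => by rw [sum_empty]; exact LL_eq_zero h w) d x
  rw [this, sum_empty]

theorem xi_eq_zero_of_lt {j : ℕ} (h : N < j) : xi phi j = 0 := by
  apply LinearMap.ext
  intro x
  have : (cW (R := ZMod 2) j N).mapH d x = 0 := by
    have := mapH_eq_sum (∅ : Finset ℕ) (cW (R := ZMod 2) j N) (fun _ => cW j N)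
      (fun p w => by
        rw [sum_empty]
        funext F
        rw [cW_app, powersetCard_eq_empty.2 (by rw [F.2.2]; exact h), sum_empty]
        rfl) d x
    rw [this, sum_empty]
  rw [xi_apply, this, map_zero]
  rfl

/-- (W2): if the weights below `2^n` vanish then `hfun phi n` is the weight `2^n` part -/
theorem hfun_eq_aux {n m : ℕ} (hm : 2 ^ n = m) (h : ∀ j, j < m → xi phi j = 0)
    (x : Co (SS.BW SS.pt n) d) : hfun phi n x = xi phi m ((LL n m).mapH d x) := by
  rw [hfun_eq_sum]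
  have h1 : ∀ j ∈ range (N + 1), j ≠ m → xi phi j ((LL n j).mapH d x) = 0 := by
    intro j _ hj
    rcases lt_or_gt_of_ne hj with h2 | h2
    · rw [h j h2]; rfl
    · rw [LL_mapH_eq_zero (by omega), map_zero]
  by_cases hN : m ∈ range (N + 1)
  · exact sum_eq_single_of_mem (f := fun j => xi phi j ((LL n j).mapH d x)) m hN h1
  · rw [mem_range] at hN
    have h2 : xi phi m = 0 := xi_eq_zero_of_lt (by omega)
    rw [h2]
    refine sum_eq_zero fun j hj => h1 j hj ?_
    rintro rfl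
    exact hN (mem_range.1 hj)

/-- (W2): if the weights below `2^n` vanish then `hfun phi n` is the weight `2^n` part -/
theorem hfun_eq {n : ℕ} (h : ∀ j, j < 2 ^ n → xi phi j = 0) :
    hfun phi n = (xi phi (2 ^ n)).comp ((LL n (2 ^ n)).mapH d) :=
  LinearMap.ext fun x => hfun_eq_aux rfl h x

/-- if the weights up to `2^n` vanish then `hfun phi n = 0` -/
theorem hfun_eq_zero {n : ℕ} (h : ∀ j, j < 2 ^ n → xi phi j = 0) (h' : xi phi (2 ^ n) = 0) :
    hfun phi n = 0 := by
  rw [hfun_eq h, h']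
  rfl

/-- the tree transfers onto the top weight are onto -/
def Onto (d : ℕ) : Prop := ∀ (k : ℕ) (x : (SS.F (ZMod 2) (Gam (2 ^ k))).H d),
  ∃ w : Co (SS.BW SS.pt k) d, (LL (R := ZMod 2) k (2 ^ k)).mapH d w = x

/-- the first nonvanishing weight is a power of two and is detected by the trees -/
theorem exists_first (hd : 0 < d) (hP : Prim N d phi) (hO : Onto d) (hphi : phi ≠ 0) :
    ∃ k, (∀ n, n < 2 ^ (k + 1) → xi phi n = 0) ∧ xi phi (2 ^ (k + 1)) ≠ 0 ∧
      hfun phi (k + 1) ≠ 0 := by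
  obtain ⟨k, h1, h2⟩ := exists_pow hP (fun i j => incl_mapH_surjective i j d)
    (fun x => gam_zero hd x) (fun x => gam_one hd x) hphi
  refine ⟨k, h2, h1, fun h3 => h1 ?_⟩
  apply LinearMap.ext
  intro x
  obtain ⟨w, rfl⟩ := hO (k + 1) x
  have h4 := LinearMap.congr_fun h3 w
  rw [hfun_eq h2] at h4
  exact h4

/-- (W1) -/
theorem xi_eq_zero_of_hfun (hd : 0 < d) (hP : Prim N d phi) (hO : Onto d) {n : ℕ}
    (h : ∀ i, i ≤ n → hfun phi i = 0) : ∀ j, j < 2 ^ (n + 1) → xi phi j = 0 := by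
  by_cases hphi : phi = 0
  · intro j _
    rw [hphi]
    rfl
  · obtain ⟨k, h1, -, h3⟩ := exists_first hd hP hO hphi
    have h4 : n < k + 1 := by
      by_contra h5
      exact h3 (h (k + 1) (by omega))
    intro j hj
    exact h1 j (lt_of_lt_of_le hj (Nat.pow_le_pow_right (by norm_num) (by omega)))

/-- (W3): the top weight kills the transfers from disjoint pairs -/
theorem xi_trP' (hP : Prim N d phi) {i j m : ℕ} (hm : i + j = m) (hi : 1 ≤ i) (hj : 1 ≤ j)
    (h0 : ∀ n, n < m → xi phi n = 0) (x : (SS.F (ZMod 2) (GamP i j)).H d) :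
    xi phi m ((trP i j m).mapH d x) = 0 := by
  subst hm
  exact xi_trP hP hi hj (incl_mapH_surjective i j d) (fun n _ hn => h0 n hn) x

/-- (W4): the functionals `hfun phi n` detect `phi` -/
theorem all_zero (hd : 0 < d) (hP : Prim N d phi) (hO : Onto d) (h : ∀ n, hfun phi n = 0) :
    phi = 0 := by
  by_contra hphi
  obtain ⟨k, -, -, h3⟩ := exists_first hd hP hO hphi
  exact h3 (h (k + 1))

end Vale.Agent.P263.TOP.H
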