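import Vale.Agent.P263.TOP.H.Odd

/-!
# P263, section [H-FLAG], F2: translation invariant trees (helper354)

`V` is a finite vector space over `𝔽₂`.  The trees on `V` which are invariant under all translations
are the trees of complete flags.
-/

namespace Vale.Agent.P263.TOP.H

universe u v w

/-- Transport of trees along an injective map. -/
def mapT {α : Type u} {β : Type v} (f : α ↪ β) : (n : ℕ) → {g : Tr α n → Tr β n // Function.Injective g}
  | 0 => ⟨f, f.injective⟩
  | n + 1 => ⟨fun p => ⟨Sym2.map (mapT f n).1 p.1, fun h => p.2 ((Sym2.isDiag_map (mapT f n).2).1 h)⟩,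
      fun _ _ h => Subtype.ext (Sym2.map.injective (mapT f n).2 (congrArg Subtype.val h))⟩

/-- Transport of trees along an injective map. -/
def mp {α : Type u} {β : Type v} (f : α ↪ β) (n : ℕ) (t : Tr α n) : Tr β n := (mapT f n).1 t

variable {α : Type u} {β : Type v} {γ : Type w}

theorem mp_zero (f : α ↪ β) (a : Tr α 0) : mp f 0 a = f a := rfl

theorem mp_injective (f : α ↪ β) (n : ℕ) : Function.Injective (mp f n) := (mapT f n).2

theorem mp_val (f : α ↪ β) (n : ℕ) (p : Tr α (n + 1)) : (mp f (n + 1) p).1 = Sym2.map (mp f n) p.1 :=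
  rfl

theorem mp_mk (f : α ↪ β) (n : ℕ) (s t : Tr α n) (h) :
    mp f (n + 1) ⟨s(s, t), h⟩ =
      ⟨s(mp f n s, mp f n t), by
        rw [Sym2.mk_isDiag_iff] at h ⊢; exact fun h' => h (mp_injective f n h')⟩ := rfl

theorem mp_id : ∀ (n : ℕ) (t : Tr α n), mp (Function.Embedding.refl α) n t = t
  | 0, _ => rfl
  | n + 1, p => by
    refine Subtype.ext ?_
    rw [mp_val]
    have : mp (Function.Embedding.refl α) n = id := funext (mp_id n)
    rw [this, Sym2.map_id]; rfl

theorem mp_mp (g : β ↪ γ) (f : α ↪ β) : ∀ (n : ℕ) (t : Tr α n),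
    mp g n (mp f n t) = mp (f.trans g) n t
  | 0, _ => rfl
  | n + 1, p => by
    refine Subtype.ext ?_
    rw [mp_val, mp_val, mp_val, Sym2.map_map]
    congr 1
    exact funext (mp_mp g f n)

theorem leaves_mp [DecidableEq α] [DecidableEq β] (f : α ↪ β) : ∀ (n : ℕ) (t : Tr α n),
    leaves n (mp f n t) = (leaves n t).map f
  | 0, a => (Finset.map_singleton f a).symm
  | n + 1, ⟨p, hp⟩ => by
    induction p using Sym2.ind with
    | _ s t =>
      rw [mp_mk, leaves_mk, leaves_mk, leaves_mp f n, leaves_mp f n, Finset.map_union]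

/-! ### Translations -/

section
variable {V : Type u} [AddCommGroup V]

/-- The translation by `v`. -/
def tl (v : V) : V ↪ V := (Equiv.addLeft v).toEmbedding

@[simp] theorem tl_apply (v x : V) : tl v x = v + x := rfl

theorem tl_zero : tl (0 : V) = Function.Embedding.refl V := by
  ext x; simp

theorem tl_trans (v w : V) : (tl v).trans (tl w) = tl (w + v) := by
  ext x; simp [add_assoc]

/-- The translate of a tree. -/
def sh (n : ℕ) (v : V) (t : Tr V n) : Tr V n := mp (tl v) n t

@[simp] theorem sh_zero (n : ℕ) (t : Tr V n) : sh n (0 : V) t = t := by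
  rw [sh, tl_zero, mp_id]

theorem sh_sh (n : ℕ) (v w : V) (t : Tr V n) : sh n w (sh n v t) = sh n (w + v) t := by
  rw [sh, sh, mp_mp, tl_trans]; rfl

theorem sh_comm (n : ℕ) (v w : V) (t : Tr V n) : sh n w (sh n v t) = sh n v (sh n w t) := by
  rw [sh_sh, sh_sh, add_comm]

theorem sh_injective (n : ℕ) (v : V) : Function.Injective (sh n v) := mp_injective _ _

theorem sh_val (n : ℕ) (v : V) (p : Tr V (n + 1)) : (sh (n + 1) v p).1 = Sym2.map (sh n v) p.1 :=
  rfl

theorem leaves_sh [DecidableEq V] (n : ℕ) (v : V) (t : Tr V n) :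
    leaves n (sh n v t) = (leaves n t).map (tl v) := leaves_mp _ _ _

/-- `t` is the tree `T(c; g)`: `T(c; ) = c`, and `T(c; g₀, g₁, ...)` has the two halves
`T(c; g₁, ...)` and its translate by `g₀`. -/
def IsStd (c : V) : (n : ℕ) → (Fin n → V) → Tr V n → Prop
  | 0, _, t => (t : V) = c
  | n + 1, g, t => ∃ s : Tr V n, t.1 = s(s, sh n (g 0) s) ∧ IsStd c n (fun i => g i.succ) s

theorem IsStd.unique {c : V} : ∀ {n : ℕ} {g : Fin n → V} {t t' : Tr V n},
    IsStd c n g t → IsStd c n g t' → t = t'
  | 0, _, t, t', h, h' => by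
    have h1 : (t : V) = c := h
    have h2 : (t' : V) = c := h'
    exact h1.trans h2.symm
  | n + 1, g, t, t', ⟨s, hs, h⟩, ⟨s', hs', h'⟩ => by
    have : s = s' := h.unique h'
    subst this
    exact Subtype.ext (hs.trans hs'.symm)

theorem IsStd.shift {c : V} (v : V) : ∀ {n : ℕ} {g : Fin n → V} {t : Tr V n},
    IsStd c n g t → IsStd (v + c) n g (sh n v t)
  | 0, _, t, h => by
    have h1 : (t : V) = c := h
    show tl v t = v + c
    rw [h1]; rfl
  | n + 1, g, t, ⟨s, hs, h⟩ => by
    refine ⟨sh n v s, ?_, h.shift v⟩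
    rw [sh_val, hs, Sym2.map_mk]
    show s(_, _) = s(_, _)
    rw [sh_comm]

/-- Transport along an additive map. -/
theorem mp_sh {W : Type v} [AddCommGroup W] (A : V →+ W) (hA : Function.Injective A) (n : ℕ) (v : V)
    (t : Tr V n) : mp ⟨A, hA⟩ n (sh n v t) = sh n (A v) (mp ⟨A, hA⟩ n t) := by
  rw [sh, sh, mp_mp, mp_mp]
  congr 1
  ext x
  simp

theorem IsStd.map {W : Type v} [AddCommGroup W] (A : V →+ W) (hA : Function.Injective A) {c : V} :
    ∀ {n : ℕ} {g : Fin n → V} {t : Tr V n},
    IsStd c n g t → IsStd (A c) n (fun i => A (g i)) (mp ⟨A, hA⟩ n t)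
  | 0, _, t, h => by
    have h1 : (t : V) = c := h
    show A t = A c
    rw [h1]
  | n + 1, g, t, ⟨s, hs, h⟩ => by
    refine ⟨mp ⟨A, hA⟩ n s, ?_, h.map A hA⟩
    rw [mp_val, hs, Sym2.map_mk, mp_sh]

/-! ### Classification of the invariant trees -/

theorem sh_eq_or {n : ℕ} {s s' : Tr V n} {h} {v : V}
    (hv : sh (n + 1) v (⟨s(s, s'), h⟩ : Tr V (n + 1)) = ⟨s(s, s'), h⟩) :
    (sh n v s = s ∧ sh n v s' = s') ∨ (sh n v s = s' ∧ sh n v s' = s) := by
  have h1 : Sym2.map (sh n v) s(s, s') = s(s, s') := congrArg Subtype.val hv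
  rw [Sym2.map_mk] at h1
  exact Sym2.eq_iff.1 h1

/-- A tree of depth `n` which is fixed by a subgroup with `2^n` elements is the tree of a flag. -/
theorem exists_isStd [DecidableEq V] (h2 : ∀ v : V, v + v = 0) : ∀ (n : ℕ) (U : Finset V) (t : Tr V n),
    (0 : V) ∈ U → (∀ u ∈ U, ∀ v ∈ U, u + v ∈ U) → U.card = 2 ^ n → (∀ u ∈ U, sh n u t = t) →
    ∃ c : V, ∃ g : Fin n → V, (∀ i, g i ∈ U) ∧ IsStd c n g t
  | 0, U, t, _, _, _, _ => ⟨t, Fin.elim0, fun i => i.elim0, rfl⟩
  | n + 1, U, ⟨p, hp⟩, h0, hadd, hcard, hfix => by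
    induction p using Sym2.ind with
    | _ s s' =>
      classical
      set U' : Finset V := U.filter (fun u => sh n u s = s) with hU'
      have hne : s ≠ s' := fun h => hp (by rw [Sym2.mk_isDiag_iff]; exact h)
      -- some element moves `s`
      have hex : ∃ g ∈ U, sh n g s ≠ s := by
        by_contra hcon
        push Not at hcon
        obtain ⟨c, hc⟩ := leaves_nonempty n s
        have hsub : U.map (tl c) ⊆ leaves n s := by
          intro x hx
          obtain ⟨u, hu, rfl⟩ := Finset.mem_map.1 hx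
          have h1 : leaves n s = (leaves n s).map (tl u) := by
            rw [← leaves_sh, hcon u hu]
          rw [h1, Finset.mem_map]
          exact ⟨c, hc, by simp [add_comm]⟩
        have h1 := Finset.card_le_card hsub
        rw [Finset.card_map, hcard] at h1
        have h2 := leaves_card_le n s
        have h3 : 2 ^ n < 2 ^ (n + 1) := Nat.pow_lt_pow_right (by norm_num) (by omega)
        omega
      obtain ⟨g, hgU, hg⟩ := hex
      have hgs : sh n g s = s' := by
        rcases sh_eq_or (hfix g hgU) with h | h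
        · exact absurd h.1 hg
        · exact h.1
      have hU : U = U' ∪ U'.map (tl g) := by
        ext u
        simp only [Finset.mem_union, Finset.mem_map, hU', Finset.mem_filter, tl_apply]
        constructor
        · intro hu
          rcases sh_eq_or (hfix u hu) with h | h
          · exact Or.inl ⟨hu, h.1⟩
          · refine Or.inr ⟨g + u, ⟨hadd g hgU u hu, ?_⟩, by rw [← add_assoc, h2, zero_add]⟩
            rw [← sh_sh, h.1, ← hgs, sh_sh, h2, sh_zero]
        · rintro (h | ⟨a, ha, rfl⟩)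
          · exact h.1
          · exact hadd g hgU a ha.1
      have hdisj : Disjoint U' (U'.map (tl g)) := by
        rw [Finset.disjoint_left]
        intro u hu hu'
        obtain ⟨a, ha, rfl⟩ := Finset.mem_map.1 hu'
        rw [hU', Finset.mem_filter] at hu ha
        have h1 := hu.2
        rw [tl_apply, ← sh_sh, ha.2] at h1
        exact hg h1
      have hcard' : U'.card = 2 ^ n := by
        have h1 := hcard
        rw [hU, Finset.card_union_of_disjoint hdisj, Finset.card_map, pow_succ] at h1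
        omega
      obtain ⟨c, g', hg', hstd⟩ := exists_isStd h2 n U' s
        (by rw [hU', Finset.mem_filter]; exact ⟨h0, sh_zero n s⟩)
        (fun u hu v hv => by
          rw [hU', Finset.mem_filter] at hu hv ⊢
          refine ⟨hadd u hu.1 v hv.1, ?_⟩
          rw [← sh_sh, hv.2, hu.2])
        hcard' (fun u hu => (Finset.mem_filter.1 hu).2)
      refine ⟨c, Fin.cons g g', ?_, s, ?_, ?_⟩
      · intro i
        refine Fin.cases ?_ (fun i => ?_) i
        · exact hgU
        · exact (Finset.mem_filter.1 (hg' i)).1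
      · rw [Fin.cons_zero, hgs]
      · simpa using hstd

/-! ### The leaves of `T(c; g)` -/

/-- `∑ i with x i ≠ 0, g i`, for `x : Fin n → ZMod 2` -/
def lc {n : ℕ} (g : Fin n → V) (x : Fin n → ZMod 2) : V := ∑ i, if x i = 0 then 0 else g i

theorem lc_cons {n : ℕ} (g : Fin (n + 1) → V) (a : ZMod 2) (x : Fin n → ZMod 2) :
    lc g (Fin.cons a x) = (if a = 0 then 0 else g 0) + lc (fun i => g i.succ) x := by
  rw [lc, lc, Fin.sum_univ_succ]
  simp

theorem lc_zero {n : ℕ} (g : Fin n → V) : lc g 0 = 0 := by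
  simp [lc]

theorem zmod2_cases (a : ZMod 2) : a = 0 ∨ a = 1 := by
  revert a; decide

theorem lc_add (h2 : ∀ v : V, v + v = 0) {n : ℕ} (g : Fin n → V) (x y : Fin n → ZMod 2) :
    lc g (x + y) = lc g x + lc g y := by
  rw [lc, lc, lc, ← Finset.sum_add_distrib]
  refine Finset.sum_congr rfl fun i _ => ?_
  rw [Pi.add_apply]
  rcases zmod2_cases (x i) with h | h <;> rcases zmod2_cases (y i) with h' | h' <;>
    simp [h, h', h2, show (1 : ZMod 2) + 1 = 0 from rfl]

theorem IsStd.mem_leaves [DecidableEq V] {c : V} : ∀ {n : ℕ} {g : Fin n → V} {t : Tr V n},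
    IsStd c n g t → ∀ v ∈ leaves n t, ∃ x : Fin n → ZMod 2, v = c + lc g x
  | 0, g, t, h, v, hv => by
    have h1 : (t : V) = c := h
    have h3 : v ∈ ({(t : V)} : Finset V) := hv
    refine ⟨0, ?_⟩
    rw [Finset.mem_singleton.1 h3, h1, lc_zero, add_zero]
  | n + 1, g, ⟨p, hp⟩, ⟨s, hs, h⟩, v, hv => by
    subst hs
    rw [leaves_mk] at hv
    rcases Finset.mem_union.1 hv with hv | hv
    · obtain ⟨x, hx⟩ := h.mem_leaves v hv
      exact ⟨Fin.cons 0 x, by rw [lc_cons, if_pos rfl, zero_add, hx]⟩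
    · rw [leaves_sh] at hv
      obtain ⟨w, hw, rfl⟩ := Finset.mem_map.1 hv
      obtain ⟨x, hx⟩ := h.mem_leaves w hw
      refine ⟨Fin.cons 1 x, ?_⟩
      rw [lc_cons, if_neg one_ne_zero, hx, tl_apply]
      abel

theorem IsStd.self_mem [DecidableEq V] {c : V} : ∀ {n : ℕ} {g : Fin n → V} {t : Tr V n},
    IsStd c n g t → c ∈ leaves n t
  | 0, _, t, h => by
    have h1 : (t : V) = c := h
    exact Finset.mem_singleton.2 h1.symm
  | n + 1, g, ⟨p, hp⟩, ⟨s, hs, h⟩ => by
    subst hs
    rw [leaves_mk]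
    exact Finset.mem_union_left _ h.self_mem

/-- Existence of `T(c; g)` for independent `g`. -/
theorem exists_std_of_indep [DecidableEq V] (c : V) :
    ∀ (n : ℕ) (g : Fin n → V), (Function.Injective (lc g)) → ∃ t : Tr V n, IsStd c n g t
  | 0, _, _ => ⟨(c : V), rfl⟩
  | n + 1, g, hg => by
    obtain ⟨s, hs⟩ := exists_std_of_indep c n (fun i => g i.succ) (fun x y h => by
      have h3 := hg (a₁ := Fin.cons 0 x) (a₂ := Fin.cons 0 y) (by rw [lc_cons, lc_cons, h])
      funext i
      simpa using congrFun h3 i.succ)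
    refine ⟨⟨s(s, sh n (g 0) s), ?_⟩, s, rfl, hs⟩
    rw [Sym2.mk_isDiag_iff]
    intro hcon
    have h1 : g 0 + c ∈ leaves n s := by
      rw [hcon, leaves_sh]
      exact Finset.mem_map.2 ⟨c, hs.self_mem, rfl⟩
    obtain ⟨x, hx⟩ := hs.mem_leaves _ h1
    have h3 : lc g (Fin.cons 1 0) = lc g (Fin.cons 0 x) := by
      rw [lc_cons, lc_cons, if_neg one_ne_zero, if_pos rfl, zero_add, lc_zero, add_zero]
      rw [add_comm] at hx
      exact add_left_cancel hx
    have h4 := congrFun (hg h3) 0
    simp at h4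

/-- `T(c; g)` is fixed by the span of `g`. -/
theorem IsStd.fixed (h2 : ∀ v : V, v + v = 0) {c : V} : ∀ {n : ℕ} {g : Fin n → V} {t : Tr V n},
    IsStd c n g t → ∀ x, 0 < n → sh n (lc g x) t = t
  | 0, _, _, _, _, h0 => absurd h0 (lt_irrefl 0)
  | n + 1, g, ⟨p, hp⟩, ⟨s, hs, h⟩, x, _ => by
    subst hs
    have hs' : n = 0 ∨ ∀ y, sh n (lc (fun i => g i.succ) y) s = s := by
      rcases Nat.eq_zero_or_pos n with h0 | h0
      · exact Or.inl h0
      · exact Or.inr fun y => h.fixed h2 y h0
    have hs'' : ∀ y, sh n (lc (fun i => g i.succ) y) s = s := by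
      rcases hs' with h0 | h0
      · subst h0
        intro y
        have : lc (fun i => g (Fin.succ i)) y = 0 := by simp [lc]
        rw [this, sh_zero]
      · exact h0
    have hx : x = Fin.cons (x 0) (fun i => x i.succ) := (Fin.cons_self_tail x).symm
    refine Subtype.ext ?_
    show Sym2.map (sh n (lc g x)) s(s, sh n (g 0) s) = s(s, sh n (g 0) s)
    rw [Sym2.map_mk, hx, lc_cons]
    rcases zmod2_cases (x 0) with h0 | h0
    · rw [h0, if_pos rfl, zero_add, hs'', sh_comm, hs'']
    · rw [h0, if_neg one_ne_zero, ← sh_sh, hs'', ← sh_sh, sh_comm n (g 0), hs'', sh_sh, h2, sh_zero,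
        Sym2.eq_swap]

theorem leaves_eq_univ_of_fixed [DecidableEq V] [Fintype V] {n : ℕ} {t : Tr V n}
    (ht : ∀ v, sh n v t = t) : leaves n t = Finset.univ := by
  obtain ⟨c, hc⟩ := leaves_nonempty n t
  ext v
  simp only [Finset.mem_univ, iff_true]
  rw [← ht (v - c), leaves_sh]
  exact Finset.mem_map.2 ⟨c, hc, by simp⟩

/-- The trees which are invariant under all translations of `V` come from flags. -/
theorem exists_isStd_of_fixed [DecidableEq V] [Fintype V] (h2 : ∀ v : V, v + v = 0) {n : ℕ}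
    (hV : Fintype.card V = 2 ^ n) {t : Tr V n} (ht : ∀ v, sh n v t = t) :
    ∃ g : Fin n → V, IsStd 0 n g t ∧ Function.Bijective (lc g) := by
  obtain ⟨c, g, -, hg⟩ := exists_isStd h2 n Finset.univ t (Finset.mem_univ _)
    (fun _ _ _ _ => Finset.mem_univ _) (by rw [Finset.card_univ, hV]) (fun u _ => ht u)
  have h0 : IsStd 0 n g t := by
    have h1 := hg.shift c
    rwa [ht c, h2] at h1
  refine ⟨g, h0, ?_⟩
  rw [Fintype.bijective_iff_surjective_and_card]
  constructor
  · intro v
    obtain ⟨x, hx⟩ := h0.mem_leaves v (by rw [leaves_eq_univ_of_fixed ht]; exact Finset.mem_univ _)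
    exact ⟨x, by rw [hx, zero_add]⟩
  · rw [hV, Fintype.card_fun, ZMod.card, Fintype.card_fin]

theorem IsStd.fixed_of_surjective (h2 : ∀ v : V, v + v = 0) {n : ℕ} {g : Fin n → V} {t : Tr V n}
    (hg : Function.Surjective (lc g)) (ht : IsStd 0 n g t) (v : V) : sh n v t = t := by
  obtain ⟨x, rfl⟩ := hg v
  rcases Nat.eq_zero_or_pos n with h0 | h0
  · subst h0
    have : lc g x = 0 := by simp [lc]
    rw [this, sh_zero]
  · exact ht.fixed h2 x h0

/-! ### The top linear form of an invariant tree -/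

open Classical in
/-- The top form: `0` on the elements which fix the two halves of `t`, `1` on the other ones. -/
noncomputable def nu {n : ℕ} (t : Tr V (n + 1)) (v : V) : ZMod 2 :=
  if ∀ s ∈ t.1, sh n v s = s then 0 else 1

theorem nu_eq_zero_iff {n : ℕ} {t : Tr V (n + 1)} {v : V} :
    nu t v = 0 ↔ ∀ s ∈ t.1, sh n v s = s := by
  rw [nu]
  split_ifs with h
  · exact ⟨fun _ => h, fun _ => rfl⟩
  · exact ⟨fun h' => absurd h' one_ne_zero, fun h' => absurd h' h⟩

theorem IsStd.nu_lc (h2 : ∀ v : V, v + v = 0) {n : ℕ} {g : Fin (n + 1) → V} {t : Tr V (n + 1)}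
    (ht : IsStd 0 (n + 1) g t) (x : Fin (n + 1) → ZMod 2) : nu t (lc g x) = x 0 := by
  obtain ⟨s, hs, h⟩ := ht
  have hs'' : ∀ y, sh n (lc (fun i => g i.succ) y) s = s := by
    intro y
    rcases Nat.eq_zero_or_pos n with h0 | h0
    · subst h0
      have : lc (fun i => g (Fin.succ i)) y = 0 := by simp [lc]
      rw [this, sh_zero]
    · exact h.fixed h2 y h0
  have hx : x = Fin.cons (x 0) (fun i => x i.succ) := (Fin.cons_self_tail x).symm
  have hlc : lc g x = (if x 0 = 0 then 0 else g 0) + lc (fun i => g i.succ) (fun i => x i.succ) := by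
    conv_lhs => rw [hx]
    rw [lc_cons]
  rcases zmod2_cases (x 0) with h0 | h0
  · rw [h0]
    refine nu_eq_zero_iff.2 fun s' hs' => ?_
    rw [hlc, h0, if_pos rfl, zero_add]
    rw [hs] at hs'
    rcases Sym2.mem_iff.1 hs' with rfl | rfl
    · exact hs'' _
    · rw [sh_comm, hs'']
  · rw [h0]
    rcases zmod2_cases (nu t (lc g x)) with h3 | h3
    · exfalso
      have h4 := nu_eq_zero_iff.1 h3 s (hs ▸ Sym2.mem_mk_left _ _)
      rw [hlc, h0, if_neg one_ne_zero, ← sh_sh, hs''] at h4
      refine t.2 ?_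
      rw [hs, Sym2.mk_isDiag_iff]
      exact h4.symm
    · exact h3

theorem nu_mp {W : Type v} [AddCommGroup W] (A : V →+ W) (hA : Function.Injective A) {n : ℕ}
    (t : Tr V (n + 1)) (x : V) : nu (mp ⟨A, hA⟩ (n + 1) t) (A x) = nu t x := by
  have : (∀ s ∈ (mp ⟨A, hA⟩ (n + 1) t).1, sh n (A x) s = s) ↔ (∀ s ∈ t.1, sh n x s = s) := by
    rw [mp_val]
    constructor
    · intro h s hs
      have h1 := h (mp ⟨A, hA⟩ n s) (Sym2.mem_map.2 ⟨s, hs, rfl⟩)
      rw [← mp_sh] at h1
      exact mp_injective _ _ h1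
    · intro h s hs
      obtain ⟨s', hs', rfl⟩ := Sym2.mem_map.1 hs
      rw [← mp_sh, h s' hs']
  rcases zmod2_cases (nu t x) with h | h
  · rw [h]
    exact nu_eq_zero_iff.2 (this.2 (nu_eq_zero_iff.1 h))
  · rw [h]
    rcases zmod2_cases (nu (mp ⟨A, hA⟩ (n + 1) t) (A x)) with h3 | h3
    · exfalso
      have h4 := nu_eq_zero_iff.2 (this.1 (nu_eq_zero_iff.1 h3))
      rw [h4] at h
      exact zero_ne_one h
    · exact h3

/-! ### Counting -/

section count
variable [DecidableEq V]

/-- The subgroup `K` acts on the trees with leaf set `K`. -/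
def shFull (n : ℕ) (K : AddSubgroup V) (S : Finset V) (hS : ∀ v, v ∈ S ↔ v ∈ K) (u : K)
    (s : Full n S) : Full n S :=
  ⟨sh n (u : V) s.1, by
    rw [leaves_sh, s.2]
    ext x
    rw [Finset.mem_map, hS]
    constructor
    · rintro ⟨y, hy, rfl⟩
      exact K.add_mem u.2 ((hS y).1 hy)
    · intro hx
      exact ⟨-u + x, (hS _).2 (K.add_mem (K.neg_mem u.2) hx), by simp⟩⟩

/-- The number of `K`-invariant full trees on a subgroup `K` with `2^n` elements is odd. -/
theorem odd_fixedFull (h2 : ∀ v : V, v + v = 0) (n : ℕ) (K : AddSubgroup V) (S : Finset V)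
    (hS : ∀ v, v ∈ S ↔ v ∈ K) (hcard : S.card = 2 ^ n) :
    Finite {s : Full n S // ∀ u ∈ K, sh n u s.1 = s.1} ∧
      Odd (Nat.card {s : Full n S // ∀ u ∈ K, sh n u s.1 = s.1}) := by
  obtain ⟨hfin, hodd⟩ := odd_full n S hcard
  refine ⟨inferInstance, ?_⟩
  let act : MulAction (Multiplicative K) (Full n S) :=
    { smul := fun u s => shFull n K S hS u.toAdd s
      one_smul := fun s => Subtype.ext (sh_zero n s.1)
      mul_smul := fun u w s => Subtype.ext (sh_sh n _ _ s.1).symm }
  have hp : IsPGroup 2 (Multiplicative K) := fun g => ⟨1, by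
    rw [pow_one, pow_two]
    exact Multiplicative.ext (Subtype.ext (h2 _))⟩
  have h1 : Nat.card (Full n S) ≡ Nat.card (MulAction.fixedPoints (Multiplicative K) (Full n S))
      [MOD 2] := hp.card_modEq_card_fixedPoints _
  have e : MulAction.fixedPoints (Multiplicative K) (Full n S) ≃
      {s : Full n S // ∀ u ∈ K, sh n u s.1 = s.1} :=
    Equiv.subtypeEquivRight fun s => by
      rw [MulAction.mem_fixedPoints]
      constructor
      · intro h u hu
        exact congrArg Subtype.val (h (Multiplicative.ofAdd ⟨u, hu⟩))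
      · intro h u
        exact Subtype.ext (h u.toAdd.1 u.toAdd.2)
  rw [Nat.card_congr e] at h1
  rw [Nat.odd_iff] at hodd ⊢
  rw [← hodd]
  exact h1.symm

/-- The invariant trees with given top form. -/
def FixNu (n : ℕ) (χ : V → ZMod 2) : Type u :=
  {t : Tr V (n + 1) // (∀ v, sh (n + 1) v t = t) ∧ ∀ v, nu t v = χ v}

/-- The tree with halves `s` and `g + s`. -/
def dblF (n : ℕ) (g : V) (s : Tr V n) (h : s ≠ sh n g s) : Tr V (n + 1) :=
  ⟨s(s, sh n g s), by rwa [Sym2.mk_isDiag_iff]⟩

/-- The number of invariant trees with given top form is odd. -/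
theorem odd_fixNu [Fintype V] (h2 : ∀ v : V, v + v = 0) (n : ℕ) (hV : Fintype.card V = 2 ^ (n + 1))
    (χ : V →+ ZMod 2) (hχ : χ ≠ 0) : Finite (FixNu n χ) ∧ Odd (Nat.card (FixNu n χ)) := by
  classical
  obtain ⟨g, hg⟩ : ∃ g, χ g = 1 := by
    by_contra hcon
    push Not at hcon
    exact hχ (AddMonoidHom.ext fun v => (zmod2_cases (χ v)).resolve_right (hcon v))
  set S : Finset V := Finset.univ.filter (fun v => χ v = 0) with hSdef
  have hS : ∀ v, v ∈ S ↔ v ∈ χ.ker := fun v => by simp [hSdef, AddMonoidHom.mem_ker]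
  have hS0 : ∀ v, v ∈ S ↔ χ v = 0 := fun v => by simp [hSdef]
  have hdisj : Disjoint S (S.map (tl g)) := by
    rw [Finset.disjoint_left]
    intro v hv hv'
    obtain ⟨w, hw, rfl⟩ := Finset.mem_map.1 hv'
    rw [hS0] at hv hw
    rw [tl_apply, map_add, hg, hw] at hv
    exact one_ne_zero hv
  have huniv : S ∪ S.map (tl g) = Finset.univ := by
    ext v
    simp only [Finset.mem_union, Finset.mem_univ, iff_true]
    rcases zmod2_cases (χ v) with h | h
    · exact Or.inl ((hS0 v).2 h)
    · refine Or.inr (Finset.mem_map.2 ⟨g + v, (hS0 _).2 ?_, ?_⟩)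
      · rw [map_add, hg, h]; rfl
      · rw [tl_apply, ← add_assoc, h2, zero_add]
  have hcard : S.card = 2 ^ n := by
    have h1 := Finset.card_union_of_disjoint hdisj
    rw [huniv, Finset.card_univ, hV, Finset.card_map, pow_succ] at h1
    omega
  obtain ⟨hfin, hodd⟩ := odd_fixedFull h2 n χ.ker S hS hcard
  -- the two halves are different
  have hne : ∀ s : Full n S, s.1 ≠ sh n g s.1 := fun s h => by
    have h1 : S = S.map (tl g) := by
      conv_lhs => rw [← s.2]
      conv_rhs => rw [← s.2]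
      rw [← leaves_sh, ← h]
    rw [← h1, disjoint_self, Finset.bot_eq_empty] at hdisj
    rw [hdisj, Finset.card_empty] at hcard
    have : 0 < 2 ^ n := by positivity
    omega
  let F : {s : Full n S // ∀ u ∈ χ.ker, sh n u s.1 = s.1} → FixNu n χ := fun s =>
    ⟨dblF n g s.1.1 (hne s.1), by
      have hfixH : ∀ v, χ v = 0 → sh n v s.1.1 = s.1.1 := fun v hv => s.2 v (AddMonoidHom.mem_ker.2 hv)
      have hfixg : ∀ v, χ v = 1 → sh n v s.1.1 = sh n g s.1.1 := fun v hv => by
        have h1 : χ (g + v) = 0 := by rw [map_add, hg, hv]; rfl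
        have h3 := hfixH _ h1
        rw [← sh_sh] at h3
        have h4 := congrArg (sh n g) h3
        rwa [sh_sh, h2, sh_zero] at h4
      constructor
      · intro v
        refine Subtype.ext ?_
        show Sym2.map (sh n v) s(s.1.1, sh n g s.1.1) = s(s.1.1, sh n g s.1.1)
        rw [Sym2.map_mk]
        rcases zmod2_cases (χ v) with h | h
        · rw [sh_comm, hfixH v h]
        · rw [sh_comm, hfixg v h, sh_sh, h2, sh_zero, Sym2.eq_swap]
      · intro v
        rcases zmod2_cases (χ v) with h | h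
        · rw [h]
          refine nu_eq_zero_iff.2 fun s' hs' => ?_
          rcases Sym2.mem_iff.1 (show s' ∈ s(s.1.1, sh n g s.1.1) from hs') with rfl | rfl
          · exact hfixH v h
          · rw [sh_comm, hfixH v h]
        · rw [h]
          rcases zmod2_cases (nu (dblF n g s.1.1 (hne s.1)) v) with h3 | h3
          · exfalso
            have h4 := nu_eq_zero_iff.1 h3 s.1.1 (Sym2.mem_mk_left _ _)
            rw [hfixg v h] at h4
            exact hne s.1 h4.symm
          · exact h3⟩
  have hF : Function.Bijective F := by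
    constructor
    · rintro ⟨⟨s, hs⟩, hs'⟩ ⟨⟨r, hr⟩, hr'⟩ h
      have h1 : s(s, sh n g s) = s(r, sh n g r) := congrArg (fun z => z.1.1) h
      rcases Sym2.eq_iff.1 h1 with h3 | h3
      · have h4 : s = r := h3.1
        subst h4
        rfl
      · exfalso
        have h4 : S = S.map (tl g) := by
          conv_lhs => rw [← hs]
          rw [h3.1, leaves_sh, hr]
        exact hne ⟨s, hs⟩ (by
          exfalso
          rw [← h4, disjoint_self, Finset.bot_eq_empty] at hdisj
          rw [hdisj, Finset.card_empty] at hcard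
          have : 0 < 2 ^ n := by positivity
          omega)
    · rintro ⟨⟨p, hp⟩, hfix, hnu⟩
      induction p using Sym2.ind with
      | _ s s' =>
        have key : ∀ (s s' : Tr V n) (hp : ¬ (s(s, s') : Sym2 (Tr V n)).IsDiag),
            (∀ v, sh (n + 1) v (⟨s(s, s'), hp⟩ : Tr V (n + 1)) = ⟨s(s, s'), hp⟩) →
            (∀ v, nu (⟨s(s, s'), hp⟩ : Tr V (n + 1)) v = χ v) → (0 : V) ∈ leaves n s →
            ∃ a, (F a).1.1 = s(s, s') := by
          intro s s' hp hfix hnu h0
          have hH : ∀ v, χ v = 0 → sh n v s = s := fun v hv =>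
            nu_eq_zero_iff.1 ((hnu v).trans hv) s (Sym2.mem_mk_left _ _)
          have hgs : sh n g s = s' := by
            rcases sh_eq_or (hfix g) with h | h
            · exfalso
              have h3 : nu (⟨s(s, s'), hp⟩ : Tr V (n + 1)) g = 0 := nu_eq_zero_iff.2 (by
                intro r hr
                rcases Sym2.mem_iff.1 (show r ∈ s(s, s') from hr) with rfl | rfl
                · exact h.1
                · exact h.2)
              rw [hnu, hg] at h3
              exact one_ne_zero h3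
            · exact h.1
          have hsub : S ⊆ leaves n s := by
            intro v hv
            rw [hS0] at hv
            rw [← hH v hv, leaves_sh]
            exact Finset.mem_map.2 ⟨0, h0, by simp⟩
          have hleaf : leaves n s = S :=
            (Finset.eq_of_subset_of_card_le hsub (by rw [hcard]; exact leaves_card_le n s)).symm
          refine ⟨⟨⟨s, hleaf⟩, fun u hu => hH u (AddMonoidHom.mem_ker.1 hu)⟩, ?_⟩
          show s(s, sh n g s) = s(s, s')
          rw [hgs]
        have hu := leaves_eq_univ_of_fixed hfix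
        have h0 : (0 : V) ∈ leaves n s ∪ leaves n s' := by
          have h1 : leaves (n + 1) (⟨s(s, s'), hp⟩ : Tr V (n + 1)) = leaves n s ∪ leaves n s' := rfl
          rw [← h1, hu]; exact Finset.mem_univ _
        rcases Finset.mem_union.1 h0 with h | h
        · obtain ⟨a, ha⟩ := key s s' hp hfix hnu h
          exact ⟨a, Subtype.ext (Subtype.ext ha)⟩
        · have hsw : (s(s, s') : Sym2 (Tr V n)) = s(s', s) := Sym2.eq_swap
          have hp' : ¬ (s(s', s) : Sym2 (Tr V n)).IsDiag := hsw ▸ hp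
          have he : (⟨s(s, s'), hp⟩ : Tr V (n + 1)) = ⟨s(s', s), hp'⟩ := Subtype.ext hsw
          rw [he] at hfix hnu
          obtain ⟨a, ha⟩ := key s' s hp' hfix hnu h
          exact ⟨a, Subtype.ext (Subtype.ext (ha.trans hsw.symm))⟩
  have hfin2 : Finite (FixNu n χ) := Finite.of_surjective _ hF.2
  refine ⟨hfin2, ?_⟩
  rw [← Nat.card_congr (Equiv.ofBijective F hF)]
  exact hodd

end count

end

end Vale.Agent.P263.TOP.H
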