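import Vale.Agent.P263.TOP.H.LamGL

/-!
# P263, block H5 (helper774): the section over `BW_m` restricted to `BV m` is the cell map

`secDn` : if the labelled sets `q k : BW_k → Gam (2^k)` satisfy the recursion with the labels
`2 a + bit`, then `q k ∘ dn k = lam (binary numbering)`.
-/

namespace Vale.Agent.P263.TOP.H

open Finset Vale.Agent.P263.S Vale.Agent.P263.E

noncomputable section

/-- the bit of an element of `C2` -/
def btN (c : C2) : ℕ := if c = 1 then 0 else 1

theorem btN_one : btN 1 = 0 := rfl

theorem btN_tau : btN tau = 1 := rfl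

theorem btN_injective : Function.Injective btN := by decide

/-- the binary numbering -/
def eN : (k : ℕ) → VV k → ℕ
  | 0, _ => 0
  | k + 1, v => 2 * eN k (fun j => v j.succ) + btN (cA (v 0))

theorem eN_succ (k : ℕ) (v : VV (k + 1)) :
    eN (k + 1) v = 2 * eN k (fun j => v j.succ) + btN (cA (v 0)) := rfl

theorem btN_lt (c : C2) : btN c < 2 := by
  unfold btN
  split_ifs <;> norm_num

theorem eN_injective : ∀ k, Function.Injective (eN k)
  | 0 => fun v w _ => Subsingleton.elim v w
  | k + 1 => fun v w h => by
    rw [eN_succ, eN_succ] at h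
    have h1 := btN_lt (cA (v 0))
    have h2 := btN_lt (cA (w 0))
    have h3 : eN k (fun j => v j.succ) = eN k (fun j => w j.succ) := by omega
    have h4 : btN (cA (v 0)) = btN (cA (w 0)) := by omega
    have h5 : (fun j : Fin k => v j.succ) = fun j : Fin k => w j.succ := eN_injective k h3
    have h6 : v 0 = w 0 := Multiplicative.ofAdd.injective (btN_injective h4)
    funext j
    refine Fin.cases h6 (fun j => congrFun h5 j) j

theorem lamf_eN_succ (k : ℕ) {p : ℕ} (s : Fin (p + 1) → VV (k + 1)) (x : VV (k + 1)) :
    lamf (eN (k + 1)) s x = fun i => 2 * lamf (eN k) (fun i j => s i j.succ) (fun j => x j.succ) i +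
      btN (cA (x 0) * cA (s i 0)) := rfl

/-- **The section restricted to `BV m` is the cell map.** -/
theorem secDn (q : ∀ k, SS.Map (SS.BW SS.pt k) (Gam (2 ^ k)))
    (h0 : ∀ p : ℕ, ((q 0).app (p := p) ()).1 = {fun _ => 0})
    (hs : ∀ (k p : ℕ) (s : Fin (p + 1) → C2) (z z' : (SS.BW SS.pt k).obj p),
      ((q (k + 1)).app (SS.D2.mk s z z')).1 =
        ((q k).app z).1.image (fun a i => 2 * a i + btN (s i)) ∪
          ((q k).app z').1.image (fun a i => 2 * a i + btN (tau * s i))) :
    ∀ k, (q k).comp (SS.BV.dn k) = lam (eN_injective k) := by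
  intro k
  apply BVhom_ext
  intro p s
  apply Subtype.ext
  rw [SS.Map.comp_app, lam_mk]
  induction k with
  | zero =>
    refine (h0 p).trans ?_
    ext a
    rw [mem_singleton, mem_image]
    constructor
    · rintro rfl
      exact ⟨0, mem_univ _, rfl⟩
    · rintro ⟨x, -, rfl⟩
      rfl
  | succ k ih =>
    rw [dn_BVmk, hs, ih, image_image, image_image]
    ext a
    rw [mem_union, mem_image, mem_image, mem_image]
    constructor
    · rintro (⟨x, -, rfl⟩ | ⟨x, -, rfl⟩)
      · refine ⟨Fin.cons 0 x, mem_univ _, ?_⟩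
        rw [lamf_eN_succ]
        funext i
        show _ = 2 * lamf (eN k) (fun i j => s i j.succ) x i + btN (cA (s i 0))
        rw [Fin.cons_zero]
        show _ + btN (1 * cA (s i 0)) = _
        rw [one_mul]
        rfl
      · refine ⟨Fin.cons 1 x, mem_univ _, ?_⟩
        rw [lamf_eN_succ]
        rfl
    · rintro ⟨x, -, rfl⟩
      have hx : x 0 = 0 ∨ x 0 = 1 := by
        generalize x 0 = a
        revert a
        decide
      rcases hx with hx | hx
      · left
        refine ⟨fun j => x j.succ, mem_univ _, ?_⟩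
        rw [lamf_eN_succ, hx]
        funext i
        show 2 * _ + btN (cA (s i 0)) = 2 * _ + btN (1 * cA (s i 0))
        rw [one_mul]
      · right
        refine ⟨fun j => x j.succ, mem_univ _, ?_⟩
        rw [lamf_eN_succ, hx]
        rfl

end

end Vale.Agent.P263.TOP.H
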