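import Vale.Agent.P263.TOP.H.TopThm
import Vale.Agent.P263.TOP.H.SecLam
import Vale.Agent.P263.TOP.H.Full

/-!
# P263, section [H] (helper354): the object `fullData : FullData`; `AllStmt`
-/

namespace Vale.Agent.P263.TOP.H

open Finset Vale.Agent.P263.S Vale.Agent.P263.E Vale.Agent.P263.TI Vale.Agent.P263.TW

noncomputable section

/-- the leaves of the standard tree of a simplex of `BV k` -/
theorem psec_dn (k : ℕ) : (psec k).comp (SS.BV.dn k) = lam (eN_injective k) :=
  secDn psec (fun _ => rfl) (fun k _ s z z' => psec_mk k s z z') k

/-- the transfer over the full trees, its section and the cell map -/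
def lres (m : ℕ) : LRes m where
  L := LL m (2 ^ m)
  hL _ _ _ := rfl
  res d := ((psec m).pull (R := ZMod 2)).mapH d
  L_res d x := LL_psec m d x
  e := eN m
  he := eN_injective m
  dn_res d x := by
    rw [← Hom.mapH_comp, ← SS.Map.pull_comp]
    exact congrArg (fun f : SS.Map (SS.BV m) (Gam (2 ^ m)) => (f.pull (R := ZMod 2)).mapH d x)
      (psec_dn m)

/-- **`FullData`** -/
def fullData : FullData := ⟨lres, fun _ => rfl⟩

/-- **Output of section H, first part, for a standard tower model.** -/
theorem topStmt {M : TowerModel} {P : PolD} (hM : MData M P) : TopStmt M :=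
  topStmt_of hM fullData

/-- **Output of section H, second part.** -/
theorem allStmt : AllStmt := allStmt_of fullData

end

end Vale.Agent.P263.TOP.H
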