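import Vale.Agent.P263.TI.Alg

/-!
# P263, section [H]: classes vanishing on `V_n` are transfers from intransitive subgroups

Abstract form.  `Intr T` records, for the tower `T` of the cohomology groups of the iterated
wreath products, submodules `I n q` (the transfers from intransitive subgroups) with the four
facts which the geometry supplies; `Intr.mem_of_r_eq_zero` : a class which restricts to `0` on
`V_n` lies in `I n`.
-/

namespace Vale.Agent.P263.H

open Vale.Agent.P263.LZ Vale.Agent.P263.EX Vale.Agent.P263.EX.GE Vale.Agent.P263.TI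

/-- The submodules of transfers from intransitive subgroups. -/
structure Intr (T : Tower) where
  I : ∀ n q, Submodule (ZMod 2) (T.H n q)
  /-- `P` of a transfer from an intransitive subgroup is such a transfer -/
  up_mem : ∀ (n j q q' : ℕ) (h : j + 2 * q = q') (y : T.H n q), y ∈ I n q →
    T.up n j q q' h y ∈ I (n + 1) q'
  /-- the structure of `H^*(D_2 Z)` -/
  span : ∀ (n d : ℕ) (w : T.H (n + 1) d), ∃ x : ∀ q : ℕ, T.H n q,
    w - ∑ i : Fin (d / 2 + 1), T.up n (d - 2 * i) i d (by have := i.2; omega) (x i) ∈ I (n + 1) d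
  /-- transfers from intransitive subgroups vanish on `V_n` -/
  r_I : ∀ (n q : ℕ) (y : T.H n q), y ∈ I n q → T.r n q y = 0

theorem indep_fin {n d : ℕ} (g : ℕ → S n)
    (h : ∑ i : Fin (d / 2 + 1), (MvPolynomial.X 0 : S (n + 1)) ^ (d - 2 * (i : ℕ)) * St n (g i) = 0)
    (i : ℕ) (hi : i < d / 2 + 1) : g i = 0 := by
  rw [Fin.sum_univ_eq_sum_range (fun i => (MvPolynomial.X 0 : S (n + 1)) ^ (d - 2 * i) *
    St n (g i)) (d / 2 + 1), ← Finset.sum_range_reflect] at h
  have h1 : (MvPolynomial.X 0 : S (n + 1)) ^ (d % 2) *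
      ∑ j ∈ Finset.range (d / 2 + 1), ((MvPolynomial.X 0 : S (n + 1)) ^ 2) ^ j *
        St n (g (d / 2 - j)) = 0 := by
    rw [← h, Finset.mul_sum]
    refine Finset.sum_congr rfl (fun j hj => ?_)
    have hj' := Finset.mem_range.1 hj
    rw [← mul_assoc, ← pow_mul, ← pow_add]
    congr 2
    · omega
  have h2 := (mul_eq_zero.1 h1).resolve_left (pow_ne_zero _ X_ne_zero')
  have h3 := indep (n := n) (p := 2) (by norm_num) (d / 2 + 1) (fun j => g (d / 2 - j)) h2
    (d / 2 - i) (by omega)
  have h4 : d / 2 - (d / 2 - i) = i := by omega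
  simpa [h4] using h3

/-- **Detection**: a class of `H^q(BW_n)` which vanishes on `V_n` is a sum of transfers from
intransitive subgroups. -/
theorem Intr.mem_of_r_eq_zero {T : Tower} (K : Intr T) : ∀ (n q : ℕ) (w : T.H n q),
    T.r n q w = 0 → w ∈ K.I n q := by
  intro n
  induction n with
  | zero =>
    intro q w hw
    have : w = 0 := T.r_inj q (by rw [hw, map_zero])
    rw [this]; exact (K.I 0 q).zero_mem
  | succ n ih =>
    intro d w hw
    obtain ⟨x, hx⟩ := K.span n d w
    have h1 := K.r_I (n + 1) d _ hx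
    rw [map_sub, hw, zero_sub, neg_eq_zero, map_sum] at h1
    simp only [T.r_up] at h1
    have h2 : ∀ i : ℕ, i < d / 2 + 1 → T.r n i (x i) = 0 :=
      indep_fin (fun i => T.r n i (x i)) h1
    have h3 : ∑ i : Fin (d / 2 + 1), T.up n (d - 2 * i) i d (by have := i.2; omega) (x i) ∈
        K.I (n + 1) d :=
      Submodule.sum_mem _ (fun i _ => K.up_mem _ _ _ _ _ _ (ih _ _ (h2 i i.2)))
    have h4 := (K.I (n + 1) d).add_mem hx h3
    rwa [sub_add_cancel] at h4

/-- A functional which kills the transfers from intransitive subgroups factors through the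
restriction to `V_n`. -/
theorem Intr.phi_eq {T : Tower} (K : Intr T) {n q : ℕ} (phi : T.H n q →ₗ[ZMod 2] ZMod 2)
    (hphi : ∀ w ∈ K.I n q, phi w = 0) {w w' : T.H n q} (h : T.r n q w = T.r n q w') :
    phi w = phi w' := by
  have h1 : T.r n q (w - w') = 0 := by rw [map_sub, h, sub_self]
  have h2 := hphi _ (K.mem_of_r_eq_zero n q _ h1)
  rw [map_sub, sub_eq_zero] at h2
  exact h2

end Vale.Agent.P263.H
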