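import Vale.Agent.P263.TOP.H.TrTW
import Vale.Agent.P263.TOP.H.BVg

/-!
# P263, section [H-FLAG], F3: relabelling (helper354)

`Wd n g O s` is the simplex of `BW pt n` given by a flag `g` and an orientation `O i` of the nodes at
every vertex `i`.  Two orientations give homotopic maps `BV m → BW pt m`; the classifying map of an
invariant tree is of this form, and so is the iterated diagonal composed with a linear isomorphism.
-/

namespace Vale.Agent.P263.TOP.H

open Vale.Agent.P263.S Vale.Agent.P263.E

noncomputable section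

variable {V : Type} [AddCommGroup V]

/-! ### standard trees -/

/-- the standard weak tree with corner `c` and flag `g` -/
def stdTW : (n : ℕ) → (Fin n → V) → V → TW V n
  | 0, _, c => c
  | n + 1, g, c => s(stdTW n (fun j => g j.succ) c, stdTW n (fun j => g j.succ) (g 0 + c))

theorem stdTW_succ (n : ℕ) (g : Fin (n + 1) → V) (c : V) :
    stdTW (n + 1) g c =
      s(stdTW n (fun j => g j.succ) c, stdTW n (fun j => g j.succ) (g 0 + c)) := rfl

theorem IsStd.toTW_eq {c : V} : ∀ {n : ℕ} {g : Fin n → V} {t : Tr V n}, IsStd c n g t →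
    toTW n t = stdTW n g c
  | 0, _, _, h => h
  | n + 1, g, t, ⟨s, hs, h⟩ => by
    rw [toTW_succ, hs, Sym2.map_mk, h.toTW_eq, (h.shift (g 0)).toTW_eq, stdTW_succ]

theorem map_stdTW (v : V) : ∀ (n : ℕ) (g : Fin n → V) (c : V),
    TW.map (fun x => v + x) n (stdTW n g c) = stdTW n g (v + c)
  | 0, _, _ => rfl
  | n + 1, g, c => by
    rw [stdTW_succ, stdTW_succ, TW.map_mk, map_stdTW v n, map_stdTW v n, add_left_comm]

theorem stdTW_add_gen (h2 : ∀ v : V, v + v = 0) : ∀ (n : ℕ) (g : Fin n → V) (k : Fin n) (c : V),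
    stdTW n g (g k + c) = stdTW n g c
  | n + 1, g, k, c => by
    rw [stdTW_succ, stdTW_succ]
    refine Fin.cases ?_ (fun k => ?_) k
    · rw [← add_assoc (g 0) (g 0) c, h2, zero_add]
      exact Sym2.eq_swap
    · rw [stdTW_add_gen h2 n (fun j => g j.succ) k c, add_left_comm,
        stdTW_add_gen h2 n (fun j => g j.succ) k (g 0 + c)]

/-- the standard tree with flag `g` is proper -/
def Prp : (n : ℕ) → (Fin n → V) → Prop
  | 0, _ => True
  | n + 1, g => (∀ c, stdTW n (fun j => g j.succ) c ≠ stdTW n (fun j => g j.succ) (g 0 + c)) ∧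
      Prp n (fun j => g j.succ)

theorem IsStd.prp {c : V} : ∀ {n : ℕ} {g : Fin n → V} {t : Tr V n}, IsStd c n g t → Prp n g
  | 0, _, _, _ => trivial
  | n + 1, g, t, ⟨s, hs, h⟩ => by
    refine ⟨fun c' hc => ?_, h.prp⟩
    have h1 := t.2
    rw [hs, Sym2.mk_isDiag_iff] at h1
    apply h1
    apply toTW_injective n
    rw [h.toTW_eq, (h.shift (g 0)).toTW_eq]
    have h2 := congrArg (TW.map (fun x => (c - c') + x) n) hc
    rw [map_stdTW, map_stdTW, sub_add_cancel, add_left_comm, sub_add_cancel] at h2
    exact h2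

theorem TW.map_injective {α β : Type} {f : α → β} (hf : Function.Injective f) :
    ∀ n : ℕ, Function.Injective (TW.map f n)
  | 0 => hf
  | n + 1 => Sym2.map.injective (TW.map_injective hf n)

/-! ### orientations -/

/-- the relative order of two trees of natural numbers -/
def ordN (n : ℕ) (a b : TW ℕ n) : C2 := if code n a < code n b then 1 else tau

theorem ordN_symm (n : ℕ) {a b : TW ℕ n} (h : a ≠ b) : ordN n b a = tau * ordN n a b := by
  unfold ordN
  have h1 : code n a ≠ code n b := fun h' => h (code_injective n h')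
  rcases lt_or_gt_of_ne h1 with h2 | h2
  · rw [if_neg (not_lt.2 h2.le), if_pos h2, mul_one]
  · rw [if_pos h2, if_neg (not_lt.2 h2.le), tau_mul_tau]

theorem ord_apply {p : ℕ} (n : ℕ) (s t : TW (Lab p) n) (i : Fin (p + 1)) :
    ord n s t i = ordN n (ev n i s) (ev n i t) := rfl

/-- orientations adapted to a flag -/
structure Ori (n : ℕ) (g : Fin n → V) (o : Fin n → V → C2) : Prop where
  flip : ∀ j v, o j (g j + v) = tau * o j v
  inv : ∀ j k, j < k → ∀ v, o j (g k + v) = o j v

theorem Ori.tail {n : ℕ} {g : Fin (n + 1) → V} {o : Fin (n + 1) → V → C2} (h : Ori (n + 1) g o) :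
    Ori n (fun j => g j.succ) (fun j => o j.succ) :=
  ⟨fun j v => h.flip j.succ v, fun j k hjk v => h.inv j.succ k.succ (Fin.succ_lt_succ_iff.2 hjk) v⟩

/-- the orientation given by the order of the codes of the labels -/
def oc (e : V → ℕ) : (n : ℕ) → (g : Fin n → V) → (c : V) → Fin n → V → C2
  | 0, _, _ => fun j _ => j.elim0
  | n + 1, g, c => Fin.cases
      (fun v => ordN n (TW.map e n (stdTW n (fun j => g j.succ) (v + c)))
        (TW.map e n (stdTW n (fun j => g j.succ) (v + (g 0 + c)))))
      (fun j => oc e n (fun j => g j.succ) c j)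

theorem oc_zero (e : V → ℕ) (n : ℕ) (g : Fin (n + 1) → V) (c v : V) :
    oc e (n + 1) g c 0 v = ordN n (TW.map e n (stdTW n (fun j => g j.succ) (v + c)))
        (TW.map e n (stdTW n (fun j => g j.succ) (v + (g 0 + c)))) := rfl

theorem oc_succ (e : V → ℕ) (n : ℕ) (g : Fin (n + 1) → V) (c v : V) (j : Fin n) :
    oc e (n + 1) g c j.succ v = oc e n (fun j => g j.succ) c j v := rfl

theorem oc_ori (h2 : ∀ v : V, v + v = 0) {e : V → ℕ} (he : Function.Injective e) :
    ∀ (n : ℕ) (g : Fin n → V) (c : V), Prp n g → Ori n g (oc e n g c)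
  | 0, _, _, _ => ⟨fun j => j.elim0, fun j => j.elim0⟩
  | n + 1, g, c, h => by
    have ih := oc_ori h2 he n (fun j => g j.succ) c h.2
    refine ⟨fun j v => ?_, fun j k hjk v => ?_⟩
    · refine Fin.cases ?_ (fun j => ?_) j
      · rw [oc_zero, oc_zero]
        have e1 : g 0 + v + c = v + (g 0 + c) := by abel
        have e2 : g 0 + v + (g 0 + c) = v + c := by
          have : g 0 + v + (g 0 + c) = (g 0 + g 0) + (v + c) := by abel
          rw [this, h2, zero_add]
        rw [e1, e2]
        apply ordN_symm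
        intro h3
        have h4 := TW.map_injective he n h3
        have e3 : v + (g 0 + c) = g 0 + (v + c) := by abel
        rw [e3] at h4
        exact h.1 _ h4
      · exact ih.flip j v
    · obtain ⟨k, rfl⟩ : ∃ k' : Fin n, k = k'.succ :=
        ⟨k.pred (fun h0 => by rw [h0] at hjk; exact absurd hjk (Fin.not_lt_zero j)),
          (Fin.succ_pred _ _).symm⟩
      revert hjk
      refine Fin.cases (fun _ => ?_) (fun j hjk => ?_) j
      · rw [oc_zero, oc_zero, add_assoc, add_assoc,
          stdTW_add_gen h2 n (fun j => g j.succ) k (v + c),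
          stdTW_add_gen h2 n (fun j => g j.succ) k (v + (g 0 + c))]
      · exact ih.inv j k (Fin.succ_lt_succ_iff.1 hjk) v

/-- the orientation given by coordinates -/
def ol {n : ℕ} (χ : V →+ VV n) : Fin n → V → C2 := fun j v => cA (χ v j)

theorem ol_ori {n : ℕ} {g : Fin n → V} {χ : V →+ VV n} (h : ∀ k, χ (g k) = Pi.single k 1) :
    Ori n g (ol χ) := by
  refine ⟨fun j v => ?_, fun j k hjk v => ?_⟩
  · show cA (χ (g j + v) j) = _
    rw [map_add, h, Pi.add_apply, Pi.single_eq_same, cA_add]
    rfl
  · show cA (χ (g k + v) j) = _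
    rw [map_add, h, Pi.add_apply, Pi.single_eq_of_ne hjk.ne, zero_add]
    rfl

/-! ### the simplices of `BW` given by orientations -/

/-- the simplex given by a flag and an orientation at every vertex -/
def Wd {p : ℕ} : (n : ℕ) → (Fin n → V) → (Fin (p + 1) → Fin n → V → C2) → (Fin (p + 1) → V) →
    (SS.BW SS.pt n).obj p
  | 0, _, _, _ => ()
  | n + 1, g, O, s => SS.D2.mk (fun i => O i 0 (s i))
      (Wd n (fun j => g j.succ) (fun i j => O i j.succ) s)
      (Wd n (fun j => g j.succ) (fun i j => O i j.succ) (fun i => g 0 + s i))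

theorem Wd_succ {p : ℕ} (n : ℕ) (g : Fin (n + 1) → V) (O : Fin (p + 1) → Fin (n + 1) → V → C2)
    (s : Fin (p + 1) → V) : Wd (n + 1) g O s = SS.D2.mk (fun i => O i 0 (s i))
      (Wd n (fun j => g j.succ) (fun i j => O i j.succ) s)
      (Wd n (fun j => g j.succ) (fun i j => O i j.succ) (fun i => g 0 + s i)) := rfl

theorem Wd_map : ∀ (n : ℕ) (g : Fin n → V) {p q : ℕ} (a : Op p q)
    (O : Fin (q + 1) → Fin n → V → C2) (s : Fin (q + 1) → V),
    Wd n g (fun i => O (a i)) (fun i => s (a i)) = (SS.BW SS.pt n).map a (Wd n g O s)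
  | 0, _, _, _, _, _, _ => rfl
  | n + 1, g, p, q, a, O, s => by
    rw [Wd_succ, Wd_succ]
    show _ = (SS.D2 (SS.BW SS.pt n)).map a _
    rw [SS.D2.map_mk, ← Wd_map n, ← Wd_map n]

theorem Wd_add_gen (h2 : ∀ v : V, v + v = 0) {p : ℕ} : ∀ (n : ℕ) (g : Fin n → V)
    (O : Fin (p + 1) → Fin n → V → C2), (∀ i, Ori n g (O i)) → ∀ (k : Fin n)
    (s : Fin (p + 1) → V), Wd n g O (fun i => g k + s i) = Wd n g O s
  | n + 1, g, O, hO, k, s => by
    have ih := Wd_add_gen h2 n (fun j => g j.succ) (fun i j => O i j.succ) (fun i => (hO i).tail)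
    rw [Wd_succ, Wd_succ]
    revert k
    intro k
    refine Fin.cases ?_ (fun k => ?_) k
    · have e1 : (fun i => O i 0 (g 0 + s i)) = fun i => tau * O i 0 (s i) :=
        funext fun i => (hO i).flip 0 (s i)
      have e2 : (fun i => g 0 + (g 0 + s i)) = s := by
        funext i
        rw [← add_assoc, h2, zero_add]
      rw [e1, e2]
      exact SS.D2.mk_swap _ _ _
    · have e1 : (fun i => O i 0 (g k.succ + s i)) = fun i => O i 0 (s i) :=
        funext fun i => (hO i).inv 0 k.succ (Fin.succ_pos k) (s i)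
      have e2 : (fun i => g 0 + (g k.succ + s i)) = fun i => g k.succ + (g 0 + s i) := by
        funext i
        exact add_left_comm _ _ _
      rw [e1, e2, ih k s, ih k (fun i => g 0 + s i)]

theorem Wd_add_lc (h2 : ∀ v : V, v + v = 0) {p : ℕ} (n : ℕ) (g : Fin n → V)
    (O : Fin (p + 1) → Fin n → V → C2) (hO : ∀ i, Ori n g (O i)) (x : Fin n → ZMod 2)
    (s : Fin (p + 1) → V) : Wd n g O (fun i => lc g x + s i) = Wd n g O s := by
  have key : ∀ T : Finset (Fin n),
      Wd n g O (fun i => (∑ j ∈ T, if x j = 0 then 0 else g j) + s i) = Wd n g O s := by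
    intro T
    induction T using Finset.induction_on with
    | empty => simp
    | insert a T ha ih =>
      rw [Finset.sum_insert ha]
      by_cases h : x a = 0
      · rw [if_pos h]
        simpa using ih
      · rw [if_neg h]
        have e1 : (fun i => g a + (∑ j ∈ T, if x j = 0 then 0 else g j) + s i) =
            fun i => g a + ((∑ j ∈ T, if x j = 0 then 0 else g j) + s i) := by
          funext i
          rw [add_assoc]
        rw [e1, Wd_add_gen h2 n g O hO a
          (fun i => (∑ j ∈ T, if x j = 0 then 0 else g j) + s i), ih]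
  exact key Finset.univ

/-- the iterated diagonal -/
theorem Wd_lin {p : ℕ} : ∀ (n : ℕ) (g : Fin n → V) (χ : V →+ VV n)
    (_ : ∀ k, χ (g k) = Pi.single k 1) (s : Fin (p + 1) → V),
    Wd n g (fun _ => ol χ) s = (SS.BV.dn n).app (BVmk n (fun i => χ (s i)))
  | 0, _, _, _, _ => rfl
  | n + 1, g, χ, h, s => by
    let T : VV (n + 1) →+ VV n :=
      { toFun := fun x j => x j.succ
        map_zero' := rfl
        map_add' := fun _ _ => rfl }
    have hT : ∀ k, (T.comp χ) (g k.succ) = Pi.single k 1 := by
      intro k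
      funext j
      show χ (g k.succ) j.succ = _
      rw [h]
      by_cases hjk : j = k
      · subst hjk
        rw [Pi.single_eq_same, Pi.single_eq_same]
      · rw [Pi.single_eq_of_ne hjk, Pi.single_eq_of_ne (fun h' => hjk (Fin.succ_injective n h'))]
    have h0 : ∀ j : Fin n, χ (g 0) j.succ = 0 := by
      intro j
      rw [h, Pi.single_eq_of_ne (Fin.succ_ne_zero j)]
    rw [Wd_succ, dn_BVmk]
    have e1 := Wd_lin n (fun j => g j.succ) (T.comp χ) hT s
    have e2 := Wd_lin n (fun j => g j.succ) (T.comp χ) hT (fun i => g 0 + s i)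
    have e3 : (fun i => (T.comp χ) (g 0 + s i)) = fun i => (T.comp χ) (s i) := by
      funext i j
      show χ (g 0 + s i) j.succ = χ (s i) j.succ
      rw [map_add, Pi.add_apply, h0, zero_add]
    rw [e3] at e2
    exact congrArg₂ (fun a b => SS.D2.mk (fun i => cA (χ (s i) 0)) a b) e1 e2

/-! ### labels -/

/-- the label vector of a point -/
def lamf (e : V → ℕ) {p : ℕ} (s : Fin (p + 1) → V) (v : V) : Lab p := fun i => e (v + s i)

theorem ev_lamf (e : V → ℕ) {p : ℕ} (s : Fin (p + 1) → V) (n : ℕ) (g : Fin n → V) (c : V)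
    (i : Fin (p + 1)) :
    ev n i (TW.map (lamf e s) n (stdTW n g c)) = TW.map e n (stdTW n g (s i + c)) := by
  unfold ev
  rw [TW.map_map, ← map_stdTW, TW.map_map]
  congr 1
  funext v
  show e (v + s i) = e (s i + v)
  rw [add_comm]

/-- the classifying map on a standard tree of label vectors -/
theorem cl_std {e : V → ℕ} (he : Function.Injective e) {p : ℕ} : ∀ (n : ℕ) (g : Fin n → V),
    Prp n g → ∀ (c : V) (s : Fin (p + 1) → V),
      cl n (TW.map (lamf e s) n (stdTW n g c)) = Wd n g (fun _ => oc e n g c) s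
  | 0, _, _, _, _ => rfl
  | n + 1, g, h, c, s => by
    have hne : ∀ i, ev n i (TW.map (lamf e s) n (stdTW n (fun j => g j.succ) c)) ≠
        ev n i (TW.map (lamf e s) n (stdTW n (fun j => g j.succ) (g 0 + c))) := by
      intro i
      rw [ev_lamf, ev_lamf]
      intro h'
      have h'' := TW.map_injective he n h'
      rw [add_left_comm] at h''
      exact h.1 _ h''
    rw [stdTW_succ, TW.map_mk, cl_mk_of_ne n hne, Wd_succ]
    have e1 : ord n (TW.map (lamf e s) n (stdTW n (fun j => g j.succ) c))
        (TW.map (lamf e s) n (stdTW n (fun j => g j.succ) (g 0 + c))) =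
        fun i => oc e (n + 1) g c 0 (s i) := by
      funext i
      rw [ord_apply, ev_lamf, ev_lamf, oc_zero]
    have e2 : TW.map (lamf e s) n (stdTW n (fun j => g j.succ) (g 0 + c)) =
        TW.map (lamf e (fun i => g 0 + s i)) n (stdTW n (fun j => g j.succ) c) := by
      rw [← map_stdTW, TW.map_map]
      congr 1
      funext v i
      show e (g 0 + v + s i) = e (v + (g 0 + s i))
      congr 1
      abel
    rw [e1, e2, cl_std he n _ h.2, cl_std he n _ h.2]
    rfl

end

end Vale.Agent.P263.TOP.H
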