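import Vale.Agent.P263.TOP.H.FixPt
import Vale.Agent.P263.TOP.H.BVg

/-!
# P263, section [H-FLAG] (helper354): transfers to `BV m` of finite families with `𝔽₂^m`-action

`VCorr m X Z`: a finite family (indexed by a set `X` with an action of `𝔽₂^m`) of simplices of `Z`
over the simplices of `BV m`.  `VCorr.tr` is the transfer, and `VCorr.mapH_tr` is the fixed point
formula in cohomology with coefficients in a ring with `2 = 0`.
-/

namespace Vale.Agent.P263.TOP.H

open Vale.Agent.P263.S Vale.Agent.P263.E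

noncomputable section

/-- A family of simplices of `Z` over `BV m`, indexed by a set with an action of `𝔽₂^m`. -/
structure VCorr (m : ℕ) (X : Type) [MulAction (Multiplicative (VV m)) X] (Z : SS) where
  /-- the simplex of `Z` over `[s]` with index `x` -/
  K : ∀ {p : ℕ}, (Fin (p + 1) → VV m) → X → Z.obj p
  inv : ∀ {p : ℕ} (g : VV m) (s : Fin (p + 1) → VV m) (x : X),
    K (fun i => g + s i) (Multiplicative.ofAdd g • x) = K s x
  nat : ∀ {p q : ℕ} (a : Op p q) (s : Fin (q + 1) → VV m) (x : X),
    K (fun i => s (a i)) x = Z.map a (K s x)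

namespace VCorr

variable {m : ℕ} {X : Type} [MulAction (Multiplicative (VV m)) X] {Z : SS} (c : VCorr m X Z)
variable (R : Type) [CommRing R]

/-- the associated map to homotopy fixed points -/
def toHom : Hom (SS.F R Z) (hG (actS (Multiplicative (VV m)) X (SS.F R SS.pt))) where
  app p :=
    { toFun := fun w => mkS (fun s x => fun _ => w (c.K (fun i => Multiplicative.toAdd (s i)) x))
        (fun g s x => by
          funext _
          exact congrArg w (c.inv (Multiplicative.toAdd g)
            (fun i => Multiplicative.toAdd (s i)) x))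
      map_add' := fun _ _ => rfl
      map_smul' := fun _ _ => rfl }
  nat {p q} a w := val_ext fun s x => by
    funext _
    exact congrArg w (c.nat a (fun i => Multiplicative.toAdd (s i)) x).symm

/-- the transfer -/
def tr [Fintype X] : Hom (SS.F R Z) (SS.F R (SS.BV m)) :=
  (hGtoBV R m).comp ((trS (Multiplicative (VV m)) X (SS.F R SS.pt)).comp (c.toHom R))

variable {R}

theorem tr_mk [Fintype X] {p : ℕ} (w : (SS.F R Z).obj p) (s : Fin (p + 1) → VV m) :
    (c.tr R).app p w (BVmk m s) = ∑ x, w (c.K s x) := by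
  have h : (c.tr R).app p w (BVmk m s) =
      (hG.fn ((trS (Multiplicative (VV m)) X (SS.F R SS.pt)).app p ((c.toHom R).app p w))
        (fun i => Multiplicative.ofAdd (s i)) : Unit → R) () :=
    hGtoBV_mk R m ((trS (Multiplicative (VV m)) X (SS.F R SS.pt)).app p
      ((c.toHom R).app p w)) s
  rw [h, trS_fn]
  exact Finset.sum_apply (M := fun _ : Unit => R) () Finset.univ
    (fun x => (fun _ : Unit => w (c.K s x)))

/-- the map given by a fixed point -/
def pt (x : X) (hx : ∀ g : Multiplicative (VV m), g • x = x) : SS.Map (SS.BV m) Z :=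
  BVhom (fun s => c.K s x) (fun v s => by
    have h := c.inv v s x
    rwa [hx] at h) (fun a s => c.nat a s x)

theorem pt_mk (x : X) (hx : ∀ g : Multiplicative (VV m), g • x = x) {p : ℕ}
    (s : Fin (p + 1) → VV m) : (c.pt x hx).app (BVmk m s) = c.K s x :=
  BVrep_mk (fun s => c.K s x) (fun v s => by
    have h := c.inv v s x
    rwa [hx] at h) s

theorem pull_pt (x : X) (hx : ∀ g : Multiplicative (VV m), g • x = x) {p : ℕ}
    (w : (SS.F R Z).obj p) : ((c.pt x hx).pull (R := R)).app p w =
      (hGtoBV R m).app p ((evS (SS.F R SS.pt) x hx).app p ((c.toHom R).app p w)) := by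
  funext y
  obtain ⟨s, rfl⟩ := BVmk_surjective m y
  rw [hGtoBV_mk, SS.Map.pull_app, pt_mk]
  rfl

/-- **Fixed point formula**: the transfer of a cocycle is cohomologous to the sum over the fixed
points. -/
theorem tr_sub_mem [Fintype X] [DecidablePred fun x : X => stab (W := VV m) x = ⊤]
    (h2 : (2 : R) = 0) {p : ℕ} {w : (SS.F R Z).obj p} (hw : w ∈ (SS.F R Z).Z p) :
    (c.tr R).app p w - ∑ x : {x : X // stab (W := VV m) x = ⊤},
      ((c.pt x.1 (fixed_iff.1 x.2)).pull (R := R)).app p w ∈ (SS.F R (SS.BV m)).Bd p := by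
  have h1 := (hGtoBV R m).app_mem_Bd (trS_sub_mem (W := VV m) (X := X) (B := SS.F R SS.pt) h2
    ((c.toHom R).app_mem_Z hw))
  rw [map_sub, map_sum] at h1
  have h3 : ∑ x : {x : X // stab (W := VV m) x = ⊤},
      ((c.pt x.1 (fixed_iff.1 x.2)).pull (R := R)).app p w =
      ∑ x : {x : X // stab (W := VV m) x = ⊤}, (hGtoBV R m).app p
        ((evS (SS.F R SS.pt) x.1 (fixed_iff.1 x.2)).app p ((c.toHom R).app p w)) :=
    Finset.sum_congr rfl fun x _ => c.pull_pt x.1 _ w
  rw [h3]
  exact h1

/-- **Fixed point formula** in cohomology. -/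
theorem mapH_tr [Fintype X] [DecidablePred fun x : X => stab (W := VV m) x = ⊤]
    (h2 : (2 : R) = 0) (p : ℕ) (w : (SS.F R Z).H p) :
    (c.tr R).mapH p w = ∑ x : {x : X // stab (W := VV m) x = ⊤},
      ((c.pt x.1 (fixed_iff.1 x.2)).pull (R := R)).mapH p w := by
  obtain ⟨w, rfl⟩ := CosMod.cls_surjective _ p w
  simp only [Hom.mapH_cls]
  rw [← map_sum, CosMod.cls_eq_iff, Submodule.coe_sum]
  exact c.tr_sub_mem h2 w.2

/-- Without fixed points the transfer vanishes in cohomology. -/
theorem mapH_tr_eq_zero [Fintype X] (h2 : (2 : R) = 0)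
    (hX : ∀ x : X, ∃ g : Multiplicative (VV m), g • x ≠ x) (p : ℕ) (w : (SS.F R Z).H p) :
    (c.tr R).mapH p w = 0 := by
  classical
  rw [c.mapH_tr h2]
  have : IsEmpty {x : X // stab (W := VV m) x = ⊤} := by
    refine ⟨fun x => ?_⟩
    obtain ⟨g, hg⟩ := hX x.1
    exact hg (fixed_iff.1 x.2 g)
  exact Finset.sum_of_isEmpty _

end VCorr

end

end Vale.Agent.P263.TOP.H
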