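import Vale.Agent.P263.TOP.H.Relabel
import Vale.Agent.P263.TOP.H.VCorr

/-!
# P263, section [H-FLAG], F4a (helper354): the restriction to `BV m` of the transfer of full trees

`lam e : BV m → Gam (2^m)`, `[s] ↦ {e (v + s_i) : v}`.  For a class `w` on `BW pt m` the pull-back
along `lam e` of the sum over the full trees is the sum over the invariant trees `t` (flags) of the
pull-backs of `w` along the iterated diagonal and the linear isomorphism given by the flag of `t`.
-/

namespace Vale.Agent.P263.TOP.H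

open Finset Vale.Agent.P263.S Vale.Agent.P263.E

noncomputable section

/-! ### coordinates -/

section
variable {V : Type} [AddCommGroup V]

theorem lc_single {n : ℕ} (g : Fin n → V) (k : Fin n) : lc g (Pi.single k 1) = g k := by
  rw [lc, Finset.sum_eq_single k]
  · rw [Pi.single_eq_same, if_neg one_ne_zero]
  · intro j _ hj
    rw [Pi.single_eq_of_ne hj, if_pos rfl]
  · intro h
    exact absurd (mem_univ k) h

/-- the linear combinations as an additive map -/
def lcHom (h2 : ∀ v : V, v + v = 0) {n : ℕ} (g : Fin n → V) : VV n →+ V where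
  toFun := lc g
  map_zero' := lc_zero g
  map_add' := lc_add h2 g

/-- the coordinates with respect to a flag -/
def coords (h2 : ∀ v : V, v + v = 0) {n : ℕ} (g : Fin n → V) (hg : Function.Bijective (lc g)) :
    V →+ VV n :=
  (AddEquiv.ofBijective (lcHom h2 g) hg).symm.toAddMonoidHom

theorem coords_lc (h2 : ∀ v : V, v + v = 0) {n : ℕ} (g : Fin n → V)
    (hg : Function.Bijective (lc g)) (x : VV n) : coords h2 g hg (lc g x) = x :=
  (AddEquiv.ofBijective (lcHom h2 g) hg).symm_apply_apply x

theorem lc_coords (h2 : ∀ v : V, v + v = 0) {n : ℕ} (g : Fin n → V)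
    (hg : Function.Bijective (lc g)) (v : V) : lc g (coords h2 g hg v) = v :=
  (AddEquiv.ofBijective (lcHom h2 g) hg).apply_symm_apply v

theorem coords_gen (h2 : ∀ v : V, v + v = 0) {n : ℕ} (g : Fin n → V)
    (hg : Function.Bijective (lc g)) (k : Fin n) : coords h2 g hg (g k) = Pi.single k 1 := by
  rw [← lc_single g k, coords_lc]

end

/-! ### the maps given by a flag and an orientation -/

section
variable {m : ℕ} (g : Fin m → VV m) (hg : Function.Surjective (lc g))

include hg in
theorem Wd_add {p : ℕ} (O : Fin (p + 1) → Fin m → VV m → C2) (hO : ∀ i, Ori m g (O i)) (v : VV m)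
    (s : Fin (p + 1) → VV m) : Wd m g O (fun i => v + s i) = Wd m g O s := by
  obtain ⟨x, rfl⟩ := hg v
  exact Wd_add_lc VV_add_self m g O hO x s

/-- the map `BV m → BW pt m` given by a flag and an orientation -/
def flagMap (o : Fin m → VV m → C2) (ho : Ori m g o) : SS.Map (SS.BV m) (SS.BW SS.pt m) :=
  BVhom (fun s => Wd m g (fun _ => o) s) (fun v s => Wd_add g hg _ (fun _ => ho) v s)
    (fun a s => Wd_map m g a (fun _ => o) s)

theorem flagMap_mk (o : Fin m → VV m → C2) (ho : Ori m g o) {p : ℕ} (s : Fin (p + 1) → VV m) :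
    (flagMap g hg o ho).app (BVmk m s) = Wd m g (fun _ => o) s :=
  BVrep_mk (fun s => Wd m g (fun _ => o) s) (fun v s => Wd_add g hg _ (fun _ => ho) v s) s

/-- the homotopy between the maps given by two orientations -/
def flagHtp (o0 o1 : Fin m → VV m → C2) (h0 : Ori m g o0) (h1 : Ori m g o1) :
    SS.Htp (SS.BV m) (SS.BW SS.pt m) :=
  BVhtp (fun χ s => Wd m g (fun i => if χ i = 0 then o0 else o1) s)
    (fun χ v s => Wd_add g hg _ (fun i => by split_ifs; exacts [h0, h1]) v s)
    (fun a χ s => Wd_map m g a (fun i => if χ i = 0 then o0 else o1) s)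

theorem flagHtp_mk (o0 o1 : Fin m → VV m → C2) (h0 : Ori m g o0) (h1 : Ori m g o1) {p : ℕ}
    (χ : Op p 1) (s : Fin (p + 1) → VV m) : (flagHtp g hg o0 o1 h0 h1).h p χ (BVmk m s) =
      Wd m g (fun i => if χ i = 0 then o0 else o1) s :=
  BVrep_mk (fun s => Wd m g (fun i => if χ i = 0 then o0 else o1) s)
    (fun v s => Wd_add g hg _ (fun i => by split_ifs; exacts [h0, h1]) v s) s

theorem flagHtp_e0 (o0 o1 : Fin m → VV m → C2) (h0 : Ori m g o0) (h1 : Ori m g o1) :
    (flagHtp g hg o0 o1 h0 h1).e0 = flagMap g hg o0 h0 := by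
  apply BVhom_ext
  intro p s
  rw [flagMap_mk]
  show (flagHtp g hg o0 o1 h0 h1).h p (c0 p) (BVmk m s) = _
  rw [flagHtp_mk]
  refine congrArg (fun O => Wd m g O s) (funext fun i => ?_)
  rw [if_pos (c0_val p i)]

theorem flagHtp_e1 (o0 o1 : Fin m → VV m → C2) (h0 : Ori m g o0) (h1 : Ori m g o1) :
    (flagHtp g hg o0 o1 h0 h1).e1 = flagMap g hg o1 h1 := by
  apply BVhom_ext
  intro p s
  rw [flagMap_mk]
  show (flagHtp g hg o0 o1 h0 h1).h p (c1 p) (BVmk m s) = _
  rw [flagHtp_mk]
  refine congrArg (fun O => Wd m g O s) (funext fun i => ?_)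
  rw [if_neg (by rw [c1_val]; exact one_ne_zero)]

theorem flagMap_mapH (o0 o1 : Fin m → VV m → C2) (h0 : Ori m g o0) (h1 : Ori m g o1)
    {R : Type} [CommRing R] (p : ℕ) (w : (SS.F R (SS.BW SS.pt m)).H p) :
    ((flagMap g hg o1 h1).pull (R := R)).mapH p w =
      ((flagMap g hg o0 h0).pull (R := R)).mapH p w := by
  rw [← flagHtp_e0 g hg o0 o1 h0 h1, ← flagHtp_e1 g hg o0 o1 h0 h1]
  exact (flagHtp g hg o0 o1 h0 h1).mapH_eq p w

end

theorem flagMap_ol {m : ℕ} (g : Fin m → VV m) (hg : Function.Bijective (lc g)) :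
    flagMap g hg.2 (ol (coords VV_add_self g hg)) (ol_ori (coords_gen VV_add_self g hg)) =
      (SS.BV.dn m).comp (BVlin (coords VV_add_self g hg)) := by
  apply BVhom_ext
  intro p s
  rw [flagMap_mk, SS.Map.comp_app, BVlin_mk, Wd_lin m g _ (coords_gen VV_add_self g hg)]

/-! ### the labelled set of a simplex of `BV m` -/

section
variable {m : ℕ} {e : VV m → ℕ} (he : Function.Injective e)

include he in
theorem lamf_injective {p : ℕ} (s : Fin (p + 1) → VV m) : Function.Injective (lamf e s) := by
  intro v w h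
  have h1 := congrFun h 0
  exact add_right_cancel (he h1)

include he in
theorem good_lam {p : ℕ} (s : Fin (p + 1) → VV m) :
    Good ((univ : Finset (VV m)).image (lamf e s)) := by
  intro i a ha b hb hab
  rw [mem_coe, mem_image] at ha hb
  obtain ⟨v, _, rfl⟩ := ha
  obtain ⟨w, _, rfl⟩ := hb
  have h1 : e (v + s i) = e (w + s i) := hab
  rw [add_right_cancel (he h1)]

theorem card_VV (m : ℕ) : Fintype.card (VV m) = 2 ^ m := by
  rw [Fintype.card_fun, ZMod.card, Fintype.card_fin]

theorem lamf_add {p : ℕ} (v : VV m) (s : Fin (p + 1) → VV m) (x : VV m) :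
    lamf e (fun i => v + s i) x = lamf e s (v + x) := by
  funext i
  show e (x + (v + s i)) = e (v + x + s i)
  congr 1
  abel

theorem image_lamf_add {p : ℕ} (v : VV m) (s : Fin (p + 1) → VV m) :
    (univ : Finset (VV m)).image (lamf e (fun i => v + s i)) =
      (univ : Finset (VV m)).image (lamf e s) := by
  ext a
  rw [mem_image, mem_image]
  constructor
  · rintro ⟨x, _, rfl⟩
    exact ⟨v + x, mem_univ _, (lamf_add v s x).symm⟩
  · rintro ⟨x, _, rfl⟩
    refine ⟨v + x, mem_univ _, ?_⟩
    rw [lamf_add, ← add_assoc, VV_add_self, zero_add]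

theorem res_lamf {p q : ℕ} (a : Op p q) (s : Fin (q + 1) → VV m) :
    (univ : Finset (VV m)).image (lamf e (fun i => s (a i))) =
      res a ((univ : Finset (VV m)).image (lamf e s)) := by
  unfold res
  rw [image_image]
  rfl

/-- The map `BV m → Gam (2^m)`. -/
def lam : SS.Map (SS.BV m) (Gam (2 ^ m)) :=
  BVhom (X := Gam (2 ^ m)) (fun s => ⟨(univ : Finset (VV m)).image (lamf e s), good_lam he s, by
      rw [card_image_of_injective _ (lamf_injective he s), card_univ, card_VV]⟩)
    (fun v s => Subtype.ext (image_lamf_add v s))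
    (fun a s => Subtype.ext (res_lamf a s))

theorem lam_mk {p : ℕ} (s : Fin (p + 1) → VV m) :
    ((lam he).app (BVmk m s)).1 = (univ : Finset (VV m)).image (lamf e s) :=
  BVrep_mk (fun s => (univ : Finset (VV m)).image (lamf e s)) (fun v s => image_lamf_add v s) s

/-! ### full trees on `𝔽₂^m` -/

instance fullAct (m : ℕ) : MulAction (Multiplicative (VV m)) (Full m (univ : Finset (VV m))) where
  smul g t := ⟨sh m (Multiplicative.toAdd g) t.1, by
    rw [leaves_sh, t.2]
    exact map_univ_equiv (Equiv.addLeft (Multiplicative.toAdd g))⟩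
  one_smul t := Subtype.ext (sh_zero m t.1)
  mul_smul g h t := Subtype.ext (sh_sh m _ _ t.1).symm

theorem fullAct_val {m : ℕ} (g : Multiplicative (VV m)) (t : Full m (univ : Finset (VV m))) :
    (g • t).1 = sh m (Multiplicative.toAdd g) t.1 := rfl

instance fullFintype (m : ℕ) (F : Finset (VV m)) : Fintype (Full m F) :=
  @Fintype.ofFinite _ (finite_full m F)

/-- the family of the trees on the labelled set of a simplex of `BV m` -/
def fullCorr : VCorr m (Full m (univ : Finset (VV m))) (SS.BW SS.pt m) where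
  K s t := cl m (TW.map (lamf e s) m (toTW m t.1))
  inv g s t := by
    have h1 : toTW m ((Multiplicative.ofAdd g • t : Full m (univ : Finset (VV m))).1) =
        TW.map (fun x => g + x) m (toTW m t.1) := toTW_mp (tl g) m t.1
    rw [h1, TW.map_map]
    congr 2
    funext x
    rw [lamf_add, ← add_assoc, VV_add_self, zero_add]
  nat a s t := by
    have h1 : TW.map (lamf e (fun i => s (a i))) m (toTW m t.1) =
        TW.map (rl a) m (TW.map (lamf e s) m (toTW m t.1)) := by
      rw [TW.map_map]
      rfl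
    have h2 : TW.map (lamf e s) m (toTW m t.1) ∈
        trees m ((univ : Finset (VV m)).image (lamf e s)) := by
      rw [trees_image (fun x _ y _ h => lamf_injective he s h)]
      exact mem_image_of_mem _ (toTW_mem.2 (subset_univ _))
    rw [h1]
    exact (good_lam he s).cl_map a m _ h2

theorem fullCorr_K {p : ℕ} (s : Fin (p + 1) → VV m) (t : Full m (univ : Finset (VV m))) :
    (fullCorr he).K s t = cl m (TW.map (lamf e s) m (toTW m t.1)) := rfl

/-- the sum over the full trees of the labelled set of a simplex of `BV m` -/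
theorem sum_fullTrees_lam {R : Type} [CommRing R] {p : ℕ}
    (w : (SS.F R (SS.BW SS.pt m)).obj p) (x : (SS.BV m).obj p) :
    ∑ t ∈ fullTrees m ((lam he).app x).1, w (cl m t) = ((fullCorr he).tr R).app p w x := by
  obtain ⟨s, rfl⟩ := BVmk_surjective m x
  rw [lam_mk, VCorr.tr_mk, sum_fullTrees_image (fun x _ y _ h => lamf_injective he s h),
    sum_fullTrees]
  rfl

/-- an invariant full tree -/
abbrev InvTree (m : ℕ) : Type :=
  {t : Full m (univ : Finset (VV m)) // stab (W := VV m) t = ⊤}

theorem InvTree.fixed {m : ℕ} (t : InvTree m) (v : VV m) : sh m v t.1.1 = t.1.1 :=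
  congrArg Subtype.val (fixed_iff.1 t.2 (Multiplicative.ofAdd v))

theorem InvTree.exists_flag {m : ℕ} (t : InvTree m) :
    ∃ g : Fin m → VV m, IsStd 0 m g t.1.1 ∧ Function.Bijective (lc g) :=
  exists_isStd_of_fixed VV_add_self (card_VV m) t.fixed

/-- the flag of an invariant tree -/
def InvTree.flag {m : ℕ} (t : InvTree m) : Fin m → VV m := t.exists_flag.choose

theorem InvTree.isStd {m : ℕ} (t : InvTree m) : IsStd 0 m t.flag t.1.1 :=
  t.exists_flag.choose_spec.1

theorem InvTree.bij {m : ℕ} (t : InvTree m) : Function.Bijective (lc t.flag) :=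
  t.exists_flag.choose_spec.2

/-- the linear isomorphism of an invariant tree -/
def InvTree.chi {m : ℕ} (t : InvTree m) : VV m →+ VV m := coords VV_add_self t.flag t.bij

theorem pt_eq_flagMap (t : InvTree m) :
    (fullCorr he).pt t.1 (fixed_iff.1 t.2) =
      flagMap t.flag t.bij.2 (oc e m t.flag 0) (oc_ori VV_add_self he m t.flag 0 t.isStd.prp) := by
  apply BVhom_ext
  intro p s
  rw [VCorr.pt_mk, flagMap_mk, fullCorr_K, t.isStd.toTW_eq, cl_std he m _ t.isStd.prp]

theorem mapH_pt (t : InvTree m) {R : Type} [CommRing R] (p : ℕ)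
    (w : (SS.F R (SS.BW SS.pt m)).H p) :
    (((fullCorr he).pt t.1 (fixed_iff.1 t.2)).pull (R := R)).mapH p w =
      ((BVlin t.chi).pull (R := R)).mapH p (((SS.BV.dn m).pull (R := R)).mapH p w) := by
  rw [pt_eq_flagMap, flagMap_mapH t.flag t.bij.2 (ol t.chi) (oc e m t.flag 0)
    (ol_ori (coords_gen VV_add_self t.flag t.bij)) (oc_ori VV_add_self he m t.flag 0 t.isStd.prp),
    ← Hom.mapH_comp, ← SS.Map.pull_comp]
  have h := flagMap_ol t.flag t.bij
  exact congrArg (fun f : SS.Map (SS.BV m) (SS.BW SS.pt m) => (f.pull (R := R)).mapH p w) h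

/-- **Main formula.**  Let `L` be the sum over the full trees.  Its pull-back to `BV m` is the sum
over the invariant trees of the linear transforms of the restriction of `w` to `BV m`. -/
theorem lam_mapH_full (L : Hom (SS.F (ZMod 2) (SS.BW SS.pt m)) (SS.F (ZMod 2) (Gam (2 ^ m))))
    (hL : ∀ (p : ℕ) (w : (SS.F (ZMod 2) (SS.BW SS.pt m)).obj p) (F : (Gam (2 ^ m)).obj p),
      L.app p w F = ∑ t ∈ fullTrees m F.1, w (cl m t)) [Fintype (InvTree m)] (p : ℕ)
    (w : (SS.F (ZMod 2) (SS.BW SS.pt m)).H p) :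
    ((lam he).pull (R := ZMod 2)).mapH p (L.mapH p w) =
      ∑ t : InvTree m, ((BVlin t.chi).pull (R := ZMod 2)).mapH p
        (((SS.BV.dn m).pull (R := ZMod 2)).mapH p w) := by
  classical
  have h1 : (((lam he).pull (R := ZMod 2)).comp L) = (fullCorr he).tr (ZMod 2) := by
    apply Hom.ext
    intro p w
    funext x
    rw [← sum_fullTrees_lam]
    exact hL p w _
  rw [← Hom.mapH_comp, h1, VCorr.mapH_tr _ (by decide)]
  exact Finset.sum_congr (by ext; simp) (fun t _ => mapH_pt he t p w)

end

end

end Vale.Agent.P263.TOP.H
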