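import Vale.Agent.P263.TI.TopDef
import Vale.Agent.P263.TI.Lift0

/-!
# P263, block H5: the functional on the Dickson algebra (abstract assembly, helper774)

`SymData T n d phi` : the facts which the geometry supplies about the functional `phi` on
`H^d(BW_{n+1})` and the symmetrisation `t = res ∘ (transfer over the trees)`.
`SymData.top` : they give the structure `TI.Top`; `SymData.phi_eq_zero` : if the functional on the Dickson
algebra vanishes then `phi` vanishes.
-/

namespace Vale.Agent.P263.TOP.H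

open Finset Polynomial Vale.Agent.P263.LZ Vale.Agent.P263.EX Vale.Agent.P263.EX.DS
open Vale.Agent.P263.EX.GE Vale.Agent.P263.TI

/-- The facts about the functional `phi` on `H^d(BW_{n+1})`. -/
structure SymData (T : Tower) (n d : ℕ) (phi : T.H (n + 1) d →ₗ[ZMod 2] ZMod 2) where
  /-- `phi` depends only on the restriction to `V_{n+1}` -/
  phi_r : ∀ w : T.H (n + 1) d, T.r (n + 1) d w = 0 → phi w = 0
  /-- the symmetrisation: pull-back to `BW_{n+1}` of the transfer over the trees -/
  t : T.H (n + 1) d → T.H (n + 1) d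
  phi_t : ∀ w, phi (t w) = phi w
  /-- the restriction of a symmetrised class is a Dickson class -/
  r_t : ∀ w, ∃ X : D (n + 1), T.r (n + 1) d (t w) = io (n + 1) X
  /-- the restriction of the symmetrisation of `P(y)` -/
  r_up : ∀ (c : ℕ) (h : 0 + 2 * c = d) (y : T.H n c) (Y : D n), T.r n c y = io n Y →
    T.r (n + 1) d (t (T.up n 0 c d h y)) =
      ∑ v ∈ univ.erase (0 : Fin (n + 1) → ZMod 2), Stv n v Y
  /-- `phi` kills the squares -/
  phi_sq : ∀ (a q : ℕ) (h : q + a = d) (y : T.H (n + 1) q), 1 ≤ a →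
    phi (T.sq (n + 1) a q d h y) = 0

namespace SymData

variable {T : Tower} {n d : ℕ} {phi : T.H (n + 1) d →ₗ[ZMod 2] ZMod 2}

theorem exists_ext (K : SymData T n d phi) : ∃ F : S (n + 1) →ₗ[ZMod 2] ZMod 2,
    ∀ w, F (T.r (n + 1) d w) = phi w := by
  have hle : LinearMap.ker (T.r (n + 1) d) ≤ LinearMap.ker phi := fun w hw =>
    K.phi_r w hw
  obtain ⟨F, hF⟩ := LinearMap.exists_extend
    (p := LinearMap.range (T.r (n + 1) d))
    (((LinearMap.ker (T.r (n + 1) d)).liftQ phi hle).comp
      (T.r (n + 1) d).quotKerEquivRange.symm.toLinearMap)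
  refine ⟨F, fun w => ?_⟩
  have h1 : F (T.r (n + 1) d w) = (F.comp (LinearMap.range (T.r (n + 1) d)).subtype)
      ⟨T.r (n + 1) d w, LinearMap.mem_range_self _ w⟩ := rfl
  rw [h1, hF]
  have h2 : (T.r (n + 1) d).quotKerEquivRange.symm
      ⟨T.r (n + 1) d w, LinearMap.mem_range_self _ w⟩ = Submodule.Quotient.mk w := by
    rw [LinearEquiv.symm_apply_eq]
    rfl
  show (LinearMap.ker (T.r (n + 1) d)).liftQ phi hle
    ((T.r (n + 1) d).quotKerEquivRange.symm ⟨T.r (n + 1) d w, LinearMap.mem_range_self _ w⟩) = _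
  rw [h2]
  rfl

/-- the functional on the Dickson algebra -/
noncomputable def xi (K : SymData T n d phi) : D (n + 1) →ₗ[ZMod 2] ZMod 2 :=
  (K.exists_ext.choose.comp (MvPolynomial.homogeneousComponent d)).comp
    (io (n + 1)).toLinearMap

theorem xi_apply (K : SymData T n d phi) (G : D (n + 1)) :
    K.xi G = K.exists_ext.choose (MvPolynomial.homogeneousComponent d (io (n + 1) G)) := rfl

theorem phi_io (K : SymData T n d phi) (w : T.H (n + 1) d) (G : D (n + 1))
    (h : T.r (n + 1) d w = io (n + 1) G) : phi w = K.xi G := by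
  rw [xi_apply, ← h, hc_self (T.r_hom _ _ w), K.exists_ext.choose_spec]

theorem wtm_nonneg (e : Fin (n + 1) →₀ ℕ) : 0 ≤ wtm e := by
  refine Finset.sum_nonneg fun i _ => mul_nonneg (Int.natCast_nonneg _) ?_
  have h1 : (2 : ℤ) ^ (i : ℕ) ≤ 2 ^ (n + 1) :=
    pow_le_pow_right₀ (by norm_num) (by have := i.2; omega)
  simp only [w]
  omega

theorem xi_supp (K : SymData T n d phi) (k : ℤ) (G : D (n + 1)) (hG : Hom (n + 1) k G)
    (hk : k ≠ d) : K.xi G = 0 := by
  rw [xi_apply]
  have key : MvPolynomial.homogeneousComponent d (io (n + 1) G) = 0 := by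
    conv_lhs => rw [eq_sum_mo G, map_sum, map_sum]
    refine Finset.sum_eq_zero fun e he => ?_
    have h1 : wtm e = k := hG.weight he
    obtain ⟨m, hm⟩ := Int.eq_ofNat_of_zero_le (wtm_nonneg e)
    have h2 : MvPolynomial.IsHomogeneous (io (n + 1) (mo e)) m := by
      apply io_homog
      have := hom_mo e
      rwa [hm] at this
    exact hc_ne h2 (by rintro rfl; exact hk (by rw [← h1, hm]))
  rw [key, map_zero]

theorem xi_sq (K : SymData T n d phi) (b : ℕ) (G : D (n + 1)) (hb : 1 ≤ b) :
    K.xi (s (n + 1) 0 b G) = 0 := by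
  refine mo_induction (P := fun G => K.xi (s (n + 1) 0 b G) = 0) ?_ ?_ ?_ G
  · rw [map_zero, map_zero]
  · intro x y hx hy
    rw [map_add, map_add, hx, hy, add_zero]
  · intro e
    obtain ⟨m, hm⟩ := Int.eq_ofNat_of_zero_le (wtm_nonneg e)
    have h1 : Hom (n + 1) (m : ℤ) (mo e) := by
      have := hom_mo e
      rwa [hm] at this
    by_cases hd : m + b = d
    · obtain ⟨U, hU⟩ := exists_lift T (n + 1) m (mo e) h1
      have h2 : T.r (n + 1) d (T.sq (n + 1) b m d hd U) = io (n + 1) (s (n + 1) 0 b (mo e)) := by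
        rw [T.r_sq, hU, Sq_io]
      rw [← K.phi_io _ _ h2]
      exact K.phi_sq b m hd U hb
    · exact K.xi_supp _ _ (s_hom h1 0 b) (by omega)

/-- **The structure `TI.Top`.** -/
noncomputable def top (K : SymData T n d phi) : Top T n d phi where
  xi := K.xi
  xi_supp := K.xi_supp
  xi_sq := K.xi_sq
  phi_io := K.phi_io
  phi_up c h y Y G hy hG := by
    rw [← K.phi_t]
    exact K.phi_io _ _ (by rw [K.r_up c h y Y hy, hG])

/-- If the functional on the Dickson algebra vanishes, `phi` vanishes. -/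
theorem phi_eq_zero (K : SymData T n d phi) (h : K.top.xi = 0) : phi = 0 := by
  apply LinearMap.ext
  intro w
  obtain ⟨X, hX⟩ := K.r_t w
  have h0 : K.xi = 0 := h
  rw [← K.phi_t, K.phi_io _ _ hX, h0]
  rfl

end SymData

end Vale.Agent.P263.TOP.H
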