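import Vale.Agent.P263.TOP.H.Assem
import Vale.Agent.P263.TOP.H.First

/-!
# P263, block H5 (helper774): the theorem `TopStmt`

`topStmt_of` : `TopStmt M` for every standard tower model `M`, from sections of the transfers over
the full trees.  `allStmt_of` : `AllStmt`.
-/

namespace Vale.Agent.P263.TOP.H

open Finset Vale.Agent.P263.S Vale.Agent.P263.E Vale.Agent.P263.TI Vale.Agent.P263.TW

/-- the sections of the transfers over the full trees -/
structure FullData where
  K : ∀ m, LRes m
  hK : ∀ m, (K m).L = LL m (2 ^ m)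

theorem FullData.onto (F : FullData) (d : ℕ) : Onto d := fun k x =>
  ⟨(F.K k).res d x, by rw [← F.hK k]; exact (F.K k).L_res d x⟩

/-- **Output of section H, first part.** -/
theorem topStmt_of {M : TowerModel} {P : PolD} (hM : MData M P) (F : FullData) : TopStmt M := by
  intro d k G hP n h
  have hP' : Prim (2 ^ k) d G.phi := prim_of hP
  have h0 : ∀ j, j < 2 ^ (n + 1) → xi G.phi j = 0 :=
    xi_eq_zero_of_hfun G.dpos hP' (F.onto d) fun i hi => (hT_eq_zero_iff G.phi M i).1 (h i hi)
  have hW : hfun G.phi (n + 1) = (xi G.phi (2 ^ (n + 1))).comp ((F.K (n + 1)).L.mapH d) := by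
    rw [F.hK]
    exact hfun_eq h0
  exact ⟨(symData hM (F.K (n + 1)) G hP' (fun m _ hm => h0 m hm) hW).top,
    (symData hM (F.K (n + 1)) G hP' (fun m _ hm => h0 m hm) hW).phi_eq_zero⟩

/-- **Output of section H, second part.** -/
theorem allStmt_of (F : FullData) : AllStmt := by
  intro d N phi hd hP h
  exact all_zero hd (prim_of hP) (F.onto d) h

end Vale.Agent.P263.TOP.H
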