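import Vale.Agent.P263.TOP.H.Weights
import Vale.Agent.P263.TOP.H.TCov
import Vale.Agent.P263.TOP.H.ColorYoung

/-!
P263, block [H]: the tree transfer is the sum over the weights of the transfers `LL n j` along the
trees with a fixed set of leaves.
-/

namespace Vale.Agent.P263.TOP.H

open Finset Vale.Agent.P263.S Vale.Agent.P263.E

/-- a tree of F is a tree of its set of leaves -/
theorem mem_trees_leaves {α : Type} [DecidableEq α] {F : Finset α} :
    ∀ (n : ℕ) (t : TW α n), t ∈ trees n F → t ∈ trees n (TW.leaves n t)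
  | 0, t, _ => mem_singleton_self (t : α)
  | n + 1, t, ht => by
    induction t using Sym2.ind with
    | _ s t =>
      rw [mem_trees_succ] at ht
      rw [TW.leaves_mk, mem_trees_succ]
      exact ⟨trees_mono subset_union_left n (mem_trees_leaves n s ht.1),
        trees_mono subset_union_right n (mem_trees_leaves n t ht.2.1), ht.2.2⟩

variable {R : Type} [CommRing R]

/-- sum over the trees with leaves exactly C -/
noncomputable def LL (n j : ℕ) : Hom (SS.F R (SS.BW SS.pt n)) (SS.F R (Gam j)) where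
  app p :=
    { toFun := fun w C => ∑ t ∈ fullT n C.1, w (cl n t)
      map_add' := fun w w' => by funext C; exact sum_add_distrib
      map_smul' := fun c w => by funext C; exact (mul_sum _ _ _).symm }
  nat {p q} φ w := by
    funext C
    show ∑ t ∈ fullT n C.1, w ((SS.BW SS.pt n).map φ (cl n t)) =
      ∑ t ∈ fullT n (res φ C.1), w (cl n t)
    rw [C.2.1.sum_fullT_res φ n]
    exact sum_congr rfl fun t ht => by rw [C.2.1.cl_map φ n t (mem_fullT.1 ht).1]

theorem LL_app (n j : ℕ) {p : ℕ} (w : (SS.F R (SS.BW SS.pt n)).obj p) (C : (Gam j).obj p) :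
    (LL (R := R) n j).app p w C = ∑ t ∈ fullT n C.1, w (cl n t) := rfl

/-- there are at most 2^n leaves -/
theorem LL_eq_zero {n j : ℕ} (h : 2 ^ n < j) {p : ℕ} (w : (SS.F R (SS.BW SS.pt n)).obj p) :
    (LL (R := R) n j).app p w = 0 := by
  funext C
  rw [LL_app]
  refine sum_eq_zero fun t ht => ?_
  exfalso
  have h1 := (mem_fullT.1 ht).2
  have h2 := card_leaves_le n t
  rw [h1, C.2.2] at h2
  omega

theorem sum_trees_eq {p : ℕ} (n : ℕ) (F : Finset (Lab p)) (w : TW (Lab p) n → R) :
    ∑ t ∈ trees n F, w t = ∑ j ∈ range (F.card + 1), ∑ C ∈ F.powersetCard j,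
      ∑ t ∈ fullT n C, w t := by
  rw [← sum_powerset (s := F) (f := fun C => ∑ t ∈ fullT n C, w t)]
  rw [← sum_fiberwise_of_maps_to (s := trees n F) (t := F.powerset)
    (g := fun t => TW.leaves n t) (fun t ht => mem_powerset.2 (leaves_subset n t ht))]
  refine sum_congr rfl fun C hC => ?_
  refine sum_congr ?_ fun _ _ => rfl
  rw [mem_powerset] at hC
  ext t
  rw [mem_filter, mem_fullT]
  constructor
  · rintro ⟨h1, h2⟩
    exact ⟨by rw [← h2]; exact mem_trees_leaves n t h1, h2⟩
  · rintro ⟨h1, h2⟩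
    exact ⟨trees_mono hC n h1, h2⟩

/-- the tree transfer, sorted by the set of leaves -/
theorem ctree_eq_sum (n N : ℕ) {p : ℕ} (w : (SS.F R (SS.BW SS.pt n)).obj p) :
    (ctree R n N).app p w = ∑ j ∈ range (N + 1), ((cW j N).comp (LL n j)).app p w := by
  funext F
  rw [ctree_apply]
  refine Eq.trans ?_ (F_sum_apply _ _ _).symm
  rw [sum_trees_eq, F.2.2]
  refine sum_congr rfl fun j _ => ?_
  show _ = (cW j N).app p ((LL n j).app p w) F
  rw [cW_app]
  refine sum_congr rfl fun C hC => ?_
  rw [mem_powersetCard] at hC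
  rw [e1_of _ ⟨F.2.1.mono hC.1, hC.2⟩]
  rfl

end Vale.Agent.P263.TOP.H
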